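import Crest.Agent.R167.ExB

/-!
# Lattice basics

Plan. Elementary: unfold `latG`, `cellE`, `cellS`, `latticeDir` (`fin_cases` on the direction), `omega`.
Cardinalities: inject an edge `p` into `(base point, direction)` (`Finset.card_le_card_of_injOn` into
`(Finset.Ico z.1 (z.1+L) ×ˢ Finset.Ico z.2 (z.2+L)) ×ˢ univ`).
`sum_abs_grad_single_le`: `|grad (single x 1) e| ≤ 1[s e = x] + 1[t e = x]`, and `e ↦ direction` is
injective on `{s e = x}` and on `{t e = x}`.
`twoPoint_eq`: `mu1 = c • toSphere`, so `lam = c^|V| • referenceLaw` (`Measure.pi_eq`, or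
`Measure.pi_smul`-type lemma; `c ≠ 0, ∞`), the constant cancels in the ratio; `Ex_univ`;
`⟪σ x, σ y⟫ = ∑ i, σ x i * σ y i`; `interaction_eq`: sum over the subtype `Edg V`
(`Finset.sum_subtype`/`Finset.sum_dite`, `Fintype.sum_prod_type'`).
-/

set_option autoImplicit false

namespace Crest.Agent.R167

open MeasureTheory Crest.ProbabilityR.SpinModel
open scoped RealInnerProductSpace

variable {V : Finset (ℤ × ℤ)} {b : ℤ × ℤ → Fin 2 → ℝ}

lemma Bb.bd {β : ℝ} (hb : Bb b β) (V : Finset (ℤ × ℤ)) : Bd (latG V b) β := fun e => hb _ _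

lemma latG_t (e : Edg V) : ((latG V b).t e : ℤ × ℤ) = ((latG V b).s e : ℤ × ℤ) + latticeDir e.1.2 :=
  rfl

/-- the two kinds of edges -/
lemma latG_cases (e : Edg V) :
    (e.1.2 = 0 ∧ ((latG V b).t e : ℤ × ℤ).1 = ((latG V b).s e : ℤ × ℤ).1 + 1 ∧
        ((latG V b).t e : ℤ × ℤ).2 = ((latG V b).s e : ℤ × ℤ).2) ∨
      (e.1.2 = 1 ∧ ((latG V b).t e : ℤ × ℤ).1 = ((latG V b).s e : ℤ × ℤ).1 ∧
        ((latG V b).t e : ℤ × ℤ).2 = ((latG V b).s e : ℤ × ℤ).2 + 1) := by
  rw [latG_t]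
  generalize e.1.2 = i
  fin_cases i <;> simp [latticeDir]

lemma mem_cellE {z : ℤ × ℤ} {L : ℕ} {e : Edg V} :
    e ∈ cellE V z L ↔ z.1 ≤ ((latG V b).s e : ℤ × ℤ).1 ∧ ((latG V b).s e : ℤ × ℤ).1 < z.1 + L ∧
      z.2 ≤ ((latG V b).s e : ℤ × ℤ).2 ∧ ((latG V b).s e : ℤ × ℤ).2 < z.2 + L := by
  simp [cellE, latG]

lemma mem_cellS {z : ℤ × ℤ} {L : ℕ} {u : V} :
    u ∈ cellS V z L ↔ z.1 < (u : ℤ × ℤ).1 ∧ (u : ℤ × ℤ).1 < z.1 + L ∧
      z.2 < (u : ℤ × ℤ).2 ∧ (u : ℤ × ℤ).2 < z.2 + L := by simp [cellS]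

lemma mem_box {x : ℤ × ℤ} {R : ℕ} {u : V} : u ∈ box V x R ↔ dd u x < R := by simp [box]

lemma dd_comm (u v : ℤ × ℤ) : dd u v = dd v u := by
  simp only [dd, abs_sub_comm]
lemma dd_self (u : ℤ × ℤ) : dd u u = 0 := by simp [dd]
lemma dd_nonneg (u v : ℤ × ℤ) : 0 ≤ dd u v := le_max_of_le_left (abs_nonneg _)
lemma dd_triangle (u v w : ℤ × ℤ) : dd u w ≤ dd u v + dd v w :=
  max_le ((abs_sub_le _ _ _).trans (add_le_add (le_max_left _ _) (le_max_left _ _)))
    ((abs_sub_le _ _ _).trans (add_le_add (le_max_right _ _) (le_max_right _ _)))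
lemma dd_s_t (e : Edg V) : dd ((latG V b).s e) ((latG V b).t e) ≤ 1 := by
  rcases latG_cases (b := b) e with ⟨-, h1, h2⟩ | ⟨-, h1, h2⟩ <;> simp [dd, h1, h2]

lemma card_cellE_dir_le (z : ℤ × ℤ) (L : ℕ) (i : Fin 2) :
    ((cellE V z L).filter fun p => p.1.2 = i).card ≤ L ^ 2 := by
  have := Finset.card_le_card_of_injOn (s := (cellE V z L).filter fun p => p.1.2 = i)
    (t := Finset.Ico z.1 (z.1 + L) ×ˢ Finset.Ico z.2 (z.2 + L)) (fun p => (p.1.1 : ℤ × ℤ))
    (fun p hp => by
      simp only [cellE, Finset.coe_filter, Finset.mem_filter, Finset.mem_univ, true_and,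
        Set.mem_ofPred_eq] at hp
      simp only [Finset.coe_product, Finset.coe_Ico, Set.mem_prod, Set.mem_Ico]
      tauto)
    (fun p hp q hq h => by
      simp only [Finset.coe_filter, Set.mem_ofPred_eq] at hp hq
      exact Subtype.ext (Prod.ext (Subtype.ext h) (hp.2.trans hq.2.symm)))
  simpa [sq] using this

lemma card_cellE_le (z : ℤ × ℤ) (L : ℕ) : (cellE V z L).card ≤ 2 * L ^ 2 := by
  rw [Finset.card_eq_sum_card_fiberwise (f := fun p : Edg V => p.1.2) (t := Finset.univ)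
    (fun _ _ => Finset.mem_univ _), Fin.sum_univ_two, two_mul]
  exact add_le_add (card_cellE_dir_le z L 0) (card_cellE_dir_le z L 1)

lemma touch_cellS {z : ℤ × ℤ} {L : ℕ} {e : Edg V} (h : Touch (latG V b) (cellS V z L) e) :
    e ∈ cellE V z L := by
  rw [mem_cellE (b := b)]
  have := latG_cases (b := b) e
  rcases h with h | h <;> rw [mem_cellS] at h <;> omega

lemma sum_dirA_sq_le (z : ℤ × ℤ) (L : ℕ) (i : Fin 2) :
    ∑ e, dirA V z L i e ^ 2 ≤ (L : ℝ) ^ 2 := by
  have : ∑ e, dirA V z L i e ^ 2 = (((cellE V z L).filter fun p => p.1.2 = i).card : ℝ) := by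
    simp only [dirA, ite_pow, one_pow, ne_eq, OfNat.ofNat_ne_zero, not_false_eq_true, zero_pow,
      Finset.sum_boole]
    congr 2
    ext p; simp
  rw [this]
  exact_mod_cast card_cellE_dir_le z L i

lemma sum_abs_grad_single_le (x : V) : ∑ e, |grad (latG V b) (Pi.single x 1) e| ≤ 4 := by
  have key : ∀ f : Edg V → V, (∀ e e' : Edg V, f e = f e' → e.1.2 = e'.1.2 → e = e') →
      ∑ e, (Pi.single x 1 : V → ℝ) (f e) ≤ 2 := fun f hf => by
    simp only [Pi.single_apply, Finset.sum_boole]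
    have := Finset.card_le_card_of_injOn (s := Finset.univ.filter fun e => f e = x)
      (t := (Finset.univ : Finset (Fin 2))) (fun e => e.1.2) (fun _ _ => Finset.mem_univ _)
      (fun e he e' he' h => by
        simp only [Finset.coe_filter, Finset.mem_univ, true_and, Set.mem_ofPred_eq] at he he'
        exact hf e e' (he.trans he'.symm) h)
    exact_mod_cast this
  have h1 := key (latG V b).s fun e e' h h' => Subtype.ext (Prod.ext h h')
  have h2 := key (latG V b).t fun e e' h h' => Subtype.ext (Prod.ext (Subtype.ext (by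
    have := congrArg Subtype.val h
    rw [latG_t, latG_t, h'] at this
    exact add_right_cancel this)) h')
  refine le_trans (Finset.sum_le_sum fun e _ => ?_) ((Finset.sum_add_distrib.trans_le
    (add_le_add h1 h2)).trans (by norm_num))
  refine (abs_sub _ _).trans (le_of_eq ?_)
  congr 1 <;> refine abs_of_nonneg ?_ <;> simp only [Pi.single_apply] <;> split_ifs <;> norm_num

/-- both ends of an edge touching a box lie in the closed box -/
lemma touch_box {x : ℤ × ℤ} {R : ℕ} {e : Edg V} (h : Touch (latG V b) (box V x R) e) :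
    dd ((latG V b).s e) x ≤ R ∧ dd ((latG V b).t e) x ≤ R := by
  have h1 := dd_s_t (b := b) e
  have h2 := dd_triangle ((latG V b).s e) ((latG V b).t e) x
  have h3 := dd_triangle ((latG V b).t e) ((latG V b).s e) x
  rw [dd_comm ((latG V b).t e) ((latG V b).s e)] at h3
  rcases h with h | h <;> rw [mem_box] at h <;> omega

/-- corner of the cell number `k` of the grid of mesh `L` with origin `z` -/
def corner (z : ℤ × ℤ) (L : ℕ) (k : ℤ × ℤ) : ℤ × ℤ := (z.1 + L * k.1, z.2 + L * k.2)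

lemma cellE_disj (z : ℤ × ℤ) (L : ℕ) {k k' : ℤ × ℤ} (h : k ≠ k') :
    Disjoint (cellE V (corner z L k) L) (cellE V (corner z L k') L) := by
  have key : ∀ a a' u : ℤ, L * a ≤ u → u < L * a + L → L * a' ≤ u → u < L * a' + L → a = a' := by
    intro a a' u h1 h2 h3 h4
    have hL : (0 : ℤ) ≤ L := Int.natCast_nonneg L
    rcases lt_trichotomy a a' with h | h | h
    · have := mul_le_mul_of_nonneg_left (show a + 1 ≤ a' from h) hL
      linarith
    · exact h
    · have := mul_le_mul_of_nonneg_left (show a' + 1 ≤ a from h) hL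
      linarith
  rw [Finset.disjoint_left]
  intro e he he'
  rw [mem_cellE (b := 0)] at he he'
  simp only [corner, latG] at he he'
  exact h (Prod.ext (key _ _ ((e.1.1 : ℤ × ℤ).1 - z.1) (by omega) (by omega) (by omega) (by omega))
    (key _ _ ((e.1.1 : ℤ × ℤ).2 - z.2) (by omega) (by omega) (by omega) (by omega)))

/-- every edge lies in the cell with number `⌊(s e - z) / L⌋` -/
lemma mem_cellE_corner (z : ℤ × ℤ) {L : ℕ} (hL : 0 < L) (e : Edg V) :
    e ∈ cellE V (corner z L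
      ((((latG V b).s e : ℤ × ℤ).1 - z.1) / L, (((latG V b).s e : ℤ × ℤ).2 - z.2) / L)) L := by
  rw [mem_cellE (b := b)]
  have hL' : (0 : ℤ) < L := by exact_mod_cast hL
  have key : ∀ u : ℤ, L * (u / L) ≤ u ∧ u < L * (u / L) + L := fun u => by
    have h1 := Int.mul_ediv_add_emod u L
    have h2 := Int.emod_nonneg u hL'.ne'
    have h3 := Int.emod_lt_of_pos u hL'
    omega
  have h1 := key (((latG V b).s e : ℤ × ℤ).1 - z.1)
  have h2 := key (((latG V b).s e : ℤ × ℤ).2 - z.2)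
  simp only [corner]
  omega

/-- the cells of a grid -/
def grid (V : Finset (ℤ × ℤ)) (b : ℤ × ℤ → Fin 2 → ℝ) (z : ℤ × ℤ) (L : ℕ)
    (Λ : Finset (ℤ × ℤ)) : Cells (latG V b) Λ where
  Eb k := cellE V (corner z L k) L
  Sb k := cellS V (corner z L k) L
  disj _ _ h := cellE_disj z L fun e => h (Subtype.ext e)
  touch _ _ h := touch_cellS h

variable {n : ℕ}

lemma interaction_eq (σ : Cfg n V) : interaction n V b σ = obs (latG V b) (1 : Op n) 1 σ := by
  rw [interaction, ← Fintype.sum_prod_type', Finset.sum_dite, obs_apply]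
  simp only [Finset.sum_const_zero, add_zero]
  refine Finset.sum_bij (fun p _ => ⟨p.1, (Finset.mem_filter.1 p.2).2⟩) (fun _ _ => Finset.mem_univ _)
    (fun p _ q _ h => Subtype.ext (Subtype.mk.inj h))
    (fun e _ => ⟨⟨e.1, Finset.mem_filter.2 ⟨Finset.mem_univ _, e.2⟩⟩, Finset.mem_univ _, rfl⟩)
    fun p _ => ?_
  simp [latG]

lemma lam_eq [NeZero n] : ∃ c : ENNReal, c ≠ 0 ∧ c ≠ ⊤ ∧ lam n V = c • referenceLaw n V := by
  set c := ((volume : Measure (E n)).toSphere Set.univ)⁻¹ with hc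
  have h0 : c ≠ 0 := ENNReal.inv_ne_zero.2 (measure_ne_top _ _)
  have h1 : c ≠ ⊤ := ENNReal.inv_ne_top.2
    fun h => Measure.toSphere_ne_zero _ (Measure.measure_univ_eq_zero.1 h)
  refine ⟨c ^ Fintype.card V, pow_ne_zero _ h0, ENNReal.pow_ne_top h1, ?_⟩
  refine Measure.pi_eq fun s _ => ?_
  simp only [referenceLaw, Measure.smul_apply, Measure.pi_pi, mu1, smul_eq_mul,
    Finset.prod_mul_distrib, Finset.prod_const, Finset.card_univ, hc]

lemma twoPoint_eq [NeZero n] (x y : V) (σ : Cfg n V) :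
    twoPoint n V b x y = ∑ i : Fin n, Ex (latG V b) Finset.univ
      (lin (EuclideanSpace.single i 1) x * lin (EuclideanSpace.single i 1) y) σ := by
  obtain ⟨c, h0, h1, hc⟩ := lam_eq (n := n) (V := V)
  rw [← ContinuousMap.sum_apply, ← map_sum, Ex_univ, hc, integral_smul_measure,
    integral_smul_measure, smul_eq_mul, smul_eq_mul,
    mul_div_mul_left _ _ (ENNReal.toReal_ne_zero.2 ⟨h0, h1⟩), twoPoint, partitionFn]
  simp only [interaction_eq, W_apply]
  congr 2
  funext η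
  congr 1
  simp [PiLp.inner_apply, ContinuousMap.sum_apply, mul_comm]

end Crest.Agent.R167
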