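import Crest.Agent.R167.RGStep
import Crest.Agent.R167.Lat

/-!
# The renormalisation step on the lattice

`PP_one`: `K_self_le`, `sum_dirA_sq_le`.
`PP_step_aux`: apply `rg_step` with `M = r w`, `W = w L`, `C = grid V b z L (Ico 0 M ×ˢ Ico 0 M)`,
`S = cellS V z (M L)`, `A = dirA V z (M L) i` (`res (Eb k) A = dirA V (corner z L k) L i`),
`a = (M L)²`, `N = 2 L²`, `f = 1 / w`, `g = L (1 + r)`,
`d(u) = min (min (u.1 - z.1) (z.1 + M L - u.1)) (min (u.2 - z.2) (z.2 + M L - u.2))` (1-Lipschitz for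
`dd`), `cl(s) = max 0 (min 1 s)` (1-Lipschitz), `χ(u) = cl (d u / W)`, `φ(u) = cl ((d u - W) / W)`,
`ψ(u) = χ(u) (z_i - u_i)`, `φB k = φ (corner z L k)` (define them on all of `ℤ × ℤ`).
Both ends of an edge of the cell `k` lie in the closed square `corner + [0, L]²` ⊆ `z + [0, M L]²`.
Inner cells (`w ≤ k.1, k.2 < M - w`): `d ≥ W` on the closed cell, `χ = 1`, `grad ψ = A`; other cells:
`d ≤ W` on the closed cell, `φ = 0`. `|χ(u) p(u) - χ(v) p(v)| ≤ |p u - p v| + |χ u - χ v| M L`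
gives `|grad ψ| ≤ 1 + r` and `|ψ(t e) - ψ(corner)| ≤ L (1 + r)`. `φB k = 1` unless one of
`k.1, M - k.1, k.2, M - k.2` is `< 2 w`: at most `8 w M` cells. `grad φ`, `grad ψ` vanish off
`cellE V z (M L)` (`touch_cellS`), so `∑ (∇φ)² ≤ 2 r²`, `∑ (∇ψ)² ≤ 2 (M L)² (1 + r)²`.
`PP_step`: choose `r ≥ 192 β / ε` (`r ≥ 1`), then `w` large. `PP_small`: iterate (`κ_j = max ε (3β - jδ)`;
`PP.mono`).
-/

set_option autoImplicit false

namespace Crest.Agent.R167

open MeasureTheory Crest.ProbabilityR.SpinModel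
open scoped RealInnerProductSpace

namespace RGLatA

/-- clamp to `[0, 1]` -/
noncomputable def cl (s : ℝ) : ℝ := max 0 (min 1 s)

lemma cl_nonneg (s : ℝ) : 0 ≤ cl s := le_max_left _ _
lemma cl_le_one (s : ℝ) : cl s ≤ 1 := max_le zero_le_one (min_le_left _ _)
lemma abs_cl_le (s : ℝ) : |cl s| ≤ 1 := by rw [abs_of_nonneg (cl_nonneg s)]; exact cl_le_one s
lemma cl_of_nonpos {s : ℝ} (h : s ≤ 0) : cl s = 0 := max_eq_left ((min_le_right _ _).trans h)
lemma cl_of_one_le {s : ℝ} (h : 1 ≤ s) : cl s = 1 := by simp [cl, h]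
lemma cl_of_mem {s : ℝ} (h0 : 0 ≤ s) (h : s ≤ 1) : cl s = s := by simp [cl, h, h0]
lemma cl_lip (s t : ℝ) : |cl s - cl t| ≤ |s - t| := by
  have h1 := le_abs_self (s - t)
  have h2 := neg_abs_le (s - t)
  simp only [cl, max_def, min_def]
  split_ifs <;> rw [abs_le] <;> constructor <;> linarith

lemma dd_le_iff {u v : ℤ × ℤ} {R : ℤ} : dd u v ≤ R ↔
    u.1 - v.1 ≤ R ∧ v.1 - u.1 ≤ R ∧ u.2 - v.2 ≤ R ∧ v.2 - u.2 ≤ R := by
  simp only [dd, max_le_iff, abs_le]; omega

lemma dd_lt_iff {u v : ℤ × ℤ} {R : ℤ} : dd u v < R ↔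
    u.1 - v.1 < R ∧ v.1 - u.1 < R ∧ u.2 - v.2 < R ∧ v.2 - u.2 < R := by
  simp only [dd, max_lt_iff, abs_lt]; omega

/-- distance to the boundary of the big square -/
def dz (z : ℤ × ℤ) (R : ℤ) (u : ℤ × ℤ) : ℤ :=
  min (min (u.1 - z.1) (z.1 + R - u.1)) (min (u.2 - z.2) (z.2 + R - u.2))

lemma dz_lip (z : ℤ × ℤ) (R : ℤ) (u v : ℤ × ℤ) : |dz z R u - dz z R v| ≤ dd u v := by
  have := dd_le_iff.1 (le_refl (dd u v))
  rw [abs_le]; simp only [dz]; omega

lemma cl_lip' {W : ℝ} (hW : 0 < W) (c : ℝ) {a a' D : ℤ} (h : |a - a'| ≤ D) :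
    |cl ((a - c) / W) - cl ((a' - c) / W)| ≤ D / W := by
  refine (cl_lip _ _).trans ?_
  rw [← sub_div, abs_div, abs_of_pos hW, sub_sub_sub_cancel_right]
  gcongr
  exact_mod_cast h

/-- closed squares -/
def InC (c : ℤ × ℤ) (L : ℤ) (u : ℤ × ℤ) : Prop :=
  c.1 ≤ u.1 ∧ u.1 ≤ c.1 + L ∧ c.2 ≤ u.2 ∧ u.2 ≤ c.2 + L

lemma inC_of_mem {V : Finset (ℤ × ℤ)} (b : ℤ × ℤ → Fin 2 → ℝ) {c : ℤ × ℤ} {L : ℕ} {e : Edg V}
    (h : e ∈ cellE V c L) : InC c L ((latG V b).s e) ∧ InC c L ((latG V b).t e) := by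
  rw [mem_cellE (b := b)] at h
  have := latG_cases (b := b) e
  simp only [InC]; omega

/-- coordinates -/
def co (i : Fin 2) (u : ℤ × ℤ) : ℤ := if i = 0 then u.1 else u.2

lemma co_lip (i : Fin 2) (u v : ℤ × ℤ) : |co i u - co i v| ≤ dd u v := by
  have := dd_le_iff.1 (le_refl (dd u v))
  rw [abs_le]; simp only [co]; split_ifs <;> omega

lemma co_t {V : Finset (ℤ × ℤ)} (b : ℤ × ℤ → Fin 2 → ℝ) (i : Fin 2) (e : Edg V) :
    co i ((latG V b).t e) - co i ((latG V b).s e) = if e.1.2 = i then 1 else 0 := by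
  rcases latG_cases (b := b) e with ⟨h0, h1, h2⟩ | ⟨h0, h1, h2⟩ <;> rw [h0] <;> fin_cases i <;>
    simp [co, h1, h2]

lemma sum_sq_le {V : Finset (ℤ × ℤ)} (z : ℤ × ℤ) (R : ℕ) {A : Edg V → ℝ} {a : ℝ}
    (h0 : ∀ e, e ∉ cellE V z R → A e = 0) (h : ∀ e ∈ cellE V z R, |A e| ≤ a) :
    ∑ e, A e ^ 2 ≤ 2 * (R : ℝ) ^ 2 * a ^ 2 := by
  rw [← Finset.sum_subset (Finset.subset_univ (cellE V z R)) fun e _ he => by simp [h0 e he]]
  refine (Finset.sum_le_card_nsmul _ _ (a ^ 2) fun e he => ?_).trans ?_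
  · rw [← sq_abs]; exact pow_le_pow_left₀ (abs_nonneg _) (h e he) 2
  · rw [nsmul_eq_mul]
    gcongr
    exact_mod_cast card_cellE_le z R

lemma sum_bd (M w : ℕ) : ∑ j ∈ Finset.Ico (0 : ℤ) M,
    ((if j < 2 * w then (1 : ℝ) else 0) + if M - j < 2 * w then 1 else 0) ≤ 4 * w := by
  rw [Finset.sum_add_distrib, Finset.sum_boole, Finset.sum_boole]
  have h1 : ((Finset.Ico (0 : ℤ) M).filter fun j : ℤ => j < 2 * w).card ≤ 2 * w := by
    refine (Finset.card_le_card (t := Finset.Ico (0 : ℤ) (2 * w)) fun j hj => ?_).trans ?_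
    · simp only [Finset.mem_filter, Finset.mem_Ico] at hj ⊢; omega
    · simp only [Int.card_Ico]; omega
  have h2 : ((Finset.Ico (0 : ℤ) M).filter fun j : ℤ => M - j < 2 * w).card ≤ 2 * w := by
    refine (Finset.card_le_card (t := Finset.Ico (M - 2 * w : ℤ) M) fun j hj => ?_).trans ?_
    · simp only [Finset.mem_filter, Finset.mem_Ico] at hj ⊢; omega
    · simp only [Int.card_Ico]; omega
  have h1' := (Nat.cast_le (α := ℝ)).2 h1
  have h2' := (Nat.cast_le (α := ℝ)).2 h2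
  push_cast at h1' h2'
  linarith

end RGLatA

open RGLatA

variable {n : ℕ} [NeZero n]

lemma PP.mono {β κ κ' : ℝ} {L : ℕ} (h : PP n β L κ) (hk : κ ≤ κ') : PP n β L κ' :=
  fun τ V b hb z i σ => (h τ V b hb z i σ).trans (by gcongr)

lemma PP_one {β : ℝ} (hβ : 0 ≤ β) : PP n β 1 (3 * β) := fun τ V b hb z i σ =>
  (K_self_le _ (hb.bd V) hβ τ _ _ σ).trans (by
    have := sum_dirA_sq_le (V := V) z 1 i
    gcongr)

lemma PP_step_aux {β ε κ : ℝ} (hβ : 0 ≤ β) (hε : 0 < ε) {L r w : ℕ} (hL : 0 < L) (hr : 0 < r)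
    (hw : 0 < w) (hr' : 192 * β ≤ ε * r)
    (hw' : 448 * (1 + β * (2 * (L : ℝ) ^ 2)) ^ 3 * (1 + r) ≤ ε * w) (h : PP n β L κ) :
    PP n β (r * w * L)
      (max ε (κ - ε ^ 2 / (8 * (3 * β + ε + 4 * (96 * β ^ 2 * r ^ 2 * (1 + r) ^ 2))))) := by
  intro τ V b hb z i σ
  set M : ℕ := r * w with hM
  set R : ℕ := M * L with hR
  have hL' : (1 : ℝ) ≤ L := by exact_mod_cast hL
  have hr1 : (1 : ℝ) ≤ r := by exact_mod_cast hr
  have hw1 : (1 : ℝ) ≤ w := by exact_mod_cast hw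
  have hMr : (M : ℝ) = r * w := by simp [hM]
  have hRr : (R : ℝ) = r * w * L := by simp [hR, hM]
  have hW : (0 : ℝ) < w * L := by positivity
  have hRz : (R : ℤ) = L * M := by simp [hR, mul_comm]
  have mono : ∀ j j' : ℤ, j ≤ j' → (L : ℤ) * j ≤ L * j' := fun j j' h =>
    mul_le_mul_of_nonneg_left h (Int.natCast_nonneg L)
  let Λ : Finset (ℤ × ℤ) := Finset.Ico (0 : ℤ) M ×ˢ Finset.Ico (0 : ℤ) M
  have hΛ : ∀ k : ℤ × ℤ, k ∈ Λ ↔ (0 ≤ k.1 ∧ k.1 < M) ∧ 0 ≤ k.2 ∧ k.2 < M := fun k => by simp [Λ]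
  have hcard : (Fintype.card Λ : ℝ) = (M : ℝ) ^ 2 := by simp [Λ, sq]
  have hk : ∀ k : Λ, 0 ≤ (L : ℤ) * k.1.1 ∧ (L : ℤ) * k.1.1 + L ≤ R ∧ 0 ≤ (L : ℤ) * k.1.2 ∧
      (L : ℤ) * k.1.2 + L ≤ R := fun k => by
    obtain ⟨⟨h1, h2⟩, h3, h4⟩ := (hΛ _).1 k.2
    have a1 := mono _ _ h1
    have a2 := mono (k.1.1 + 1) M h2
    have a3 := mono _ _ h3
    have a4 := mono (k.1.2 + 1) M h4
    rw [hRz]; refine ⟨?_, ?_, ?_, ?_⟩ <;> linarith
  let χ : ℤ × ℤ → ℝ := fun u => cl (((dz z R u : ℝ) - 0) / (w * L))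
  let φ : ℤ × ℤ → ℝ := fun u => cl (((dz z R u : ℝ) - w * L) / (w * L))
  let ψ : ℤ × ℤ → ℝ := fun u => χ u * ((co i z - co i u : ℤ) : ℝ)
  have φlip : ∀ u v, |φ u - φ v| ≤ dd u v / (w * L) := fun u v =>
    cl_lip' hW _ (dz_lip z R u v)
  have ψlip : ∀ u v, InC z R v → |ψ u - ψ v| ≤ dd u v * (1 + r) := fun u v hv => by
    have h1 : |χ u - χ v| ≤ dd u v / (w * L) := cl_lip' hW _ (dz_lip z R u v)
    have h2 : |((co i z - co i u : ℤ) : ℝ) - (co i z - co i v : ℤ)| ≤ dd u v := by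
      have := co_lip i u v
      rw [abs_sub_comm] at this
      push_cast
      rw [sub_sub_sub_cancel_left]
      exact_mod_cast this
    have h3 : |((co i z - co i v : ℤ) : ℝ)| ≤ R := by
      have : |co i z - co i v| ≤ R := by
        rw [abs_le]; simp only [co, InC] at hv ⊢; split_ifs <;> omega
      exact_mod_cast this
    have e : ψ u - ψ v = χ u * (((co i z - co i u : ℤ) : ℝ) - (co i z - co i v : ℤ)) +
        (χ u - χ v) * ((co i z - co i v : ℤ) : ℝ) := by simp only [ψ]; ring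
    have hd : (0 : ℝ) ≤ dd u v := by exact_mod_cast dd_nonneg u v
    rw [e]
    refine (abs_add_le _ _).trans ?_
    rw [abs_mul, abs_mul]
    calc _ ≤ 1 * (dd u v : ℝ) + dd u v / (w * L) * R := by
          gcongr
          exact abs_cl_le _
      _ = _ := by rw [hRr]; field_simp
  have hsub : ∀ (k : Λ) u, InC (corner z L k) L u → InC z R u := fun k u hu => by
    have := hk k
    simp only [InC, corner] at hu ⊢; omega
  have hsubE : ∀ (k : Λ) (e : Edg V), e ∈ cellE V (corner z L k) L → e ∈ cellE V z R :=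
    fun k e he => by
      have := hk k
      rw [mem_cellE (b := b)] at he ⊢
      simp only [corner] at he; omega
  have hcover : ∀ e ∈ cellE V z R, ∃ B, e ∈ (grid V b z L Λ).Eb B := fun e he => by
    have h1 := mem_cellE_corner (b := b) z hL e
    refine ⟨⟨_, (hΛ _).2 ?_⟩, h1⟩
    rw [mem_cellE (b := b)] at he
    have hL0 : (0 : ℤ) < L := by exact_mod_cast hL
    have key : ∀ u : ℤ, 0 ≤ u → u < R → 0 ≤ u / L ∧ u / L < M := fun u h0 h1 =>
      ⟨Int.ediv_nonneg h0 hL0.le, Int.ediv_lt_of_lt_mul hL0 (by rw [mul_comm, ← hRz]; exact h1)⟩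
    exact ⟨key _ (by omega) (by omega), key _ (by omega) (by omega)⟩
  have hout : ∀ u : V, u ∉ cellS V z R → (dz z R u : ℝ) ≤ 0 := fun u hu => by
    rw [mem_cellS] at hu
    have : dz z R u ≤ 0 := by simp only [dz]; omega
    exact_mod_cast this
  have hφ0 : ∀ u : V, u ∉ cellS V z R → φ u = 0 := fun u hu =>
    cl_of_nonpos (div_nonpos_of_nonpos_of_nonneg (by linarith [hout u hu]) hW.le)
  have hψ0 : ∀ u : V, u ∉ cellS V z R → ψ u = 0 := fun u hu => by
    have : χ u = 0 := cl_of_nonpos (div_nonpos_of_nonpos_of_nonneg (by linarith [hout u hu]) hW.le)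
    simp only [ψ, this, zero_mul]
  have hst : ∀ e : Edg V, (dd ((latG V b).s e) ((latG V b).t e) : ℝ) ≤ 1 := fun e => by
    exact_mod_cast dd_s_t e
  have hgφ : ∀ e : Edg V, |grad (latG V b) (fun u : V => φ u) e| ≤ 1 / (w * L) := fun e =>
    (φlip _ _).trans (by gcongr; exact hst e)
  have hgψ : ∀ e ∈ cellE V z R, |grad (latG V b) (fun u : V => ψ u) e| ≤ 1 + r := fun e he =>
    (ψlip _ _ (inC_of_mem b he).2).trans (mul_le_of_le_one_left (by positivity) (hst e))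
  have hoff : ∀ θ : V → ℝ, (∀ u, u ∉ cellS V z R → θ u = 0) → ∀ e, e ∉ cellE V z R →
      grad (latG V b) θ e = 0 := fun θ hθ e he => by
    have : ¬Touch (latG V b) (cellS V z R) e := fun h => he (touch_cellS h)
    simp only [Touch, not_or] at this
    simp [grad, hθ _ this.1, hθ _ this.2]
  have hdc : ∀ (k : Λ), ∀ e ∈ cellE V (corner z L k) L,
      (dd ((latG V b).t e) (corner z L k) : ℝ) ≤ L := fun k e he => by
    have := (inC_of_mem b he).2
    have : dd ((latG V b).t e) (corner z L k) ≤ L := by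
      rw [dd_le_iff]; simp only [InC] at this; omega
    exact_mod_cast this
  have hcc : ∀ k : Λ, InC (corner z L k) L (corner z L k) := fun k => by
    simp only [InC]; omega
  refine rg_step (latG V b) (f := 1 / w) (g := L * (1 + r)) (N := 2 * L ^ 2) (hb.bd V) hβ τ
    (grid V b z L Λ) (φ := fun u : V => φ u) (ψ := fun u : V => ψ u)
    (φB := fun k => φ (corner z L k)) ?_ hφ0 hψ0 (fun B => card_cellE_le _ _) (by positivity)
    (by nlinarith) (fun B e _ => (hgφ e).trans ?_) (fun B e he => (hgψ e (hsubE B e he)).trans ?_)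
    (fun B => ⟨ψ (corner z L B), fun e he => (ψlip _ _ (hsub B _ (hcc B))).trans ?_⟩)
    (fun e => ?_) (fun e he => hcover e ?_) (fun e he => hcover e (touch_cellS (Or.inr he)))
    (fun x => abs_cl_le _) (fun B => ⟨cl_nonneg _, cl_le_one _⟩)
    (fun B e he => (φlip _ _).trans ?_) (fun B => ?_) (by rw [hRr]; positivity) hε
    (by positivity) (sum_dirA_sq_le z R i) ?_ ?_ ?_ (fun σ => ?_) σ
  · intro u hu
    obtain ⟨B, -, hu⟩ := Finset.mem_biUnion.1 hu
    have := hk B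
    have hu' := mem_cellS.1 hu
    rw [mem_cellS]
    simp only [corner] at hu'; omega
  · gcongr; exact le_mul_of_one_le_right (by positivity) hL'
  · exact le_mul_of_one_le_left (by positivity) hL'
  · gcongr; exact hdc B e he
  · simp only [dirA]; split_ifs <;> simp
  · by_contra h'
    exact he (by simp [dirA, h'])
  · refine (div_le_div_of_nonneg_right (hdc B e he) hW.le).trans (le_of_eq ?_)
    field_simp
  · by_cases hin : (w ≤ B.1.1 ∧ B.1.1 + w < M) ∧ w ≤ B.1.2 ∧ B.1.2 + w < M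
    · refine Or.inl fun e he => ?_
      have hχ : ∀ u, InC (corner z L B) L u → χ u = 1 := fun u hu => by
        refine cl_of_one_le ?_
        rw [le_div_iff₀ hW, one_mul, sub_zero]
        have a1 := mono _ _ hin.1.1
        have a2 := mono (B.1.1 + w + 1) M hin.1.2
        have a3 := mono _ _ hin.2.1
        have a4 := mono (B.1.2 + w + 1) M hin.2.2
        rw [mul_add, mul_add, mul_one, ← hRz] at a2 a4
        have : (L : ℤ) * w ≤ dz z R u := by simp only [InC, corner, dz] at hu ⊢; omega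
        rw [mul_comm]; exact_mod_cast this
      have h1 := inC_of_mem b he
      have h2 := co_t b i e
      simp only [grad, ψ, hχ _ h1.1, hχ _ h1.2, one_mul, dirA, hsubE B e he, true_and]
      rw [← Int.cast_sub, sub_sub_sub_cancel_left, h2]
      split_ifs <;> simp
    · have hφ : ∀ u, InC (corner z L B) L u → φ u = 0 := fun u hu => by
        refine cl_of_nonpos (div_nonpos_of_nonpos_of_nonneg ?_ hW.le)
        have : dz z R u ≤ (L : ℤ) * w := by
          simp only [InC, corner, dz] at hu ⊢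
          have a1 := mono (B.1.1 + 1) w
          have a2 := mono M (B.1.1 + w)
          have a3 := mono (B.1.2 + 1) w
          have a4 := mono M (B.1.2 + w)
          rw [mul_add, mul_one] at a1 a3
          rw [mul_add, ← hRz] at a2 a4
          omega
        have : (dz z R u : ℝ) ≤ L * w := by exact_mod_cast this
        linarith
      exact Or.inr ⟨hφ _ (hcc B), fun e he => hφ _ (inC_of_mem b he).2⟩
  · rw [hcard, hRr, ← hMr]
    push_cast
    set X := (1 + β * (2 * (L : ℝ) ^ 2)) ^ 3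
    have h1 : 112 * X * (1 / w) * (L * (1 + r)) ≤ ε * L ^ 2 / 4 := by
      have : 112 * X * (1 / w) * (L * (1 + r)) = 448 * X * (1 + r) / w * L / 4 := by ring
      rw [this, sq, ← mul_assoc]
      gcongr
      rw [div_le_iff₀ (by positivity)]
      refine hw'.trans ?_
      gcongr
      exact le_mul_of_one_le_right hε.le hL'
    calc _ ≤ (M : ℝ) ^ 2 * (ε * L ^ 2 / 4) := by gcongr
      _ = _ := by ring
  · let hh : ℤ → ℝ := fun j =>
      (if j < 2 * w then (1 : ℝ) else 0) + if M - j < 2 * w then 1 else 0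
    have h0 : ∀ j, 0 ≤ hh j := fun j => by simp only [hh]; positivity
    have h1 : ∀ k : Λ, 1 - φ (corner z L k) ≤ hh k.1.1 + hh k.1.2 := fun k => by
      by_cases hin : (2 * w ≤ k.1.1 ∧ 2 * w ≤ M - k.1.1) ∧ 2 * w ≤ k.1.2 ∧ 2 * w ≤ M - k.1.2
      · have : φ (corner z L k) = 1 := by
          refine cl_of_one_le ?_
          rw [le_div_iff₀ hW, one_mul]
          have a1 := mono _ _ hin.1.1
          have a2 := mono _ _ hin.1.2
          have a3 := mono _ _ hin.2.1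
          have a4 := mono _ _ hin.2.2
          rw [mul_sub, ← hRz] at a2 a4
          have : (L : ℤ) * (2 * w) ≤ dz z R (corner z L k) := by
            simp only [corner, dz]; omega
          have : (L : ℝ) * (2 * w) ≤ dz z R (corner z L k) := by exact_mod_cast this
          linarith
        linarith [h0 k.1.1, h0 k.1.2]
      · have : 1 ≤ hh k.1.1 + hh k.1.2 := by
          simp only [hh]
          split_ifs <;> first | omega | norm_num
        linarith [cl_nonneg (((dz z R (corner z L k) : ℝ) - w * L) / (w * L))]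
    have h2 : ∑ k : Λ, (hh k.1.1 + hh k.1.2) ≤ 8 * w * M := by
      rw [Finset.sum_coe_sort Λ fun k => hh k.1 + hh k.2, Finset.sum_product]
      simp only [Finset.sum_add_distrib, Finset.sum_const, Int.card_Ico, sub_zero,
        Int.toNat_natCast, nsmul_eq_mul, ← Finset.mul_sum]
      have := mul_le_mul_of_nonneg_left (sum_bd M w) (Nat.cast_nonneg (α := ℝ) M)
      simp only [hh]
      linarith
    have h3 := (Finset.sum_le_sum fun k (_ : k ∈ Finset.univ) => h1 k).trans h2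
    rw [hRr]
    push_cast
    calc _ ≤ 3 * β * (2 * (L : ℝ) ^ 2) * (8 * w * M) := by gcongr
      _ = (192 * β) * (r * (w * L) ^ 2 / 4) := by rw [hMr]; ring
      _ ≤ (ε * r) * (r * (w * L) ^ 2 / 4) := by gcongr
      _ = _ := by ring
  · have h1 := sum_sq_le z R (hoff _ hφ0) fun e _ => hgφ e
    have h2 := sum_sq_le z R (hoff _ hψ0) hgψ
    calc _ ≤ 24 * β ^ 2 * (2 * (R : ℝ) ^ 2 * (1 / (w * L)) ^ 2) *
          (2 * (R : ℝ) ^ 2 * (1 + r) ^ 2) := by gcongr
      _ = _ := by rw [hRr]; field_simp; ring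
  · have e : ∀ B : Λ, res ((grid V b z L Λ).Eb B) (dirA V z R i) = dirA V (corner z L B) L i :=
      fun B => by
        funext e
        by_cases he : e ∈ cellE V (corner z L B) L
        · simp [res, dirA, grid, he, hsubE B e he]
        · simp [res, dirA, grid, he]
    simp only [e, ContinuousMap.sum_apply]
    refine (Finset.sum_le_card_nsmul _ _ (κ * (L : ℝ) ^ 2) fun (B : Λ) _ =>
      h τ V b hb (corner z L B) i σ).trans (le_of_eq ?_)
    rw [nsmul_eq_mul, Finset.card_univ, hcard, hRr, hMr]; ring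

theorem PP_step {β ε : ℝ} (hβ : 0 ≤ β) (hε : 0 < ε) :
    ∃ δ : ℝ, 0 < δ ∧ ∀ (L : ℕ) (κ : ℝ), 0 < L → PP n β L κ →
      ∃ L' : ℕ, 0 < L' ∧ PP n β L' (max ε (κ - δ)) := by
  have key : ∀ c : ℝ, ∃ r : ℕ, 0 < r ∧ c ≤ ε * r := fun c => by
    obtain ⟨r, hr⟩ := exists_nat_gt (max (c / ε) 0)
    refine ⟨r, by exact_mod_cast (le_max_right _ _).trans_lt hr, ?_⟩
    have := (le_max_left _ _).trans_lt hr
    rw [div_lt_iff₀ hε] at this
    linarith
  obtain ⟨r, hr, hr'⟩ := key (192 * β)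
  refine ⟨ε ^ 2 / (8 * (3 * β + ε + 4 * (96 * β ^ 2 * r ^ 2 * (1 + r) ^ 2))), ?_,
    fun L κ hL h => ?_⟩
  swap
  · obtain ⟨w, hw, hw'⟩ := key (448 * (1 + β * (2 * (L : ℝ) ^ 2)) ^ 3 * (1 + r))
    exact ⟨r * w * L, by positivity, PP_step_aux hβ hε hL hr hw hr' hw' h⟩
  · positivity

theorem PP_small {β ε : ℝ} (hβ : 0 ≤ β) (hε : 0 < ε) : ∃ L : ℕ, 0 < L ∧ PP n β L ε := by
  obtain ⟨δ, hδ, h⟩ := PP_step (n := n) hβ hε
  have key : ∀ j : ℕ, ∃ L : ℕ, 0 < L ∧ PP n β L (max ε (3 * β - j * δ)) := fun j => by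
    induction j with
    | zero => exact ⟨1, one_pos, (PP_one hβ).mono (by simp)⟩
    | succ j ih =>
      obtain ⟨L, hL, hP⟩ := ih
      obtain ⟨L', hL', hP'⟩ := h L _ hL hP
      refine ⟨L', hL', hP'.mono (max_le (le_max_left _ _) ?_)⟩
      rw [sub_le_iff_le_add]
      refine max_le ((le_max_left _ _).trans (by linarith)) ?_
      have := le_max_right ε (3 * β - (j + 1 : ℕ) * δ)
      push_cast at this ⊢
      linarith
  obtain ⟨j, hj⟩ := exists_nat_gt (3 * β / δ)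
  obtain ⟨L, hL, hP⟩ := key j
  rw [div_lt_iff₀ hδ] at hj
  exact ⟨L, hL, hP.mono (max_le le_rfl (by linarith))⟩

end Crest.Agent.R167
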