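import Crest.Agent.R167.Contract
import Crest.Agent.R167.RGLat

/-!
# Dyadic annuli: power decay of any order of the boundary influence

`ann_step`: apply `contract` with `R = m L`, `D = box x R`, `D' = box x (2R)`,
`θ(u) = max 0 (min 1 ((2R - dd u x) / R))`, `C = grid V b x L Λ`,
`Λ = (Ico (-2m) (2m) ×ˢ Ico (-2m) (2m)) \ (Ico (-m) m ×ˢ Ico (-m) m)` (card `≤ 16 m²`).
An edge with `grad θ ≠ 0` lies in the cell `⌊(s e - x)/L⌋` (`mem_cellE_corner`), which belongs to `Λ`
(otherwise both ends have `dd ≤ R`, or both have `dd ≥ 2R`). On the closed cell `k ∈ Λ`: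
`R ≤ dd ≤ 2R`; points of the open cell have `R < dd < 2R`. If `k.2 ≠ k.1` and `k.2 ≠ -k.1 - 1` then on
the closed cell `dd u x` is one of `±(u.1 - x.1)`, `±(u.2 - x.2)`, so
`res (grad θ) = (± 1 / R) • dirA (corner) L i` and `K ≤ ε L² / R² = ε / m²` (`K_smul_left/right`, `PP`).
The at most `8 m` diagonal cells cost `3 β · 2 L² / R² = 6 β / m²` each (`K_self_le`, `|grad θ| ≤ 1/R`,
`card_cellE_le`).
`power_decay`: `ε = q² / 32`, `L` from `PP_small`, `m₀ ≥ 96 β / q²`, `R₀ = m₀ L`, induction on `k` with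
`m = 2^k m₀` (`k = 0`: `abs_Ex_le`, `abs_lin_le`, `τ.norm_e`).
-/

set_option autoImplicit false

namespace Crest.Agent.R167

open MeasureTheory Crest.ProbabilityR.SpinModel
open scoped RealInnerProductSpace

open RGLatA

namespace AnnA

lemma le_dd_iff {u v : ℤ × ℤ} {R : ℤ} : R ≤ dd u v ↔
    R ≤ u.1 - v.1 ∨ R ≤ v.1 - u.1 ∨ R ≤ u.2 - v.2 ∨ R ≤ v.2 - u.2 := by
  rw [← not_lt, dd_lt_iff]; omega

lemma lt_dd_iff {u v : ℤ × ℤ} {R : ℤ} : R < dd u v ↔
    R < u.1 - v.1 ∨ R < v.1 - u.1 ∨ R < u.2 - v.2 ∨ R < v.2 - u.2 := by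
  rw [← not_le, dd_le_iff]; omega

lemma offdiag (x : ℤ × ℤ) (L : ℕ) {k : ℤ × ℤ} (h : ¬(k.2 = k.1 ∨ k.2 = -k.1 - 1)) :
    ∃ (i : Fin 2) (s : ℤ), s ^ 2 = 1 ∧
      ∀ u, InC (corner x L k) L u → dd u x = s * (co i u - co i x) := by
  have mono : ∀ j j' : ℤ, j ≤ j' → (L : ℤ) * j ≤ L * j' := fun j j' h =>
    mul_le_mul_of_nonneg_left h (Int.natCast_nonneg L)
  have a1 := mono (k.2 + 1) k.1
  have a2 := mono (k.1 + 1) k.2
  have a3 := mono (-k.1) k.2
  have a4 := mono (k.2 + 1) (-k.1 - 1)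
  simp only [mul_add, mul_sub, mul_neg, mul_one] at a1 a2 a3 a4
  have key : ∀ u (c : ℤ), (dd u x ≤ c) → (c ≤ dd u x) → dd u x = c := fun _ _ => le_antisymm
  by_cases h1 : k.2 < k.1 <;> by_cases h2 : k.2 < -k.1 - 1
  · exact ⟨1, -1, by norm_num, fun u hu => key _ _
      (by rw [dd_le_iff]; simp only [InC, corner, co] at hu ⊢; simp; omega)
      (by rw [le_dd_iff]; simp [co])⟩
  · exact ⟨0, 1, by norm_num, fun u hu => key _ _
      (by rw [dd_le_iff]; simp only [InC, corner, co] at hu ⊢; simp; omega)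
      (by rw [le_dd_iff]; simp [co])⟩
  · exact ⟨0, -1, by norm_num, fun u hu => key _ _
      (by rw [dd_le_iff]; simp only [InC, corner, co] at hu ⊢; simp; omega)
      (by rw [le_dd_iff]; simp [co])⟩
  · exact ⟨1, 1, by norm_num, fun u hu => key _ _
      (by rw [dd_le_iff]; simp only [InC, corner, co] at hu ⊢; simp; omega)
      (by rw [le_dd_iff]; simp [co])⟩

lemma card_diag (m : ℕ) {Λ : Finset (ℤ × ℤ)} (h : ∀ k ∈ Λ, -2 * (m : ℤ) ≤ k.1 ∧ k.1 < 2 * m) :
    (Λ.filter fun k => k.2 = k.1 ∨ k.2 = -k.1 - 1).card ≤ 8 * m := by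
  refine (Finset.card_le_card (t := (Finset.Ico (-2 * m : ℤ) (2 * m)).image (fun j => (j, j)) ∪
    (Finset.Ico (-2 * m : ℤ) (2 * m)).image (fun j => (j, -j - 1))) fun k hk => ?_).trans ?_
  · rw [Finset.mem_filter] at hk
    have := Finset.mem_Ico.2 (h k hk.1)
    rcases hk.2 with e | e
    · exact Finset.mem_union_left _ (Finset.mem_image.2 ⟨k.1, this, Prod.ext rfl e.symm⟩)
    · exact Finset.mem_union_right _ (Finset.mem_image.2 ⟨k.1, this, Prod.ext rfl e.symm⟩)
  · refine (Finset.card_union_le _ _).trans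
      ((add_le_add Finset.card_image_le Finset.card_image_le).trans ?_)
    simp only [Int.card_Ico]; omega

end AnnA

open AnnA

variable {n : ℕ} [NeZero n]

theorem ann_step {β ε q c : ℝ} (hβ : 0 ≤ β) (hε : 0 ≤ ε) {L m : ℕ} (hL : 0 < L) (hm : 0 < m)
    (hP : PP n β L ε) (hq0 : 0 ≤ q) (hq : 16 * ε + 48 * β / m ≤ q ^ 2) (τ : Tri n)
    {V : Finset (ℤ × ℤ)} {b : ℤ × ℤ → Fin 2 → ℝ} (hb : Bb b β) (x : V)
    (hc : ∀ a σ, |Ex (latG V b) (box V x (m * L)) (lin (τ.e a) x) σ| ≤ c) (a : Fin 3)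
    (σ : Cfg n V) : |Ex (latG V b) (box V x (2 * m * L)) (lin (τ.e a) x) σ| ≤ q * c := by
  set R : ℕ := m * L with hR
  have hL' : (0 : ℝ) < L := by exact_mod_cast hL
  have hm' : (0 : ℝ) < m := by exact_mod_cast hm
  have hRr : (R : ℝ) = m * L := by simp [hR]
  have hR0 : (0 : ℝ) < R := by rw [hRr]; positivity
  have hRz : (R : ℤ) = L * m := by simp [hR, mul_comm]
  have hR0' : 0 < R := by positivity
  rw [show 2 * m * L = 2 * R by rw [hR]; ring]
  have mono : ∀ j j' : ℤ, j ≤ j' → (L : ℤ) * j ≤ L * j' := fun j j' h =>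
    mul_le_mul_of_nonneg_left h (Int.natCast_nonneg L)
  have hfac : ∀ j : ℤ, (-2 * m ≤ j → -2 * (R : ℤ) ≤ L * j) ∧ (j < 2 * m → L * j + L ≤ 2 * (R : ℤ)) ∧
      (j < -m → L * j + L ≤ -(R : ℤ)) ∧ (m ≤ j → (R : ℤ) ≤ L * j) ∧
      (j < -2 * m → L * j + L ≤ -2 * (R : ℤ)) ∧ (2 * m ≤ j → 2 * (R : ℤ) ≤ L * j) ∧
      (-m ≤ j → -(R : ℤ) ≤ L * j) ∧ (j < m → L * j + L ≤ (R : ℤ)) := fun j => by
    rw [hRz]
    refine ⟨fun h => ?_, fun h => ?_, fun h => ?_, fun h => ?_, fun h => ?_, fun h => ?_,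
      fun h => ?_, fun h => ?_⟩
    · linarith [mono _ _ h]
    · linarith [mono (j + 1) _ h]
    · linarith [mono (j + 1) _ h]
    · linarith [mono _ _ h]
    · linarith [mono (j + 1) _ h]
    · linarith [mono _ _ h]
    · linarith [mono _ _ h]
    · linarith [mono (j + 1) _ h]
  let Λ₀ : Finset (ℤ × ℤ) := Finset.Ico (-2 * m : ℤ) (2 * m) ×ˢ Finset.Ico (-2 * m : ℤ) (2 * m)
  let Λ : Finset (ℤ × ℤ) := Λ₀ \ Finset.Ico (-m : ℤ) m ×ˢ Finset.Ico (-m : ℤ) m
  have hΛ : ∀ k : ℤ × ℤ, k ∈ Λ ↔ ((-2 * m ≤ k.1 ∧ k.1 < 2 * m) ∧ -2 * m ≤ k.2 ∧ k.2 < 2 * m) ∧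
      ¬((-m ≤ k.1 ∧ k.1 < m) ∧ -m ≤ k.2 ∧ k.2 < m) := fun k => by
    simp only [Λ, Λ₀, Finset.mem_sdiff, Finset.mem_product, Finset.mem_Ico]
  have hcard : (Λ.card : ℝ) ≤ 16 * m ^ 2 := by
    have h1 : Λ.card ≤ Λ₀.card := Finset.card_le_card Finset.sdiff_subset
    have h2 : ((2 * m : ℤ) - -2 * m).toNat = 4 * m := by omega
    simp only [Λ₀, Finset.card_product, Int.card_Ico, h2] at h1
    have : (Λ.card : ℝ) ≤ 4 * m * (4 * m) := by exact_mod_cast h1
    linarith
  let θ : ℤ × ℤ → ℝ := fun u => cl ((((2 * R - dd u x : ℤ) : ℝ) - 0) / R)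
  have θ1 : ∀ u, dd u x ≤ R → θ u = 1 := fun u hu => cl_of_one_le (by
    rw [le_div_iff₀ hR0, one_mul, sub_zero]
    have : (R : ℤ) ≤ 2 * R - dd u x := by omega
    exact_mod_cast this)
  have θ0 : ∀ u, 2 * (R : ℤ) ≤ dd u x → θ u = 0 := fun u hu => cl_of_nonpos (by
    refine div_nonpos_of_nonpos_of_nonneg ?_ hR0.le
    have : 2 * R - dd u x ≤ 0 := by omega
    rw [sub_zero]; exact_mod_cast this)
  have θm : ∀ u, (R : ℤ) ≤ dd u x → dd u x ≤ 2 * R → θ u = ((2 * R - dd u x : ℤ) : ℝ) / R :=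
    fun u h1 h2 => by
      simp only [θ, sub_zero]
      refine cl_of_mem (div_nonneg ?_ hR0.le) ?_
      · have : 0 ≤ 2 * R - dd u x := by omega
        exact_mod_cast this
      · rw [div_le_one hR0]
        have : 2 * R - dd u x ≤ R := by omega
        exact_mod_cast this
  have hgθ : ∀ e : Edg V, |grad (latG V b) (fun u : V => θ u) e| ≤ 1 / R := fun e => by
    have h1 := dd_s_t (b := b) e
    have h2 := dd_triangle ((latG V b).s e) ((latG V b).t e) x
    have h3 := dd_triangle ((latG V b).t e) ((latG V b).s e) x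
    rw [dd_comm ((latG V b).t e) ((latG V b).s e)] at h3
    have := cl_lip' hR0 0 (a := 2 * R - dd ((latG V b).s e) x) (a' := 2 * R - dd ((latG V b).t e) x)
      (D := 1) (by rw [abs_le]; omega)
    simpa [grad, θ] using this
  have hopen : ∀ (k : Λ) (u : V), u ∈ cellS V (corner x L k) L →
      (R : ℤ) < dd u x ∧ dd u x < 2 * R := fun k u hu => by
    have h1 := hfac k.1.1
    have h2 := hfac k.1.2
    have h3 := (hΛ _).1 k.2
    rw [mem_cellS] at hu
    rw [lt_dd_iff, dd_lt_iff]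
    simp only [corner] at hu
    omega
  refine contract (latG V b) τ (grid V b x L Λ) (θ := fun u : V => θ u) (fun u hu => ?_)
    (fun u hu => θ0 u ?_) (θ1 x (by rw [dd_self]; omega)) (fun e he => ?_) (fun e he => ?_)
    (fun B u hu => ?_) (fun B hu => ?_) (fun B e he he' => ?_) hq0 (fun σ => le_trans ?_ hq) hc a σ
  · rw [mem_box] at hu ⊢; push_cast; omega
  · rw [mem_box] at hu; push_cast at hu; omega
  · have := touch_box he
    simp [grad, θ1 _ this.1, θ1 _ this.2]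
  · have h1 := mem_cellE_corner (b := b) x hL e
    generalize (((((latG V b).s e : ℤ × ℤ).1 - (x : ℤ × ℤ).1) / L,
      (((latG V b).s e : ℤ × ℤ).2 - (x : ℤ × ℤ).2) / L) : ℤ × ℤ) = k at h1
    refine ⟨⟨k, ?_⟩, h1⟩
    by_contra hk
    rw [hΛ] at hk
    have h2 := inC_of_mem b h1
    have a1 := hfac k.1
    have a2 := hfac k.2
    by_cases hin : (-m ≤ k.1 ∧ k.1 < m) ∧ -m ≤ k.2 ∧ k.2 < m
    · have : ∀ u, InC (corner x L k) L u → θ u = 1 := fun u hu => θ1 u (by
        rw [dd_le_iff]; simp only [InC, corner] at hu; omega)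
      exact he (by simp [grad, this _ h2.1, this _ h2.2])
    · have : ∀ u, InC (corner x L k) L u → θ u = 0 := fun u hu => θ0 u (by
        rw [le_dd_iff]; simp only [InC, corner] at hu; omega)
      exact he (by simp [grad, this _ h2.1, this _ h2.2])
  · rw [mem_box]; push_cast; exact (hopen B u hu).2
  · have := (hopen B x hu).1
    rw [dd_self] at this; omega
  · have := touch_box he
    rcases he' with h | h <;> have := (hopen B _ h).1 <;> omega
  · have key : ∀ B : Λ, K (latG V b) τ ((grid V b x L Λ).Sb B)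
        (res ((grid V b x L Λ).Eb B) (grad (latG V b) fun u : V => θ u))
        (res ((grid V b x L Λ).Eb B) (grad (latG V b) fun u : V => θ u)) σ ≤
        ε / m ^ 2 + 6 * β / m ^ 2 * if B.1.2 = B.1.1 ∨ B.1.2 = -B.1.1 - 1 then 1 else 0 := by
      intro B
      split_ifs with hd
      · refine (K_self_le _ (hb.bd V) hβ τ _ _ σ).trans ?_
        have := sum_sq_le (corner x L B) L (a := 1 / R)
          (A := res ((grid V b x L Λ).Eb B) (grad (latG V b) fun u : V => θ u))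
          (fun e he => by simp [res, grid, he]) fun e he => by simpa [res, grid, he] using hgθ e
        calc _ ≤ 3 * β * (2 * (L : ℝ) ^ 2 * (1 / R) ^ 2) := by gcongr
          _ = 6 * β / m ^ 2 * 1 := by rw [hRr]; field_simp; ring
          _ ≤ _ := le_add_of_nonneg_left (by positivity)
      · obtain ⟨i, s, hs, h⟩ := offdiag x L hd
        have hcl : ∀ u, InC (corner x L B) L u → (R : ℤ) ≤ dd u x ∧ dd u x ≤ 2 * R := fun u hu => by
          have h1 := hfac B.1.1
          have h2 := hfac B.1.2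
          have h3 := (hΛ _).1 B.2
          rw [le_dd_iff, dd_le_iff]
          simp only [InC, corner] at hu
          omega
        have e : res ((grid V b x L Λ).Eb B) (grad (latG V b) fun u : V => θ u) =
            ((s : ℝ) / R) • dirA V (corner x L B) L i := by
          funext e
          by_cases he : e ∈ cellE V (corner x L B) L
          · have h1 := inC_of_mem b he
            have h2 := co_t b i e
            simp only [res, grid, he, if_true, grad, θm _ (hcl _ h1.1).1 (hcl _ h1.1).2,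
              θm _ (hcl _ h1.2).1 (hcl _ h1.2).2, h _ h1.1, h _ h1.2, dirA, true_and,
              Pi.smul_apply, smul_eq_mul]
            rw [← sub_div, ← Int.cast_sub, sub_sub_sub_cancel_left, ← mul_sub,
              sub_sub_sub_cancel_right, h2]
            split_ifs <;> simp
          · simp [res, grid, dirA, he]
        have hs' : (s : ℝ) * s = 1 := by rw [← sq]; exact_mod_cast hs
        rw [e, K_smul_left, K_smul_right, smul_smul, ContinuousMap.smul_apply, smul_eq_mul,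
          div_mul_div_comm, hs', mul_zero, add_zero]
        calc _ ≤ 1 / ((R : ℝ) * R) * (ε * (L : ℝ) ^ 2) := by
              gcongr
              exact hP τ V b hb _ i σ
          _ = _ := by rw [hRr]; field_simp
    rw [ContinuousMap.sum_apply]
    refine (Finset.sum_le_sum fun B _ => key B).trans ?_
    rw [Finset.sum_coe_sort Λ fun k => ε / m ^ 2 + 6 * β / m ^ 2 *
      if k.2 = k.1 ∨ k.2 = -k.1 - 1 then (1 : ℝ) else 0, Finset.sum_add_distrib, Finset.sum_const,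
      ← Finset.mul_sum, Finset.sum_boole, nsmul_eq_mul]
    have h1 : ((Λ.filter fun k => k.2 = k.1 ∨ k.2 = -k.1 - 1).card : ℝ) ≤ 8 * m := by
      exact_mod_cast card_diag m fun k hk => ((hΛ k).1 hk).1.1
    calc _ ≤ 16 * (m : ℝ) ^ 2 * (ε / m ^ 2) + 6 * β / m ^ 2 * (8 * m) := by gcongr
      _ = _ := by field_simp; ring

theorem power_decay {β q : ℝ} (hβ : 0 ≤ β) (hq : 0 < q) :
    ∃ R₀ : ℕ, 0 < R₀ ∧ ∀ (k : ℕ) (τ : Tri n) (V : Finset (ℤ × ℤ)) (b : ℤ × ℤ → Fin 2 → ℝ),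
      Bb b β → ∀ (x : V) (a : Fin 3) (σ : Cfg n V),
        |Ex (latG V b) (box V x (2 ^ k * R₀)) (lin (τ.e a) x) σ| ≤ q ^ k := by
  obtain ⟨L, hL, hP⟩ := PP_small (n := n) hβ (show 0 < q ^ 2 / 32 by positivity)
  obtain ⟨m, hm⟩ := exists_nat_gt (96 * β / q ^ 2)
  have hm0 : (0 : ℝ) < m := lt_of_le_of_lt (by positivity) hm
  have hm1 : 0 < m := by exact_mod_cast hm0
  refine ⟨m * L, by positivity, fun k τ V b hb x => ?_⟩
  induction k with
  | zero =>
    intro a σ
    exact abs_Ex_le _ (fun σ => (abs_lin_le _ _ σ).trans (by rw [τ.norm_e, pow_zero])) σ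
  | succ k ih =>
    intro a σ
    rw [show 2 ^ (k + 1) * (m * L) = 2 * (2 ^ k * m) * L by ring, pow_succ' q]
    refine ann_step hβ (by positivity) hL (by positivity) hP hq.le ?_ τ hb x
      (by rw [mul_assoc]; exact ih) a σ
    rw [div_lt_iff₀ (by positivity)] at hm
    have h1 : (m : ℝ) ≤ ((2 ^ k * m : ℕ) : ℝ) := by
      exact_mod_cast Nat.le_mul_of_pos_left m (by positivity)
    have h2 : 48 * β / ((2 ^ k * m : ℕ) : ℝ) ≤ 48 * β / m := by gcongr
    have h3 : 48 * β / m ≤ q ^ 2 / 2 := by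
      rw [div_le_iff₀ hm0]; linarith
    linarith

end Crest.Agent.R167
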