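import Crest.Agent.R167.Defs

/-!
# Algebra of `Ind`, `obs`, and the integration operator `I`

Plan. `Ind` lemmas: unfold; for `Ind.mono` use
`S.piecewise η σ = S'.piecewise (S.piecewise η σ) σ`-type identities (`funext`, `by_cases`), e.g.
`F (S.piecewise η σ) = F (S'.piecewise (S.piecewise η σ) σ) = F σ`.
`Ind.int`: `S.piecewise η (S'.piecewise η' σ) = S'.piecewise (S.piecewise η η') (S.piecewise η σ)`.
`I_I`: the map `(η, η') ↦ S.piecewise η η'` is measure preserving from `lam × lam` to `lam`
(`mix_mp`; check on boxes with `Measure.pi_eq`: the preimage of a box is a product of boxes), then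
Fubini (`integral_prod`) and `S.piecewise η (S'.piecewise η' σ) = S'.piecewise (S.piecewise η η') σ`
for `S ⊆ S'`.
-/

set_option autoImplicit false

namespace Crest.Agent.R167

open MeasureTheory Crest.ProbabilityR.SpinModel
open scoped RealInnerProductSpace

variable {n : ℕ} {V Ed : Type}

section ind
variable [DecidableEq V] {S S' : Finset V} {F H : Fn n V}

lemma Ind.one : Ind S (1 : Fn n V) := by
  intro σ η; rfl
lemma Ind.zero : Ind S (0 : Fn n V) := by
  intro σ η; rfl
lemma Ind.add (hF : Ind S F) (hH : Ind S H) : Ind S (F + H) := by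
  intro σ η; simp only [ContinuousMap.add_apply, hF σ η, hH σ η]
lemma Ind.sub (hF : Ind S F) (hH : Ind S H) : Ind S (F - H) := by
  intro σ η; simp only [ContinuousMap.sub_apply, hF σ η, hH σ η]
lemma Ind.neg (hF : Ind S F) : Ind S (-F) := by
  intro σ η; simp only [ContinuousMap.neg_apply, hF σ η]
lemma Ind.mul (hF : Ind S F) (hH : Ind S H) : Ind S (F * H) := by
  intro σ η; simp only [ContinuousMap.mul_apply, hF σ η, hH σ η]
lemma Ind.smul (c : ℝ) (hF : Ind S F) : Ind S (c • F) := by
  intro σ η; simp only [ContinuousMap.smul_apply, hF σ η]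
lemma Ind.sum {ι : Type} (s : Finset ι) {f : ι → Fn n V} (h : ∀ i ∈ s, Ind S (f i)) :
    Ind S (∑ i ∈ s, f i) := by
  intro σ η
  simp only [ContinuousMap.coe_sum, Finset.sum_apply]
  exact Finset.sum_congr rfl fun i hi => h i hi σ η
lemma Ind.prod {ι : Type} (s : Finset ι) {f : ι → Fn n V} (h : ∀ i ∈ s, Ind S (f i)) :
    Ind S (∏ i ∈ s, f i) := by
  intro σ η
  simp only [ContinuousMap.coe_prod, Finset.prod_apply]
  exact Finset.prod_congr rfl fun i hi => h i hi σ η
lemma Ind.comp (g : C(ℝ, ℝ)) (hF : Ind S F) : Ind S (cmp g F) := by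
  intro σ η; simp only [cmp_apply, hF σ η]
lemma Ind.mono (hF : Ind S' F) (h : S ⊆ S') : Ind S F := by
  intro σ η
  rw [← hF σ (S.piecewise η σ)]
  congr 1
  funext x
  by_cases h1 : x ∈ S'
  · simp [Finset.piecewise, h1]
  · have : x ∉ S := fun h2 => h1 (h h2)
    simp [Finset.piecewise, h1, this]
lemma Ind.union (h : Ind S F) (h' : Ind S' F) : Ind (S ∪ S') F := by
  intro σ η
  rw [← h' σ η, ← h (S'.piecewise η σ) η]
  congr 1
  funext x
  by_cases h1 : x ∈ S <;> by_cases h2 : x ∈ S' <;> simp [Finset.piecewise, h1, h2]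
lemma Ind.biUnion {ι : Type} (s : Finset ι) {f : ι → Finset V} (h : ∀ i ∈ s, Ind (f i) F) :
    Ind (s.biUnion f) F := by
  classical
  induction s using Finset.induction_on with
  | empty => intro σ η; simp
  | insert i s hi ih =>
    rw [Finset.biUnion_insert]
    exact (h i (Finset.mem_insert_self _ _)).union
      (ih fun j hj => h j (Finset.mem_insert_of_mem hj))
/-- two configurations that agree off `S` give the same value -/
lemma Ind.congr (hF : Ind S F) {σ σ' : Cfg n V} (h : ∀ x, x ∉ S → σ x = σ' x) : F σ = F σ' := by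
  rw [← hF σ' σ]
  congr 1
  funext x
  by_cases h1 : x ∈ S
  · simp [Finset.piecewise, h1]
  · simp [Finset.piecewise, h1, h x h1]
lemma ind_lin (v : E n) {x : V} (hx : x ∉ S) : Ind S (lin v x) := by
  intro σ η; simp [Finset.piecewise, hx]
lemma ind_obs [Fintype Ed] (G : Gr V Ed) (M : Op n) {A : Ed → ℝ}
    (h : ∀ e, Touch G S e → A e = 0) : Ind S (obs G M A) := by
  intro σ η
  simp only [obs_apply]
  refine Finset.sum_congr rfl fun e _ => ?_
  by_cases ht : Touch G S e
  · simp [h e ht]
  · simp only [Touch, not_or] at ht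
    simp [Finset.piecewise, ht.1, ht.2]

end ind

section obs
variable [Fintype Ed] (G : Gr V Ed)

lemma abs_lin_le (v : E n) (x : V) (σ : Cfg n V) : |lin v x σ| ≤ ‖v‖ := by
  have := abs_real_inner_le_norm v (σ x : E n)
  simpa using this
lemma lin_neg (v : E n) (x : V) : lin (-v) x = -lin v x := by
  ext σ; simp
lemma obs_add_right (M : Op n) (A A' : Ed → ℝ) : obs G M (A + A') = obs G M A + obs G M A' := by
  ext σ; simp only [obs_apply, ContinuousMap.add_apply, Pi.add_apply, ← Finset.sum_add_distrib]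
  exact Finset.sum_congr rfl fun e _ => by ring
lemma obs_sub_right (M : Op n) (A A' : Ed → ℝ) : obs G M (A - A') = obs G M A - obs G M A' := by
  ext σ; simp only [obs_apply, ContinuousMap.sub_apply, Pi.sub_apply, ← Finset.sum_sub_distrib]
  exact Finset.sum_congr rfl fun e _ => by ring
lemma obs_smul_right (M : Op n) (c : ℝ) (A : Ed → ℝ) : obs G M (c • A) = c • obs G M A := by
  ext σ
  simp only [obs_apply, ContinuousMap.smul_apply, Pi.smul_apply, smul_eq_mul, Finset.mul_sum]
  exact Finset.sum_congr rfl fun e _ => by ring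
lemma obs_zero_right (M : Op n) : obs G M 0 = 0 := by
  ext σ; simp [obs_apply]
lemma obs_sum_right {ι : Type} (s : Finset ι) (M : Op n) (A : ι → Ed → ℝ) :
    obs G M (∑ i ∈ s, A i) = ∑ i ∈ s, obs G M (A i) := by
  classical
  induction s using Finset.induction_on with
  | empty => simp [obs_zero_right]
  | insert i s hi ih => rw [Finset.sum_insert hi, Finset.sum_insert hi, obs_add_right, ih]
lemma obs_add_left (M M' : Op n) (A : Ed → ℝ) : obs G (M + M') A = obs G M A + obs G M' A := by
  ext σ
  simp only [obs_apply, ContinuousMap.add_apply, ← Finset.sum_add_distrib]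
  exact Finset.sum_congr rfl fun e _ => by simp only [add_apply, inner_add_left]; ring
lemma obs_sub_left (M M' : Op n) (A : Ed → ℝ) : obs G (M - M') A = obs G M A - obs G M' A := by
  ext σ
  simp only [obs_apply, ContinuousMap.sub_apply, ← Finset.sum_sub_distrib]
  exact Finset.sum_congr rfl fun e _ => by simp only [sub_apply, inner_sub_left]; ring
lemma obs_neg_left (M : Op n) (A : Ed → ℝ) : obs G (-M) A = -obs G M A := by
  ext σ
  simp only [obs_apply, ContinuousMap.neg_apply, ← Finset.sum_neg_distrib]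
  exact Finset.sum_congr rfl fun e _ => by simp only [neg_apply, inner_neg_left]; ring
lemma obs_zero_left (A : Ed → ℝ) : obs G (0 : Op n) A = 0 := by
  ext σ; simp [obs_apply]
lemma abs_obs_le {β m : ℝ} (hJ : Bd G β) (hβ : 0 ≤ β) {M : Op n} (hM : ‖M‖ ≤ m) (A : Ed → ℝ)
    (σ : Cfg n V) : |obs G M A σ| ≤ β * m * ∑ e, |A e| := by
  rw [obs_apply, Finset.mul_sum]
  refine (Finset.abs_sum_le_sum_abs _ _).trans (Finset.sum_le_sum fun e _ => ?_)
  have h1 : |⟪M (σ (G.s e)), (σ (G.t e) : E n)⟫| ≤ m := by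
    refine (abs_real_inner_le_norm _ _).trans ?_
    have := M.le_opNorm (σ (G.s e))
    simp only [norm_eq_of_mem_sphere, mul_one] at this ⊢
    exact this.trans hM
  rw [abs_mul, abs_mul, abs_of_nonneg (hJ e).1]
  have hm : 0 ≤ m := (norm_nonneg _).trans hM
  calc G.J e * |A e| * |⟪M (σ (G.s e)), (σ (G.t e) : E n)⟫| ≤ β * |A e| * m :=
        mul_le_mul (mul_le_mul_of_nonneg_right (hJ e).2 (abs_nonneg _)) h1 (abs_nonneg _)
          (by positivity)
    _ = _ := by ring
lemma abs_obs_le_card {β m a : ℝ} (hJ : Bd G β) (hβ : 0 ≤ β) {M : Op n} (hM : ‖M‖ ≤ m)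
    {Eb : Finset Ed} {N : ℕ} (hN : Eb.card ≤ N) {A : Ed → ℝ} (h0 : ∀ e, e ∉ Eb → A e = 0)
    (ha0 : 0 ≤ a) (ha : ∀ e ∈ Eb, |A e| ≤ a) (σ : Cfg n V) :
    |obs G M A σ| ≤ β * N * m * a := by
  refine (abs_obs_le G hJ hβ hM A σ).trans ?_
  have hm : 0 ≤ m := (norm_nonneg _).trans hM
  have h1 : ∑ e, |A e| ≤ N * a := by
    rw [← Finset.sum_subset (Finset.subset_univ Eb) fun e _ he => by simp [h0 e he]]
    refine (Finset.sum_le_card_nsmul _ _ a ha).trans ?_
    rw [nsmul_eq_mul]
    exact mul_le_mul_of_nonneg_right (by exact_mod_cast hN) ha0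
  calc β * m * ∑ e, |A e| ≤ β * m * (N * a) := mul_le_mul_of_nonneg_left h1 (by positivity)
    _ = _ := by ring

end obs

section I
variable [DecidableEq V] [Fintype V] [NeZero n] {S S' : Finset V} {F H : Fn n V}

lemma mix_mp (S : Finset V) :
    MeasurePreserving (fun p : Cfg n V × Cfg n V => (S.piecewise p.1 p.2 : Cfg n V))
      ((lam n V).prod (lam n V)) (lam n V) := by
  have hm : Measurable fun p : Cfg n V × Cfg n V => (S.piecewise p.1 p.2 : Cfg n V) := by
    refine measurable_pi_lambda _ fun x => ?_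
    by_cases h : x ∈ S <;> simp only [Finset.piecewise, h, if_true, if_false] <;> fun_prop
  refine ⟨hm, ?_⟩
  symm
  unfold lam
  refine Measure.pi_eq fun s hs => ?_
  rw [Measure.map_apply hm (MeasurableSet.univ_pi hs)]
  have : (fun p : Cfg n V × Cfg n V => (S.piecewise p.1 p.2 : Cfg n V)) ⁻¹' Set.univ.pi s =
      (Set.univ.pi fun x => if x ∈ S then s x else Set.univ) ×ˢ
        (Set.univ.pi fun x => if x ∈ S then Set.univ else s x) := by
    ext p
    simp only [Set.mem_preimage, Set.mem_pi, Set.mem_univ, true_imp_iff, Set.mem_prod,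
      ← forall_and]
    refine forall_congr' fun x => ?_
    by_cases h : x ∈ S <;> simp [Finset.piecewise, h]
  rw [this, Measure.prod_prod, Measure.pi_pi, Measure.pi_pi, ← Finset.prod_mul_distrib]
  refine Finset.prod_congr rfl fun x _ => ?_
  by_cases h : x ∈ S <;> simp [h]
lemma I_nonneg (h : ∀ σ, 0 ≤ F σ) (σ : Cfg n V) : 0 ≤ I S F σ := by
  exact integral_nonneg fun η => h _
lemma ind_I (S : Finset V) (F : Fn n V) : Ind S (I S F) := by
  intro σ η
  simp only [I_apply]
  congr 2
  funext η'
  congr 1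
  funext x
  by_cases h1 : x ∈ S <;> simp [Finset.piecewise, h1]
lemma Ind.int (hF : Ind S' F) (S : Finset V) : Ind S' (I S F) := by
  intro σ η
  simp only [I_apply]
  congr 1
  funext η'
  refine hF.congr fun x hx => ?_
  by_cases h1 : x ∈ S <;> simp [Finset.piecewise, h1, hx]
lemma I_mul_of_ind (hF : Ind S F) (H : Fn n V) : I S (F * H) = F * I S H := by
  ext σ
  simp only [I_apply, ContinuousMap.mul_apply, hF σ]
  exact integral_const_mul _ _
lemma I_I (h : S ⊆ S') (F : Fn n V) : I S' (I S F) = I S' F := by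
  ext σ
  have hc : Continuous fun η => F (S'.piecewise η σ) :=
    F.continuous.comp (continuous_pw_left S' σ)
  have h1 := integral_map (μ := (lam n V).prod (lam n V)) (mix_mp S).measurable.aemeasurable
    (f := fun η => F (S'.piecewise η σ)) hc.aestronglyMeasurable
  rw [(mix_mp S).map_eq] at h1
  have hi : Integrable (fun p : Cfg n V × Cfg n V => F (S'.piecewise (S.piecewise p.1 p.2) σ))
      ((lam n V).prod (lam n V)) :=
    ((mix_mp S).integrable_comp hc.aestronglyMeasurable).2 (integrable_pw F S' σ)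
  rw [I_apply, I_apply, h1, integral_prod_symm _ hi]
  simp only [I_apply]
  congr 1
  funext η'
  congr 1
  funext η
  congr 1
  funext x
  by_cases h1 : x ∈ S
  · simp [Finset.piecewise, h1, h h1]
  · by_cases h2 : x ∈ S' <;> simp [Finset.piecewise, h1, h2]
lemma I_univ (F : Fn n V) (σ : Cfg n V) : I Finset.univ F σ = ∫ η, F η ∂lam n V := by
  simp [I_apply]

end I

end Crest.Agent.R167
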