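import Crest.Agent.R167.Cells

/-!
# Second derivative of a cell current (the non-abelian step)

Write `b = a + 1`, `c = a + 2`, `T_a = (τ.T a).T`, `Φ = res Eb (grad φ)`, `Ψ = res Eb (grad ψ)`,
`[M, T] = M * T - T * M`. From `τ.comm` (indices mod 3): `[T_c, T_a] = -T_b`, `[T_c, T_b] = T_a`,
`[T_a, T_b] = -T_c`.
* `F1 a = -Ex (obs T_b (hd φ * A)) + Ex (obs (T_c T_a) (grad φ * A)) + Cov (obs T_c A) (obs T_a Φ)`
  (`hasD_obs`, `HasD.ex`, `Cov_obs_res`).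
* the derivative of the first term along `(T_b, ψ)` is exactly `K1 T_b S (hd φ * A) Ψ`.
* the derivative of the other two terms: write `hd ψ = c + χ` on `Eb` with `|χ| ≤ g`. The terms
  proportional to `c` are
  `c • (Ex (obs [T_c T_a, T_b] (grad φ * A)) + Cov (obs T_a A) (obs T_a Φ) - Cov (obs T_c A) (obs T_c Φ))`
  and cancel in the sum over `a` (cyclic sum; `Fin.sum_univ_three`). The remaining terms are bounded
  with `abs_obs_le_card`, `abs_Ex_le`, `abs_Cov_le`: with `u = β N`, at most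
  `(3 u + 14 u² + 6 u³) f g ≤ 6 (1+u)³ f g` per generator. The derivative of `Cov X Y` is
  `Cov X' Y + Cov X Y' + (Cov (X Y) w - Ex X * Cov Y w - Ex Y * Cov X w)` (lemma `HasD.cov`).
-/

set_option autoImplicit false

namespace Crest.Agent.R167

open MeasureTheory Crest.ProbabilityR.SpinModel
open scoped RealInnerProductSpace

variable {n : ℕ} {V Ed : Type} [Fintype Ed] [DecidableEq Ed] [DecidableEq V] [Fintype V] [NeZero n]
  (G : Gr V Ed)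

omit [DecidableEq Ed] in
lemma HasD.cov {T : Sk n} {θ : V → ℝ} {X X' Y Y' : Fn n V} (hX : HasD T θ X X')
    (hY : HasD T θ Y Y') (S : Finset V) :
    HasD T θ (Cov G S X Y) (Cov G S X' Y + Cov G S X Y' +
      (Cov G S (X * Y) (obs G T.T (grad G θ)) - Ex G S X * Cov G S Y (obs G T.T (grad G θ)) -
        Ex G S Y * Cov G S X (obs G T.T (grad G θ)))) := by
  have h1 := (hX.mul hY).ex G S
  have h2 := (hX.ex G S).mul (hY.ex G S)
  refine (h1.sub h2).congr ?_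
  simp only [Cov, map_add]
  ring

namespace CellDA

lemma one {β f g c : ℝ} (hJ : Bd G β) (hβ : 0 ≤ β) (S : Finset V)
    (Eb : Finset Ed) (ht : ∀ e, Touch G S e → e ∈ Eb) {N : ℕ} (hN : Eb.card ≤ N)
    (A : Ed → ℝ) (hA0 : ∀ e, e ∉ Eb → A e = 0) (hA1 : ∀ e, |A e| ≤ 1) (φ ψ : V → ℝ)
    (hf0 : 0 ≤ f) (hg0 : 0 ≤ g) (hf : ∀ e ∈ Eb, |grad G φ e| ≤ f)
    (hg : ∀ e ∈ Eb, |grad G ψ e| ≤ g) (hc : ∀ e ∈ Eb, |ψ (G.t e) - c| ≤ g)
    (Ta Tb Tc : Sk n) (ha : ‖Ta.T‖ ≤ 1) (hb : ‖Tb.T‖ ≤ 1) (hcc : ‖Tc.T‖ ≤ 1)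
    (c1 : Tc.T * Ta.T - Ta.T * Tc.T = -Tb.T) (c2 : Tc.T * Tb.T - Tb.T * Tc.T = Ta.T)
    (c3 : Ta.T * Tb.T - Tb.T * Ta.T = -Tc.T) :
    ∃ F1 F2 Rm : Fn n V, HasD Ta φ (Ex G S (obs G Tc.T A)) F1 ∧ HasD Tb ψ F1 F2 ∧
      F2 = K1 G Tb S (hd G φ * A) (res Eb (grad G ψ)) +
        c • (Ex G S (obs G (Tc.T * Ta.T * Tb.T - Tb.T * (Tc.T * Ta.T)) (grad G φ * A)) +
          Cov G S (obs G Ta.T A) (obs G Ta.T (res Eb (grad G φ))) -
          Cov G S (obs G Tc.T A) (obs G Tc.T (res Eb (grad G φ)))) + Rm ∧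
      ∀ σ, |Rm σ| ≤ 6 * ((1 + β * N) ^ 3 * f * g) := by
  set Φ := res Eb (grad G φ) with hΦ
  set Ψ := res Eb (grad G ψ) with hΨ
  set χ : Ed → ℝ := fun e => ψ (G.t e) - c with hχ
  have hsplit : ∀ B : Ed → ℝ, hd G ψ * B = c • B + χ * B := by
    intro B; funext e; simp [hd, hχ]; ring
  have hΨA : ∀ B : Ed → ℝ, (∀ e, e ∉ Eb → B e = 0) → grad G ψ * B = B * Ψ := by
    intro B hB; funext e
    by_cases he : e ∈ Eb
    · simp [hΨ, res, he, mul_comm]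
    · simp [hB e he]
  have hΦ0 : ∀ e, e ∉ Eb → Φ e = 0 := fun e he => by simp [hΦ, res, he]
  have hΨ0 : ∀ e, e ∉ Eb → Ψ e = 0 := fun e he => by simp [hΨ, res, he]
  have hΦ1 : ∀ e ∈ Eb, |Φ e| ≤ f := fun e he => by simpa [hΦ, res, he] using hf e he
  have hΨ1 : ∀ e ∈ Eb, |Ψ e| ≤ g := fun e he => by simpa [hΨ, res, he] using hg e he
  have hcv : ∀ F : Fn n V, Cov G S F (obs G Tb.T (grad G ψ)) = Cov G S F (obs G Tb.T Ψ) :=
    fun F => Cov_obs_res G ht F _ _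
  have d1 : HasD Ta φ (Ex G S (obs G Tc.T A))
      (-Ex G S (obs G Tb.T (hd G φ * A)) + Ex G S (obs G (Tc.T * Ta.T) (grad G φ * A)) +
        Cov G S (obs G Tc.T A) (obs G Ta.T Φ)) := by
    refine ((hasD_obs G Ta φ Tc.T A).ex G S).congr ?_
    rw [c1, obs_neg_left, map_add, map_neg, Cov_obs_res G ht]
  have d21 := ((hasD_obs G Tb ψ Tb.T (hd G φ * A)).ex G S).neg
  have d22 := (hasD_obs G Tb ψ (Tc.T * Ta.T) (grad G φ * A)).ex G S
  have d23 := (hasD_obs G Tb ψ Tc.T A).cov G (hasD_obs G Tb ψ Ta.T Φ) S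
  refine ⟨_, _, Ex G S (obs G (Tc.T * Ta.T * Tb.T - Tb.T * (Tc.T * Ta.T)) (χ * (grad G φ * A))) +
      Ex G S (obs G (Tc.T * Ta.T * Tb.T) (grad G ψ * (grad G φ * A))) +
      Cov G S (obs G (Tc.T * Ta.T) (grad G φ * A)) (obs G Tb.T Ψ) +
      Cov G S (obs G Ta.T (χ * A)) (obs G Ta.T Φ) +
      Cov G S (obs G (Tc.T * Tb.T) (grad G ψ * A)) (obs G Ta.T Φ) -
      Cov G S (obs G Tc.T A) (obs G Tc.T (χ * Φ)) +
      Cov G S (obs G Tc.T A) (obs G (Ta.T * Tb.T) (grad G ψ * Φ)) +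
      Cov G S (obs G Tc.T A * obs G Ta.T Φ) (obs G Tb.T Ψ) -
      Ex G S (obs G Tc.T A) * Cov G S (obs G Ta.T Φ) (obs G Tb.T Ψ) -
      Ex G S (obs G Ta.T Φ) * Cov G S (obs G Tc.T A) (obs G Tb.T Ψ),
    d1, (d21.add d22).add d23, ?_, ?_⟩
  · rw [sub_self, obs_zero_left, c2, c3, hΨA (hd G φ * A) (fun e he => by simp [hA0 e he])]
    simp only [hcv, hsplit, K1, obs_add_right, obs_smul_right, obs_neg_left, map_add, map_smul,
      Cov_add_left, Cov_add_right, Cov_smul_left, Cov_smul_right, Cov_neg_right, zero_add]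
    module
  · intro σ
    set u := β * N with hu
    have hu0 : 0 ≤ u := by positivity
    have mul2 : ∀ {X Y : Op n}, ‖X‖ ≤ 1 → ‖Y‖ ≤ 1 → ‖X * Y‖ ≤ 1 := fun hX hY =>
      (norm_mul_le _ _).trans (mul_le_one₀ hX (norm_nonneg _) hY)
    have key : ∀ (M : Op n) (m a : ℝ) (B : Ed → ℝ), ‖M‖ ≤ m → (∀ e, e ∉ Eb → B e = 0) → 0 ≤ a →
        (∀ e ∈ Eb, |B e| ≤ a) → ∀ σ, |obs G M B σ| ≤ u * m * a :=
      fun M m a B hM h0 ha0 hB σ => abs_obs_le_card G hJ hβ hM hN h0 ha0 hB σ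
    have mm : ∀ {B B' : Ed → ℝ} {a a' : ℝ}, (∀ e ∈ Eb, |B e| ≤ a) → (∀ e ∈ Eb, |B' e| ≤ a') →
        ∀ e ∈ Eb, |(B * B') e| ≤ a * a' := fun hB hB' e he => by
      rw [Pi.mul_apply, abs_mul]
      exact mul_le_mul (hB e he) (hB' e he) (abs_nonneg _) ((abs_nonneg _).trans (hB e he))
    have z2 : ∀ {B B' : Ed → ℝ}, (∀ e, e ∉ Eb → B' e = 0) → ∀ e, e ∉ Eb → (B * B') e = 0 :=
      fun hB' e he => by simp [hB' e he]
    have hA1' : ∀ e ∈ Eb, |A e| ≤ 1 := fun e _ => hA1 e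
    have hχ1 : ∀ e ∈ Eb, |χ e| ≤ g := hc
    have hcomm : ‖Tc.T * Ta.T * Tb.T - Tb.T * (Tc.T * Ta.T)‖ ≤ 2 :=
      (norm_sub_le _ _).trans (by
        have := mul2 (mul2 hcc ha) hb
        have := mul2 hb (mul2 hcc ha)
        linarith)
    have bX := key Tc.T 1 1 A hcc hA0 zero_le_one hA1'
    have bY := key Ta.T 1 f Φ ha hΦ0 hf0 hΦ1
    have bw := key Tb.T 1 g Ψ hb hΨ0 hg0 hΨ1
    have b1 := abs_Ex_le G (S := S) (key _ 2 (g * (f * 1)) (χ * (grad G φ * A)) hcomm (z2 (z2 hA0))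
      (by positivity) (mm hχ1 (mm hf hA1'))) σ
    have b2 := abs_Ex_le G (S := S) (key _ 1 (g * (f * 1)) (grad G ψ * (grad G φ * A))
      (mul2 (mul2 hcc ha) hb) (z2 (z2 hA0)) (by positivity) (mm hg (mm hf hA1'))) σ
    have b3 := abs_Cov_le G (S := S) (key _ 1 (f * 1) (grad G φ * A) (mul2 hcc ha) (z2 hA0)
      (by positivity) (mm hf hA1')) bw σ
    have b4 := abs_Cov_le G (S := S) (key _ 1 (g * 1) (χ * A) ha (z2 hA0)
      (by positivity) (mm hχ1 hA1')) bY σ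
    have b5 := abs_Cov_le G (S := S) (key _ 1 (g * 1) (grad G ψ * A) (mul2 hcc hb) (z2 hA0)
      (by positivity) (mm hg hA1')) bY σ
    have b6 := abs_Cov_le G (S := S) bX (key _ 1 (g * f) (χ * Φ) hcc (z2 hΦ0)
      (by positivity) (mm hχ1 hΦ1)) σ
    have b7 := abs_Cov_le G (S := S) bX (key _ 1 (g * f) (grad G ψ * Φ) (mul2 ha hb) (z2 hΦ0)
      (by positivity) (mm hg hΦ1)) σ
    have bXY : ∀ σ, |(obs G Tc.T A * obs G Ta.T Φ) σ| ≤ (u * 1 * 1) * (u * 1 * f) := fun σ => by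
      rw [ContinuousMap.mul_apply, abs_mul]
      exact mul_le_mul (bX σ) (bY σ) (abs_nonneg _) (by positivity)
    have b8 := abs_Cov_le G (S := S) bXY bw σ
    have b9 : |(Ex G S (obs G Tc.T A) * Cov G S (obs G Ta.T Φ) (obs G Tb.T Ψ)) σ| ≤
        (u * 1 * 1) * (2 * (u * 1 * f) * (u * 1 * g)) := by
      rw [ContinuousMap.mul_apply, abs_mul]
      exact mul_le_mul (abs_Ex_le G bX σ) (abs_Cov_le G bY bw σ) (abs_nonneg _) (by positivity)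
    have b10 : |(Ex G S (obs G Ta.T Φ) * Cov G S (obs G Tc.T A) (obs G Tb.T Ψ)) σ| ≤
        (u * 1 * f) * (2 * (u * 1 * 1) * (u * 1 * g)) := by
      rw [ContinuousMap.mul_apply, abs_mul]
      exact mul_le_mul (abs_Ex_le G bY σ) (abs_Cov_le G bX bw σ) (abs_nonneg _) (by positivity)
    simp only [ContinuousMap.add_apply, ContinuousMap.sub_apply]
    have hfg : 0 ≤ f * g := by positivity
    have p1 : 0 ≤ u * (f * g) := by positivity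
    have p2 : 0 ≤ u ^ 2 * (f * g) := by positivity
    rw [abs_le] at *
    constructor <;> nlinarith [b1.1, b1.2, b2.1, b2.2, b3.1, b3.2, b4.1, b4.2, b5.1, b5.2, b6.1,
      b6.2, b7.1, b7.2, b8.1, b8.2, b9.1, b9.2, b10.1, b10.2]

end CellDA

theorem cell_deriv {β f g c : ℝ} (hJ : Bd G β) (hβ : 0 ≤ β) (τ : Tri n) (S : Finset V)
    (Eb : Finset Ed) (ht : ∀ e, Touch G S e → e ∈ Eb) {N : ℕ} (hN : Eb.card ≤ N)
    (A : Ed → ℝ) (hA0 : ∀ e, e ∉ Eb → A e = 0) (hA1 : ∀ e, |A e| ≤ 1) (φ ψ : V → ℝ)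
    (hf0 : 0 ≤ f) (hg0 : 0 ≤ g) (hf : ∀ e ∈ Eb, |grad G φ e| ≤ f)
    (hg : ∀ e ∈ Eb, |grad G ψ e| ≤ g) (hc : ∀ e ∈ Eb, |ψ (G.t e) - c| ≤ g) :
    ∃ F1 F2 : Fin 3 → Fn n V,
      (∀ a, HasD (τ.T a) φ (Ex G S (obs G (τ.T (a + 2)).T A)) (F1 a)) ∧
      (∀ a, HasD (τ.T (a + 1)) ψ (F1 a) (F2 a)) ∧
      ∀ σ, |(∑ a, F2 a) σ - K G τ S (hd G φ * A) (res Eb (grad G ψ)) σ| ≤
        100 * (1 + β * N) ^ 3 * f * g := by
  have hT := τ.norm_T
  have hTT : ∀ a b, ‖(τ.T a).T * (τ.T b).T‖ ≤ 1 := fun a b =>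
    (norm_mul_le _ _).trans (mul_le_one₀ (hT a) (norm_nonneg _) (hT b))
  have hTTT : ∀ a b c, ‖(τ.T a).T * (τ.T b).T * (τ.T c).T‖ ≤ 1 := fun a b c =>
    (norm_mul_le _ _).trans (mul_le_one₀ (hTT a b) (norm_nonneg _) (hT c))
  have hTTT' : ∀ a b c, ‖(τ.T a).T * ((τ.T b).T * (τ.T c).T)‖ ≤ 1 := fun a b c =>
    (norm_mul_le _ _).trans (mul_le_one₀ (hT a) (norm_nonneg _) (hTT b c))
  have c1 : ∀ a : Fin 3, (τ.T (a + 2)).T * (τ.T a).T - (τ.T a).T * (τ.T (a + 2)).T =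
      -(τ.T (a + 1)).T := by
    intro a
    have h := τ.comm (a + 2)
    have e1 : a + 2 + 1 = a := by fin_cases a <;> rfl
    have e2 : a + 2 + 2 = a + 1 := by fin_cases a <;> rfl
    rw [e1, e2] at h
    rw [← h]; abel
  have c2 : ∀ a : Fin 3, (τ.T (a + 2)).T * (τ.T (a + 1)).T - (τ.T (a + 1)).T * (τ.T (a + 2)).T =
      (τ.T a).T := by
    intro a
    have h := τ.comm (a + 1)
    have e1 : a + 1 + 1 = a + 2 := by fin_cases a <;> rfl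
    have e2 : a + 1 + 2 = a := by fin_cases a <;> rfl
    rwa [e1, e2] at h
  have c3 : ∀ a : Fin 3, (τ.T a).T * (τ.T (a + 1)).T - (τ.T (a + 1)).T * (τ.T a).T =
      -(τ.T (a + 2)).T := by
    intro a
    rw [← τ.comm a]; abel
  choose F1 F2 Rm h1 h2 h3 h4 using fun a : Fin 3 =>
    CellDA.one G hJ hβ S Eb ht hN A hA0 hA1 φ ψ hf0 hg0 hf hg hc (τ.T a) (τ.T (a + 1))
      (τ.T (a + 2)) (hT _) (hT _) (hT _) (c1 a) (c2 a) (c3 a)
  refine ⟨F1, F2, h1, h2, fun σ => ?_⟩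
  have e : (∑ a, F2 a) = K G τ S (hd G φ * A) (res Eb (grad G ψ)) + ∑ a, Rm a := by
    simp only [h3, K, Fin.sum_univ_three, obs_sub_left, map_sub, mul_assoc]
    simp only [show (0 : Fin 3) + 1 = 1 from rfl, show (0 : Fin 3) + 2 = 2 from rfl,
      show (1 : Fin 3) + 1 = 2 from rfl, show (1 : Fin 3) + 2 = 0 from rfl,
      show (2 : Fin 3) + 1 = 0 from rfl, show (2 : Fin 3) + 2 = 1 from rfl]
    module
  rw [e, ContinuousMap.add_apply, add_sub_cancel_left, Fin.sum_univ_three]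
  simp only [ContinuousMap.add_apply]
  have hu : 0 ≤ (1 + β * N) ^ 3 * f * g := by positivity
  have := h4 0 σ
  have := h4 1 σ
  have := h4 2 σ
  have := abs_add_three (Rm 0 σ) (Rm 1 σ) (Rm 2 σ)
  nlinarith

end Crest.Agent.R167
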