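import Crest.Agent.R167.Flow

/-!
# The stiffness form: bounds, gauge invariance, decomposition into cells

Plan. `K1_grad`: `ibp` applied to `hasD_obs T θ T.T A` (commutator term vanishes) and `Ex_w`.
`K1_self_le`: `Cov_self_nonneg` and `abs_obs_le` (`‖T*T‖ ≤ 1`, `|A e * A e| = A e ^ 2`).
`abs_K_le`: per generator `β N a a' + 2 (β N a) (β N a') ≤ 2 (1 + β N)² a a'`.
`Cells.Ex_So`: `Ex So F = Ex So (Ex (Sb B) F)` (DLR) and `Ex (Sb B) F` is `Ind So`
(`Ind.biUnion`, `ind_Ex`, `Ind.ex`; an edge touching `Sb B` and `Sb B'` would lie in two disjoint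
edge sets). `obs G M (res (Eb B) A)` is `Ind (Sb B')` for `B' ≠ B` (`ind_obs`).
`Cells.K1_So`: cross covariances vanish: `Ex So (F_B * F_B') = Ex So (Ex (Sb B) (F_B' * F_B)) =
Ex So (Ex (Sb B) F_B * F_B') = Ex (Sb B) F_B * Ex So F_B'`; diagonal ones localise by `Ex_So`;
`res A * res A' = res (A * A')`.
-/

set_option autoImplicit false

namespace Crest.Agent.R167

open MeasureTheory Crest.ProbabilityR.SpinModel
open scoped RealInnerProductSpace

variable {n : ℕ} {V Ed : Type} [Fintype Ed] [DecidableEq Ed] [DecidableEq V] [Fintype V] [NeZero n]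
  (G : Gr V Ed)

omit [DecidableEq Ed] in
lemma K_add_left (τ : Tri n) (S : Finset V) (A A' B : Ed → ℝ) :
    K G τ S (A + A') B = K G τ S A B + K G τ S A' B := by
  simp only [K, K1, add_mul, obs_add_right, map_add, Cov_add_left, ← Finset.sum_add_distrib]
  exact Finset.sum_congr rfl fun a _ => by ring
omit [DecidableEq Ed] in
lemma K_smul_left (τ : Tri n) (S : Finset V) (c : ℝ) (A B : Ed → ℝ) :
    K G τ S (c • A) B = c • K G τ S A B := by
  simp only [K, K1, smul_mul_assoc, obs_smul_right, map_smul, Cov_smul_left, Finset.smul_sum,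
    smul_sub, smul_neg]
omit [DecidableEq Ed] in
lemma K_smul_right (τ : Tri n) (S : Finset V) (c : ℝ) (A B : Ed → ℝ) :
    K G τ S A (c • B) = c • K G τ S A B := by
  simp only [K, K1, mul_smul_comm, obs_smul_right, map_smul, Cov_smul_right, Finset.smul_sum,
    smul_sub, smul_neg]
omit [DecidableEq Ed] in
lemma K_zero_left (τ : Tri n) (S : Finset V) (B : Ed → ℝ) : K G τ S 0 B = 0 := by
  have := K_smul_left G τ S 0 0 B
  simpa using this

omit [DecidableEq Ed] in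
/-- gauge invariance -/
lemma K1_grad (T : Sk n) {S : Finset V} {θ : V → ℝ} (hθ : ∀ x, x ∉ S → θ x = 0) (A : Ed → ℝ) :
    K1 G T S (grad G θ) A = 0 := by
  have h := ibp G hθ (hasD_obs G T θ T.T A)
  rw [sub_self, obs_zero_left, zero_add] at h
  rw [K1, h, Cov, Ex_w G T hθ, mul_comm (obs G T.T A)]
  ring

omit [DecidableEq Ed] in
lemma K1_self_le {β : ℝ} (hJ : Bd G β) (hβ : 0 ≤ β) {T : Sk n} (hT : ‖T.T‖ ≤ 1) (S : Finset V)
    (A : Ed → ℝ) (σ : Cfg n V) : K1 G T S A A σ ≤ β * ∑ e, A e ^ 2 := by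
  have h1 := abs_Ex_le G (S := S) (abs_obs_le G hJ hβ (M := T.T * T.T) (m := 1)
    ((norm_mul_le _ _).trans (mul_le_one₀ hT (norm_nonneg _) hT)) (A * A)) σ
  have h2 := Cov_self_nonneg G S (obs G T.T A) σ
  simp only [Pi.mul_apply, abs_mul_self, mul_one, ← sq] at h1
  simp only [K1, ContinuousMap.sub_apply, ContinuousMap.neg_apply]
  have := (abs_le.1 h1).1
  simp only [sq, abs_mul_self] at this ⊢
  linarith

omit [DecidableEq Ed] in
lemma K_self_le {β : ℝ} (hJ : Bd G β) (hβ : 0 ≤ β) (τ : Tri n) (S : Finset V)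
    (A : Ed → ℝ) (σ : Cfg n V) : K G τ S A A σ ≤ 3 * β * ∑ e, A e ^ 2 := by
  simp only [K, Fin.sum_univ_three, ContinuousMap.add_apply]
  linarith [K1_self_le G hJ hβ (τ.norm_T 0) S A σ, K1_self_le G hJ hβ (τ.norm_T 1) S A σ,
    K1_self_le G hJ hβ (τ.norm_T 2) S A σ]

omit [DecidableEq Ed] in
lemma abs_K_le {β a a' : ℝ} (hJ : Bd G β) (hβ : 0 ≤ β) (τ : Tri n) (S : Finset V)
    {Eb : Finset Ed} {N : ℕ} (hN : Eb.card ≤ N) {A A' : Ed → ℝ}
    (h0 : ∀ e, e ∉ Eb → A e = 0) (h0' : ∀ e, e ∉ Eb → A' e = 0) (ha0 : 0 ≤ a) (ha0' : 0 ≤ a')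
    (ha : ∀ e ∈ Eb, |A e| ≤ a) (ha' : ∀ e ∈ Eb, |A' e| ≤ a') (σ : Cfg n V) :
    |K G τ S A A' σ| ≤ 6 * (1 + β * N) ^ 2 * a * a' := by
  have h : ∀ T : Sk n, ‖T.T‖ ≤ 1 → |K1 G T S A A' σ| ≤ 2 * ((1 + β * N) ^ 2 * a * a') := by
    intro T hT
    have h1 := abs_Ex_le G (S := S) (abs_obs_le_card G hJ hβ (M := T.T * T.T) (m := 1)
      ((norm_mul_le _ _).trans (mul_le_one₀ hT (norm_nonneg _) hT)) hN (A := A * A') (a := a * a')
      (fun e he => by simp [h0 e he]) (by positivity) (fun e he => by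
        rw [Pi.mul_apply, abs_mul]; exact mul_le_mul (ha e he) (ha' e he) (abs_nonneg _) ha0)) σ
    have h2 := abs_Cov_le G (S := S) (abs_obs_le_card G hJ hβ hT hN h0 ha0 ha)
      (abs_obs_le_card G hJ hβ hT hN h0' ha0' ha') σ
    simp only [K1, ContinuousMap.sub_apply, ContinuousMap.neg_apply]
    refine (abs_sub _ _).trans ?_
    rw [abs_neg]
    have : 0 ≤ a * a' := by positivity
    have : 0 ≤ β * N * (a * a') := by positivity
    nlinarith
  simp only [K, Fin.sum_univ_three, ContinuousMap.add_apply]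
  refine (abs_add_three _ _ _).trans ?_
  linarith [h _ (τ.norm_T 0), h _ (τ.norm_T 1), h _ (τ.norm_T 2)]

omit [DecidableEq Ed] in
lemma K1_total (T : Sk n) {S S' : Finset V} (h : S ⊆ S') (A A' : Ed → ℝ) :
    K1 G T S' A A' = Ex G S' (K1 G T S A A') -
      Cov G S' (Ex G S (obs G T.T A)) (Ex G S (obs G T.T A')) := by
  rw [K1, K1, Cov_total G h, map_sub, map_neg, Ex_Ex G h]; ring

variable {G} {ι : Type} [Fintype ι] (C : Cells G ι)

omit [DecidableEq Ed] in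
lemma Cells.ind_So (B : ι) {F : Fn n V} (hF : ∀ B', B' ≠ B → Ind (C.Sb B') F) :
    Ind C.So (Ex G (C.Sb B) F) := by
  refine Ind.biUnion _ fun B' _ => ?_
  by_cases h : B' = B
  · rw [h]; exact ind_Ex G _ _
  · exact (hF B' h).ex G fun e h1 h2 =>
      Finset.disjoint_left.1 (C.disj B' B h) (C.touch _ _ h2) (C.touch _ _ h1)

omit [Fintype V] [NeZero n] [Fintype ι] in
lemma Cells.ind_res (M : Op n) (A : Ed → ℝ) {B B' : ι} (h : B' ≠ B) :
    Ind (C.Sb B') (obs G M (res (C.Eb B) A)) :=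
  ind_obs G M fun e he => by
    have : e ∉ C.Eb B := Finset.disjoint_left.1 (C.disj B' B h) (C.touch _ _ he)
    simp [res, this]

omit [DecidableEq Ed] in
lemma Cells.Ex_So (B : ι) {F : Fn n V} (hF : ∀ B', B' ≠ B → Ind (C.Sb B') F) :
    Ex G C.So F = Ex G (C.Sb B) F := by
  have hs : C.Sb B ⊆ C.So := Finset.subset_biUnion_of_mem C.Sb (Finset.mem_univ B)
  rw [← Ex_Ex G hs, Ex_of_ind G (C.ind_So B hF)]

omit [Fintype Ed] [DecidableEq V] [Fintype V] in
lemma Cells.sum_res {A : Ed → ℝ} (hA : ∀ e, A e ≠ 0 → ∃ B, e ∈ C.Eb B) :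
    ∑ B, res (C.Eb B) A = A := by
  funext e
  rw [Finset.sum_apply]
  by_cases h : ∃ B, e ∈ C.Eb B
  · obtain ⟨B, hB⟩ := h
    rw [Finset.sum_eq_single B]
    · simp [res, hB]
    · intro B' _ hB'
      have : e ∉ C.Eb B' := fun h' => Finset.disjoint_left.1 (C.disj B' B hB') h' hB
      simp [res, this]
    · simp
  · have h0 : A e = 0 := by by_contra h'; exact h (hA e h')
    simp [res, h0]

omit [DecidableEq V] [Fintype V] in
lemma Cells.sum_res_sq {A : Ed → ℝ} (hA : ∀ e, A e ≠ 0 → ∃ B, e ∈ C.Eb B) :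
    ∑ B, ∑ e, res (C.Eb B) A e ^ 2 = ∑ e, A e ^ 2 := by
  rw [Finset.sum_comm]
  refine Finset.sum_congr rfl fun e _ => ?_
  have := congrFun (C.sum_res (A := A * A) fun e he => hA e fun h => he (by simp [h])) e
  rw [Finset.sum_apply] at this
  rw [sq (A e), ← Pi.mul_apply, ← this]
  refine Finset.sum_congr rfl fun B _ => ?_
  by_cases he : e ∈ C.Eb B <;> simp [res, he, sq]

lemma Cells.Ex_obs (M : Op n) {A : Ed → ℝ} (hA : ∀ e, A e ≠ 0 → ∃ B, e ∈ C.Eb B) :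
    Ex G C.So (obs G M A) = ∑ B, Ex G (C.Sb B) (obs G M (res (C.Eb B) A)) := by
  conv_lhs => rw [← C.sum_res hA, obs_sum_right, map_sum]
  exact Finset.sum_congr rfl fun B _ => C.Ex_So B fun B' h => C.ind_res M A h

lemma Cells.K1_So (T : Sk n) {A : Ed → ℝ} (hA : ∀ e, A e ≠ 0 → ∃ B, e ∈ C.Eb B) :
    K1 G T C.So A A = ∑ B, K1 G T (C.Sb B) (res (C.Eb B) A) (res (C.Eb B) A) := by
  have hAA : ∀ e, (A * A) e ≠ 0 → ∃ B, e ∈ C.Eb B := fun e he => hA e fun h => he (by simp [h])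
  have e1 : ∀ B, res (C.Eb B) (A * A) = res (C.Eb B) A * res (C.Eb B) A := fun B => by
    funext e; by_cases he : e ∈ C.Eb B <;> simp [res, he]
  simp only [K1, Finset.sum_sub_distrib, Finset.sum_neg_distrib, C.Ex_obs _ hAA, e1]
  congr 1
  conv_lhs => rw [← C.sum_res hA, obs_sum_right, Cov_sum_left]
  refine Finset.sum_congr rfl fun B _ => ?_
  have iB : ∀ B', B' ≠ B → Ind (C.Sb B') (obs G T.T (res (C.Eb B) A)) :=
    fun B' h => C.ind_res _ A h
  rw [Cov_sum_right, Finset.sum_eq_single B]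
  · rw [Cov, Cov, C.Ex_So B iB, C.Ex_So B fun B' h => (iB B' h).mul (iB B' h)]
  · intro B' _ hB'
    have hs : C.Sb B ⊆ C.So := Finset.subset_biUnion_of_mem C.Sb (Finset.mem_univ B)
    rw [Cov_comm, ← Cov_Ex_right G hs (C.ind_res _ A hB'.symm),
      Cov_of_ind_right G _ (C.ind_So B iB)]
  · simp

lemma Cells.K_So (τ : Tri n) {A : Ed → ℝ} (hA : ∀ e, A e ≠ 0 → ∃ B, e ∈ C.Eb B) :
    K G τ C.So A A = ∑ B, K G τ (C.Sb B) (res (C.Eb B) A) (res (C.Eb B) A) := by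
  simp only [K, C.K1_So _ hA]
  exact Finset.sum_comm

end Crest.Agent.R167
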