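import Crest.Agent.R167.Lat

/-!
# Last-exit chains

`exists_path`: take `ε u = decide (u is reachable from x along edges of ω, by a path as in the
statement)`; it is constant on `ω` (extend the path by one step), so `ε y = ε x = true`. All points of
such a path are `Conn` to `x` hence to `y` (`Conn` is an equivalence relation).
`chains N K x`: `chains 0 x = {∅}`, `chains (K+1) x = ⋃_{x' : dd x' x ≤ N} (insert x) '' chains K x'`,
of cardinality `≤ ((2N+1)²)^K`. By induction on `K`: a path `p` from `x` to `y` with steps `≤ 1` and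
`dd x y ≥ K N` contains the points of some separated `Z ∈ chains K x`: let `j` be the last index with
`dd (p j) x < N` (`j < m` as `dd y x ≥ N`), continue with the path `i ↦ p (j + 1 + i)`, all of whose
points are at distance `≥ N` from `x`. Take `𝒵` = the separated members of `chains K x`.
-/

set_option autoImplicit false

namespace Crest.Agent.R167

open MeasureTheory Crest.ProbabilityR.SpinModel
open scoped RealInnerProductSpace

variable {V : Finset (ℤ × ℤ)} {b : ℤ × ℤ → Fin 2 → ℝ}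

lemma exists_path {ω : Finset (Edg V)} {x y : V} (h : Conn (latG V b) ω x y) :
    ∃ (m : ℕ) (p : ℕ → V), p 0 = x ∧ p m = y ∧ (∀ i, i < m → dd (p i) (p (i + 1)) ≤ 1) ∧
      ∀ i, i ≤ m → Conn (latG V b) ω (p i) y := by
  classical
  let P : V → Prop := fun u => ∃ (m : ℕ) (p : ℕ → V), p 0 = x ∧ p m = u ∧
    (∀ i, i < m → dd (p i) (p (i + 1)) ≤ 1) ∧ ∀ i, i ≤ m → Conn (latG V b) ω (p i) x
  have ext : ∀ u u' : V, P u → dd u u' ≤ 1 → Conn (latG V b) ω u' u → P u' := by
    rintro u u' ⟨m, p, h0, hm, hs, hc⟩ hd hcc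
    refine ⟨m + 1, fun i => if i ≤ m then p i else u', by simp [h0], by simp, ?_, ?_⟩
    · intro i hi
      rcases Nat.lt_succ_iff_lt_or_eq.1 hi with h1 | h1
      · simp only [h1.le, Nat.succ_le_of_lt h1, if_true]; exact hs i h1
      · subst h1; simp [hm, hd]
    · intro i hi
      by_cases h1 : i ≤ m
      · simp only [h1, if_true]; exact hc i h1
      · simp only [h1, if_false]
        intro ε hε
        rw [hcc ε hε, ← hm]; exact hc m le_rfl ε hε
  have hx : P x := ⟨0, fun _ => x, rfl, rfl, fun i hi => absurd hi (Nat.not_lt_zero _),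
    fun i _ ε _ => rfl⟩
  have := h (fun u => decide (P u)) fun e he => by
    rw [decide_eq_decide]
    constructor
    · intro h1
      exact ext _ _ h1 (dd_s_t e) fun ε hε => (hε e he).symm
    · intro h1
      exact ext _ _ h1 (by rw [dd_comm]; exact dd_s_t e) fun ε hε => hε e he
  rw [decide_eq_decide] at this
  obtain ⟨m, p, h0, hm, hs, hc⟩ := this.1 hx
  exact ⟨m, p, h0, hm, hs, fun i hi ε hε => (hc i hi ε hε).trans (h ε hε)⟩

namespace ChainA

/-- candidate chains -/
def chains (N : ℕ) : ℕ → V → Finset (Finset V)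
  | 0, _ => {∅}
  | K + 1, x => (Finset.univ.filter fun x' : V => dd x' x ≤ N).biUnion fun x' =>
      (chains N K x').image (insert x)

lemma card_ball (N : ℕ) (x : V) :
    (Finset.univ.filter fun x' : V => dd x' x ≤ N).card ≤ (2 * N + 1) ^ 2 := by
  have h : (Finset.Icc ((x : ℤ × ℤ).1 - N) ((x : ℤ × ℤ).1 + N) ×ˢ
      Finset.Icc ((x : ℤ × ℤ).2 - N) ((x : ℤ × ℤ).2 + N)).card = (2 * N + 1) ^ 2 := by
    rw [Finset.card_product, Int.card_Icc, Int.card_Icc]
    have e1 : ∀ a : ℤ, (a + N + 1 - (a - N)).toNat = 2 * N + 1 := fun a => by omega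
    rw [e1, e1, sq]
  rw [← h]
  refine Finset.card_le_card_of_injOn (fun u => (u : ℤ × ℤ)) ?_ fun u _ v _ h => Subtype.ext h
  intro u hu
  simp only [Finset.coe_filter, Finset.mem_univ, true_and, Set.mem_setOf_eq, dd, max_le_iff,
    abs_le] at hu
  simp only [Finset.coe_product, Finset.coe_Icc, Set.mem_prod, Set.mem_Icc]
  omega

lemma card_chains (N K : ℕ) (x : V) : (chains N K x).card ≤ (2 * N + 1) ^ (2 * K) := by
  induction K generalizing x with
  | zero => simp [chains]
  | succ K ih =>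
    rw [chains]
    refine (Finset.card_biUnion_le_card_mul _ _ ((2 * N + 1) ^ (2 * K)) fun x' _ =>
      Finset.card_image_le.trans (ih x')).trans ?_
    rw [show 2 * (K + 1) = 2 + 2 * K by ring, pow_add]
    exact Nat.mul_le_mul_right _ (card_ball N x)

lemma main (y : V) {N : ℕ} (hN : 0 < N) (K : ℕ) : ∀ (x : V) (m : ℕ) (p : ℕ → V), p 0 = x → p m = y →
    (∀ i, i < m → dd (p i) (p (i + 1)) ≤ 1) → ((K * N : ℕ) : ℤ) ≤ dd x y →
    ∃ Z ∈ chains N K x, Z.card = K ∧ (∀ z ∈ Z, (N : ℤ) ≤ dd y z) ∧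
      (∀ z ∈ Z, ∀ z' ∈ Z, z ≠ z' → (N : ℤ) ≤ dd z z') ∧ ∀ z ∈ Z, ∃ i ≤ m, z = p i := by
  classical
  induction K with
  | zero => intro x m p _ _ _ _; exact ⟨∅, by simp [chains], by simp⟩
  | succ K ih =>
    intro x m p h0 hm hs hxy
    have hKN : (((K + 1) * N : ℕ) : ℤ) = (K * N : ℕ) + N := by push_cast; ring
    have hNy : (N : ℤ) ≤ dd x y := by
      have : (0 : ℤ) ≤ (K * N : ℕ) := Int.natCast_nonneg _
      omega
    set j := Nat.findGreatest (fun i => dd (p i) x < N) m with hj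
    have hjP : dd (p j) x < N :=
      Nat.findGreatest_spec (P := fun i => dd (p i) x < N) (Nat.zero_le m)
        (by rw [h0, dd_self]; exact_mod_cast hN)
    have hjm : j < m := by
      refine lt_of_le_of_ne (Nat.findGreatest_le m) fun h => ?_
      rw [h, hm, dd_comm] at hjP
      omega
    have hgt : ∀ i, j < i → i ≤ m → (N : ℤ) ≤ dd (p i) x := fun i h1 h2 =>
      not_lt.1 (Nat.findGreatest_is_greatest (P := fun i => dd (p i) x < N) h1 h2)
    have hx' : dd (p (j + 1)) x ≤ N := by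
      have h1 := dd_triangle (p (j + 1)) (p j) x
      have h2 := hs j hjm
      rw [dd_comm] at h2
      omega
    obtain ⟨Z, hZ, c1, c2, c3, c4⟩ := ih (p (j + 1)) (m - (j + 1)) (fun i => p (j + 1 + i)) rfl
      (by rw [Nat.add_sub_cancel' hjm]; exact hm)
      (fun i hi => hs (j + 1 + i) (by omega))
      (by
        have h1 := dd_triangle x (p (j + 1)) y
        rw [dd_comm] at hx'
        omega)
    have hfar : ∀ z ∈ Z, (N : ℤ) ≤ dd z x := fun z hz => by
      obtain ⟨i, hi, rfl⟩ := c4 z hz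
      exact hgt _ (by omega) (by omega)
    have hxZ : x ∉ Z := fun h => by
      have := hfar x h
      rw [dd_self] at this
      omega
    refine ⟨insert x Z, ?_, by rw [Finset.card_insert_of_notMem hxZ, c1], ?_, ?_, ?_⟩
    · rw [chains, Finset.mem_biUnion]
      exact ⟨p (j + 1), by simpa using hx', Finset.mem_image_of_mem _ hZ⟩
    · intro z hz
      rcases Finset.mem_insert.1 hz with rfl | hz
      · rw [dd_comm]; exact hNy
      · exact c2 z hz
    · intro z hz z' hz' hne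
      rcases Finset.mem_insert.1 hz with h1 | h1 <;> rcases Finset.mem_insert.1 hz' with h2 | h2
      · exact absurd (h1.trans h2.symm) hne
      · rw [h1, dd_comm]; exact hfar z' h2
      · rw [h2]; exact hfar z h1
      · exact c3 z h1 z' h2 hne
    · intro z hz
      rcases Finset.mem_insert.1 hz with rfl | hz
      · exact ⟨0, Nat.zero_le _, h0.symm⟩
      · obtain ⟨i, hi, rfl⟩ := c4 z hz
        exact ⟨j + 1 + i, by omega, rfl⟩

end ChainA

theorem exists_chains (x y : V) {N : ℕ} (hN : 0 < N) (K : ℕ) (hxy : ((K * N : ℕ) : ℤ) ≤ dd x y) :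
    ∃ 𝒵 : Finset (Finset V), 𝒵.card ≤ (2 * N + 1) ^ (2 * K) ∧
      (∀ Z ∈ 𝒵, Z.card = K ∧ (∀ z ∈ Z, (N : ℤ) ≤ dd y z) ∧
        ∀ z ∈ Z, ∀ z' ∈ Z, z ≠ z' → (N : ℤ) ≤ dd z z') ∧
      ∀ ω, Conn (latG V b) ω x y → ∃ Z ∈ 𝒵, ∀ z ∈ Z, Conn (latG V b) ω z y := by
  classical
  refine ⟨(ChainA.chains N K x).filter fun Z => Z.card = K ∧ (∀ z ∈ Z, (N : ℤ) ≤ dd y z) ∧
    ∀ z ∈ Z, ∀ z' ∈ Z, z ≠ z' → (N : ℤ) ≤ dd z z', ?_, ?_, ?_⟩
  · exact (Finset.card_filter_le _ _).trans (ChainA.card_chains N K x)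
  · intro Z hZ; exact (Finset.mem_filter.1 hZ).2
  · intro ω hω
    obtain ⟨m, p, h0, hm, hs, hc⟩ := exists_path hω
    obtain ⟨Z, hZ, h1, h2, h3, h4⟩ := ChainA.main y hN K x m p h0 hm hs hxy
    refine ⟨Z, Finset.mem_filter.2 ⟨hZ, h1, h2, h3⟩, fun z hz => ?_⟩
    obtain ⟨i, hi, rfl⟩ := h4 z hz
    exact hc i hi

end Crest.Agent.R167
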