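import Crest.Agent.R167.Cells

/-!
# Contraction of one-point functions

Plan. Fix `a`, `T = τ.T (a+1)`, `w = obs T (grad θ)`, `F = Ex D (lin (e (a+2)) x)`.
`HasD T θ F (Ex D (lin (e a) x))` (`hasD_lin`, `τ.act`, `lin_neg`, `HasD.ex`; the covariance vanishes
since `w` is `Ind D`: `ind_obs`, `Cov_of_ind_right`). `ibp` on `D'` and DLR:
`Ex D' (lin (e a) x) = -Ex D' (F * w) = -Ex D' (F * Ex So w)` (`F` is `Ind So`: `Ind.biUnion`,
`Ind.ex`, `ind_lin`). `Ex_mul_sq_le`: the square is at most `c² * Ex D' (ŵ ŵ)`, `ŵ = Ex So w`.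
For every `a'`: `0 = K1 D' (grad θ) (grad θ) = Ex D' (K1 So ..) - Cov D' ŵ ŵ` (`K1_grad`, `K1_total`)
and `Ex D' ŵ = 0` (`Ex_w`), so `∑ a', Ex D' (ŵ_a' ŵ_a') = Ex D' (K So ..) ≤ q²` (`Cells.K_So`), all
terms being nonnegative.
-/

set_option autoImplicit false

namespace Crest.Agent.R167

open MeasureTheory Crest.ProbabilityR.SpinModel
open scoped RealInnerProductSpace

variable {n : ℕ} {V Ed : Type} [Fintype Ed] [DecidableEq Ed] [DecidableEq V] [Fintype V] [NeZero n]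
  (G : Gr V Ed)

theorem contract (τ : Tri n) {ι : Type} [Fintype ι] (C : Cells G ι) {D D' : Finset V} {x : V}
    {θ : V → ℝ} (hD : D ⊆ D') (hθ : ∀ u, u ∉ D' → θ u = 0) (hx : θ x = 1)
    (h0 : ∀ e, Touch G D e → grad G θ e = 0)
    (hcov : ∀ e, grad G θ e ≠ 0 → ∃ B, e ∈ C.Eb B) (hS : ∀ B, C.Sb B ⊆ D')
    (hxS : ∀ B, x ∉ C.Sb B) (hsep : ∀ B e, Touch G D e → ¬Touch G (C.Sb B) e) {q c : ℝ}
    (hq : 0 ≤ q)
    (hK : ∀ σ, (∑ B, K G τ (C.Sb B) (res (C.Eb B) (grad G θ)) (res (C.Eb B) (grad G θ))) σ ≤ q ^ 2)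
    (hc : ∀ a σ, |Ex G D (lin (τ.e a) x) σ| ≤ c) (a : Fin 3) (σ : Cfg n V) :
    |Ex G D' (lin (τ.e a) x) σ| ≤ q * c := by
  have hSo : C.So ⊆ D' := Finset.biUnion_subset.2 fun B _ => hS B
  set T := τ.T (a + 1) with hT
  set F := Ex G D (lin (τ.e (a + 2)) x) with hF
  have hw : Ind D (obs G T.T (grad G θ)) := ind_obs G _ h0
  have d : HasD T θ F (Ex G D (lin (τ.e a) x)) := by
    refine ((hasD_lin T θ (τ.e (a + 2)) x).ex G D).congr ?_
    rw [Cov_of_ind_right G _ hw, add_zero, hx, one_smul, hT, τ.act, lin_neg, neg_neg]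
  have hFS : Ind C.So F :=
    Ind.biUnion _ fun B _ => (ind_lin _ (hxS B)).ex G (hsep B)
  have e1 : Ex G D' (lin (τ.e a) x) = -Ex G D' (F * Ex G C.So (obs G T.T (grad G θ))) := by
    rw [← Ex_Ex G hD, ibp G hθ d, ← Ex_mul_of_ind G hFS, Ex_Ex G hSo]
  have e2 : ∀ a', Ex G D' (Ex G C.So (obs G (τ.T a').T (grad G θ)) *
      Ex G C.So (obs G (τ.T a').T (grad G θ))) =
      Ex G D' (K1 G (τ.T a') C.So (grad G θ) (grad G θ)) := by
    intro a'
    have h1 := K1_total G (τ.T a') hSo (grad G θ) (grad G θ)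
    rw [K1_grad G _ hθ, Cov, Ex_Ex G hSo, Ex_w G _ hθ, mul_zero, sub_zero] at h1
    exact (sub_eq_zero.1 h1.symm).symm
  have e3 : ∑ a', Ex G D' (Ex G C.So (obs G (τ.T a').T (grad G θ)) *
      Ex G C.So (obs G (τ.T a').T (grad G θ))) σ ≤ q ^ 2 := by
    have := Ex_le G (S := D') hK σ
    rw [← C.K_So τ hcov, K, map_sum, ContinuousMap.coe_sum, Finset.sum_apply] at this
    simpa only [e2] using this
  have e4 : Ex G D' (Ex G C.So (obs G T.T (grad G θ)) *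
      Ex G C.So (obs G T.T (grad G θ))) σ ≤ q ^ 2 :=
    le_trans (Finset.single_le_sum (f := fun a' => Ex G D' (Ex G C.So (obs G (τ.T a').T (grad G θ)) *
      Ex G C.So (obs G (τ.T a').T (grad G θ))) σ)
      (fun a' _ => Ex_nonneg G (fun σ => by
        rw [ContinuousMap.mul_apply]; exact mul_self_nonneg _) σ) (Finset.mem_univ (a + 1))) e3
  have hc0 : 0 ≤ c := (abs_nonneg _).trans (hc a σ)
  have e5 : Ex G D' (F * F) σ ≤ c ^ 2 := Ex_le G (fun σ => by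
    rw [ContinuousMap.mul_apply, ← sq, ← sq_abs]
    exact pow_le_pow_left₀ (abs_nonneg _) (hc _ σ) 2) σ
  have cs := Ex_mul_sq_le G D' F (Ex G C.So (obs G T.T (grad G θ))) σ
  rw [e1, ContinuousMap.neg_apply, abs_neg]
  refine abs_le_of_sq_le_sq ?_ (by positivity)
  refine cs.trans ?_
  calc _ ≤ c ^ 2 * q ^ 2 := mul_le_mul e5 e4 (Ex_nonneg G (fun σ => by
        rw [ContinuousMap.mul_apply]; exact mul_self_nonneg _) σ) (by positivity)
    _ = _ := by ring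

end Crest.Agent.R167
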