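import Mathlib
import Crest.Prelude.Def_SpinON

/-!
# Row 167 (S0253): mass gap of the two-dimensional O(n) model, n ≥ 3. Definitions.

Overview of the proof (see the headers of the single files):
* `Ex G S F` = Gibbs expectation of `F` over the spins in `S`, as a function of the spins outside.
* `HasD T θ F F'`: `F'` is the derivative of `F` along the site rotations `exp (t θ_x T)`.
* `K G τ S A A'` = stiffness form of the region `S` (sum over three so(3) generators).
* RG step (`RG`, `RGLat`): the stiffness per area drops by a fixed `δ(β, ε)` from one scale to a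
  much larger one as long as it is `≥ ε` (non-abelian Ward identity).
* small stiffness ⇒ one-point functions contract on dyadic annuli (`Contract`, `Ann`).
* Edwards–Sokal expansion in one spin coordinate + last-exit chains ⇒ exponential decay
  (`ES`, `Prod`, `Chain`, `Final`).
-/

set_option autoImplicit false

namespace Crest.Agent.R167

open MeasureTheory Crest.ProbabilityR.SpinModel
open scoped RealInnerProductSpace

abbrev E (n : ℕ) := EuclideanSpace ℝ (Fin n)
abbrev Sph (n : ℕ) := Metric.sphere (0 : E n) 1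
abbrev Op (n : ℕ) := E n →L[ℝ] E n
abbrev Cfg (n : ℕ) (V : Type) := V → Sph n
abbrev Fn (n : ℕ) (V : Type) := C(Cfg n V, ℝ)

/-- uniform probability measure on the sphere -/
noncomputable def mu1 (n : ℕ) : Measure (Sph n) :=
  ((volume : Measure (E n)).toSphere Set.univ)⁻¹ • (volume : Measure (E n)).toSphere

instance (n : ℕ) [NeZero n] : IsProbabilityMeasure (mu1 n) := ⟨by
  rw [mu1, Measure.smul_apply, smul_eq_mul, ENNReal.inv_mul_cancel]
  · exact fun h => Measure.toSphere_ne_zero _ (Measure.measure_univ_eq_zero.1 h)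
  · exact measure_ne_top _ _⟩

/-- product of uniform measures -/
noncomputable def lam (n : ℕ) (V : Type) [Fintype V] : Measure (Cfg n V) :=
  Measure.pi fun _ => mu1 n

instance (n : ℕ) [NeZero n] (V : Type) [Fintype V] : IsProbabilityMeasure (lam n V) := by
  unfold lam; infer_instance

/-- finite oriented multigraph with edge strengths -/
structure Gr (V Ed : Type) where
  s : Ed → V
  t : Ed → V
  J : Ed → ℝ

/-- skew operators -/
structure Sk (n : ℕ) where
  T : Op n
  skew : ∀ u v : E n, ⟪T u, v⟫ = -⟪u, T v⟫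

/-- an so(3) triple with an adapted frame -/
structure Tri (n : ℕ) where
  T : Fin 3 → Sk n
  e : Fin 3 → E n
  norm_T : ∀ a, ‖(T a).T‖ ≤ 1
  comm : ∀ a, (T (a + 1)).T * (T a).T - (T a).T * (T (a + 1)).T = (T (a + 2)).T
  norm_e : ∀ a, ‖e a‖ = 1
  act : ∀ a, (T (a + 1)).T (e (a + 2)) = -e a

section general

variable {n : ℕ} {V Ed : Type}

lemma Sk.mem_skewAdjoint (T : Sk n) (t : ℝ) : t • T.T ∈ skewAdjoint (Op n) := by
  rw [skewAdjoint.mem_iff, ContinuousLinearMap.star_eq_adjoint]
  symm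
  rw [ContinuousLinearMap.eq_adjoint_iff]
  intro u v
  simp [inner_neg_left, inner_smul_left, inner_smul_right, T.skew]

/-- the rotation `exp (t T)` -/
noncomputable def rot (T : Sk n) (t : ℝ) : E n ≃ₗᵢ[ℝ] E n :=
  Unitary.linearIsometryEquiv
    ⟨NormedSpace.exp (t • T.T),
      let +nondep : NormedAlgebra ℚ (Op n) := .restrictScalars ℚ ℝ (Op n)
      NormedSpace.exp_mem_unitary_of_mem_skewAdjoint (T.mem_skewAdjoint t)⟩

lemma rot_apply (T : Sk n) (t : ℝ) (v : E n) : rot T t v = NormedSpace.exp (t • T.T) v := rfl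

/-- action of a linear isometry on the sphere -/
noncomputable def act (R : E n ≃ₗᵢ[ℝ] E n) (v : Sph n) : Sph n :=
  ⟨R v, by simpa using v.2⟩

@[simp] lemma act_coe (R : E n ≃ₗᵢ[ℝ] E n) (v : Sph n) : (act R v : E n) = R v := rfl

/-- sitewise action on configurations -/
noncomputable def actC (R : V → (E n ≃ₗᵢ[ℝ] E n)) (σ : Cfg n V) : Cfg n V := fun x => act (R x) (σ x)

/-- flow of site rotations `exp (t θ_x T)` -/
noncomputable def fl (T : Sk n) (θ : V → ℝ) (t : ℝ) : Cfg n V → Cfg n V :=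
  actC fun x => rot T (t * θ x)

/-- `F'` is the derivative of `F` along the flow -/
def HasD (T : Sk n) (θ : V → ℝ) (F F' : Fn n V) : Prop :=
  ∀ σ, HasDerivAt (fun t => F (fl T θ t σ)) (F' σ) 0

/-- the linear observable `⟪v, σ x⟫` -/
noncomputable def lin (v : E n) (x : V) : Fn n V := ⟨fun σ => ⟪v, (σ x : E n)⟫, by fun_prop⟩

@[simp] lemma lin_apply (v : E n) (x : V) (σ : Cfg n V) : lin v x σ = ⟪v, (σ x : E n)⟫ := rfl

/-- post-composition with a continuous real function -/
def cmp (g : C(ℝ, ℝ)) (F : Fn n V) : Fn n V := g.comp F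

@[simp] lemma cmp_apply (g : C(ℝ, ℝ)) (F : Fn n V) (σ : Cfg n V) : cmp g F σ = g (F σ) := rfl

/-- `q_τ(u) = τ² / (τ² + u²)` (meaningful for `τ ≠ 0`) -/
noncomputable def qf (τ : ℝ) (hτ : 0 < τ) : C(ℝ, ℝ) :=
  ⟨fun u => τ ^ 2 / (τ ^ 2 + u ^ 2),
    continuous_const.div (by fun_prop) fun u => by positivity⟩

/-- gradient along the edges -/
def grad (G : Gr V Ed) (θ : V → ℝ) : Ed → ℝ := fun e => θ (G.s e) - θ (G.t e)

/-- value at the head of the edge -/
def hd (G : Gr V Ed) (θ : V → ℝ) : Ed → ℝ := fun e => θ (G.t e)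

/-- the edge `e` has an endpoint in `S` -/
def Touch (G : Gr V Ed) (S : Finset V) (e : Ed) : Prop := G.s e ∈ S ∨ G.t e ∈ S

/-- strengths in `[0, β]` -/
def Bd (G : Gr V Ed) (β : ℝ) : Prop := ∀ e, 0 ≤ G.J e ∧ G.J e ≤ β

/-- restriction of an edge function -/
def res [DecidableEq Ed] (Eb : Finset Ed) (A : Ed → ℝ) : Ed → ℝ :=
  fun e => if e ∈ Eb then A e else 0

/-- `x` and `y` are connected through edges of `ω` -/
def Conn (G : Gr V Ed) (ω : Finset Ed) (x y : V) : Prop :=
  ∀ ε : V → Bool, (∀ e ∈ ω, ε (G.s e) = ε (G.t e)) → ε x = ε y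

/-- cells: disjoint edge sets `Eb`, interiors `Sb` -/
structure Cells (G : Gr V Ed) (ι : Type) where
  Eb : ι → Finset Ed
  Sb : ι → Finset V
  disj : ∀ B B', B ≠ B' → Disjoint (Eb B) (Eb B')
  touch : ∀ B e, Touch G (Sb B) e → e ∈ Eb B

/-- union of the interiors -/
def Cells.So {G : Gr V Ed} {ι : Type} [Fintype ι] [DecidableEq V] (C : Cells G ι) : Finset V :=
  Finset.univ.biUnion C.Sb

variable [Fintype Ed]

/-- bilinear edge observable `∑ J_e A_e ⟪M σ_s, σ_t⟫` -/
noncomputable def obs (G : Gr V Ed) (M : Op n) (A : Ed → ℝ) : Fn n V :=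
  ⟨fun σ => ∑ e, G.J e * A e * ⟪M (σ (G.s e)), (σ (G.t e) : E n)⟫, by fun_prop⟩

lemma obs_apply (G : Gr V Ed) (M : Op n) (A : Ed → ℝ) (σ : Cfg n V) :
    obs G M A σ = ∑ e, G.J e * A e * ⟪M (σ (G.s e)), (σ (G.t e) : E n)⟫ := rfl

variable (n) in
/-- Gibbs weight -/
noncomputable def W (G : Gr V Ed) : Fn n V :=
  ⟨fun σ => Real.exp (obs G (1 : Op n) 1 σ), by fun_prop⟩

lemma W_apply (G : Gr V Ed) (σ : Cfg n V) : W n G σ = Real.exp (obs G (1 : Op n) 1 σ) := rfl

lemma W_pos (G : Gr V Ed) (σ : Cfg n V) : 0 < W n G σ := Real.exp_pos _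

variable [DecidableEq V]

/-- `F` does not depend on the spins in `S` -/
def Ind (S : Finset V) (F : Fn n V) : Prop := ∀ σ η, F (S.piecewise η σ) = F σ

lemma continuous_pw_left (S : Finset V) (σ : Cfg n V) :
    Continuous fun η : Cfg n V => S.piecewise η σ := by
  refine continuous_pi fun x => ?_
  by_cases h : x ∈ S <;> simp only [Finset.piecewise, h, if_true, if_false] <;> fun_prop

lemma continuous_pw_right (S : Finset V) (η : Cfg n V) :
    Continuous fun σ : Cfg n V => S.piecewise η σ := by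
  refine continuous_pi fun x => ?_
  by_cases h : x ∈ S <;> simp only [Finset.piecewise, h, if_true, if_false] <;> fun_prop

variable [Fintype V] [NeZero n]

omit [DecidableEq V] in
lemma Fn.integrable (F : Fn n V) : Integrable F (lam n V) :=
  F.continuous.integrable_of_hasCompactSupport (HasCompactSupport.of_compactSpace _)

lemma integrable_pw (F : Fn n V) (S : Finset V) (σ : Cfg n V) :
    Integrable (fun η => F (S.piecewise η σ)) (lam n V) :=
  Fn.integrable (F.comp ⟨_, continuous_pw_left S σ⟩)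

/-- integrate out the spins in `S` against the uniform measure -/
noncomputable def I (S : Finset V) : Fn n V →ₗ[ℝ] Fn n V where
  toFun F := ⟨fun σ => ∫ η, F (S.piecewise η σ) ∂lam n V,
    continuous_of_dominated (bound := fun _ => ‖F‖)
      (fun σ => (integrable_pw F S σ).aestronglyMeasurable)
      (fun _ => Filter.Eventually.of_forall fun _ => F.norm_coe_le_norm _)
      (integrable_const _)
      (Filter.Eventually.of_forall fun η => F.continuous.comp (continuous_pw_right S η))⟩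
  map_add' F H := by
    ext σ
    simp only [ContinuousMap.add_apply, ContinuousMap.coe_mk]
    exact integral_add (integrable_pw F S σ) (integrable_pw H S σ)
  map_smul' c F := by
    ext σ
    simp only [ContinuousMap.smul_apply, ContinuousMap.coe_mk, RingHom.id_apply]
    exact integral_smul c _

lemma I_apply (S : Finset V) (F : Fn n V) (σ : Cfg n V) :
    I S F σ = ∫ η, F (S.piecewise η σ) ∂lam n V := rfl

lemma I_pos (S : Finset V) {F : Fn n V} (hF : ∀ σ, 0 < F σ) (σ : Cfg n V) : 0 < I S F σ := by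
  rw [I_apply, integral_pos_iff_support_of_nonneg (fun η => (hF _).le) (integrable_pw F S σ)]
  have : (Function.support fun η => F (S.piecewise η σ)) = Set.univ :=
    Set.eq_univ_of_forall fun η => (hF _).ne'
  rw [this]; simp

/-- Gibbs expectation over the spins in `S`, the spins outside being frozen -/
noncomputable def Ex (G : Gr V Ed) (S : Finset V) : Fn n V →ₗ[ℝ] Fn n V where
  toFun F := ⟨fun σ => I S (F * W n G) σ / I S (W n G) σ,
    (I S (F * W n G)).continuous.div (I S (W n G)).continuous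
      fun σ => (I_pos S (W_pos G) σ).ne'⟩
  map_add' F H := by
    ext σ
    simp only [add_mul, map_add, ContinuousMap.add_apply, ContinuousMap.coe_mk, add_div]
  map_smul' c F := by
    ext σ
    simp only [smul_mul_assoc, map_smul, ContinuousMap.smul_apply, ContinuousMap.coe_mk,
      RingHom.id_apply, smul_eq_mul, mul_div_assoc]

lemma Ex_apply (G : Gr V Ed) (S : Finset V) (F : Fn n V) (σ : Cfg n V) :
    Ex G S F σ = I S (F * W n G) σ / I S (W n G) σ := rfl

/-- covariance -/
noncomputable def Cov (G : Gr V Ed) (S : Finset V) (F H : Fn n V) : Fn n V :=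
  Ex G S (F * H) - Ex G S F * Ex G S H

/-- stiffness form for one generator -/
noncomputable def K1 (G : Gr V Ed) (T : Sk n) (S : Finset V) (A A' : Ed → ℝ) : Fn n V :=
  -Ex G S (obs G (T.T * T.T) (A * A')) - Cov G S (obs G T.T A) (obs G T.T A')

/-- stiffness form -/
noncomputable def K (G : Gr V Ed) (τ : Tri n) (S : Finset V) (A A' : Ed → ℝ) : Fn n V :=
  ∑ a, K1 G (τ.T a) S A A'

end general

section lattice

/-- nearest-neighbour edges inside `V` -/
abbrev Edg (V : Finset (ℤ × ℤ)) : Type :=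
  {p : V × Fin 2 // (p.1 : ℤ × ℤ) + latticeDir p.2 ∈ V}

/-- the lattice graph -/
def latG (V : Finset (ℤ × ℤ)) (b : ℤ × ℤ → Fin 2 → ℝ) : Gr V (Edg V) where
  s p := p.1.1
  t p := ⟨(p.1.1 : ℤ × ℤ) + latticeDir p.1.2, p.2⟩
  J p := b p.1.1 p.1.2

/-- edges whose base point lies in `z + [0, L)²` -/
def cellE (V : Finset (ℤ × ℤ)) (z : ℤ × ℤ) (L : ℕ) : Finset (Edg V) :=
  Finset.univ.filter fun p => z.1 ≤ (p.1.1 : ℤ × ℤ).1 ∧ (p.1.1 : ℤ × ℤ).1 < z.1 + L ∧
    z.2 ≤ (p.1.1 : ℤ × ℤ).2 ∧ (p.1.1 : ℤ × ℤ).2 < z.2 + L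

/-- vertices in the open square `z + (0, L)²` -/
def cellS (V : Finset (ℤ × ℤ)) (z : ℤ × ℤ) (L : ℕ) : Finset V :=
  Finset.univ.filter fun u => z.1 < (u : ℤ × ℤ).1 ∧ (u : ℤ × ℤ).1 < z.1 + L ∧
    z.2 < (u : ℤ × ℤ).2 ∧ (u : ℤ × ℤ).2 < z.2 + L

/-- indicator of the edges of direction `i` in the cell -/
def dirA (V : Finset (ℤ × ℤ)) (z : ℤ × ℤ) (L : ℕ) (i : Fin 2) : Edg V → ℝ :=
  fun p => if p ∈ cellE V z L ∧ p.1.2 = i then 1 else 0

/-- sup-distance on `ℤ²` -/
def dd (u v : ℤ × ℤ) : ℤ := max |u.1 - v.1| |u.2 - v.2|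

/-- vertices at sup-distance `< R` from `x` -/
def box (V : Finset (ℤ × ℤ)) (x : ℤ × ℤ) (R : ℕ) : Finset V :=
  Finset.univ.filter fun u => dd u x < R

/-- strengths in `[0, β]` -/
def Bb (b : ℤ × ℤ → Fin 2 → ℝ) (β : ℝ) : Prop := ∀ u i, 0 ≤ b u i ∧ b u i ≤ β

/-- the stiffness of every square of side `L` is at most `κ` per unit area, for all boundary
conditions -/
def PP (n : ℕ) [NeZero n] (β : ℝ) (L : ℕ) (κ : ℝ) : Prop :=
  ∀ (τ : Tri n) (V : Finset (ℤ × ℤ)) (b : ℤ × ℤ → Fin 2 → ℝ), Bb b β →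
    ∀ (z : ℤ × ℤ) (i : Fin 2) (σ : Cfg n V),
      K (latG V b) τ (cellS V z L) (dirA V z L i) (dirA V z L i) σ ≤ κ * (L : ℝ) ^ 2

end lattice

end Crest.Agent.R167
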