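import Crest.Agent.R167.Defs

/-!
# Invariance of the reference measure under sitewise linear isometries

Plan. `mu1_mp`: for measurable `A`, `Measure.toSphere_apply'` gives
`toSphere A = dim * volume (Ioo 0 1 • (↑) '' A)`; the cone over `act R ⁻¹' A` is the preimage under
`R` of the cone over `A`, and `R.measurePreserving` (`LinearIsometryEquiv.measurePreserving`,
`MeasurePreserving.measure_preimage_equiv`/`measure_preimage_emb`) preserves volume
(cf. `Crest/Agent/R322/Sph.lean`, `sig_preimage`). `actC_mp`: `measurePreserving_pi`.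
`integral_actC`: `integral_map` + `actC_mp.map_eq`.
-/

set_option autoImplicit false
set_option linter.unusedSectionVars false

namespace Crest.Agent.R167

open MeasureTheory Crest.ProbabilityR.SpinModel
open scoped RealInnerProductSpace

variable {n : ℕ} {V : Type}

lemma continuous_act (R : E n ≃ₗᵢ[ℝ] E n) : Continuous (act R) := by
  exact (R.continuous.comp continuous_subtype_val).subtype_mk _
lemma continuous_actC (R : V → (E n ≃ₗᵢ[ℝ] E n)) : Continuous (actC R : Cfg n V → Cfg n V) := by
  exact continuous_pi fun x => (continuous_act (R x)).comp (continuous_apply x)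
lemma mu1_mp (R : E n ≃ₗᵢ[ℝ] E n) : MeasurePreserving (act R) (mu1 n) (mu1 n) := by
  have hm := (continuous_act R).measurable
  have h : MeasurePreserving (act R) (volume : Measure (E n)).toSphere volume.toSphere := by
    refine ⟨hm, Measure.ext fun A hA => ?_⟩
    rw [Measure.map_apply hm hA, Measure.toSphere_apply' _ hA, Measure.toSphere_apply' _ (hm hA)]
    congr 1
    refine Eq.trans ?_
      (R.measurePreserving.measure_preimage_emb R.toHomeomorph.measurableEmbedding _)
    congr 1
    ext v
    constructor
    · rintro ⟨r, hr, _, ⟨s, hs, rfl⟩, rfl⟩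
      exact ⟨r, hr, _, ⟨act R s, hs, rfl⟩, by simp⟩
    · rintro ⟨r, hr, _, ⟨s, hs, rfl⟩, h⟩
      refine ⟨r, hr, _, ⟨act R.symm s, ?_, rfl⟩, R.injective (by simpa using h)⟩
      rwa [Set.mem_preimage, show act R (act R.symm s) = s from Subtype.ext (by simp)]
  exact h.smul_measure _

variable [Fintype V] [NeZero n]

lemma actC_mp (R : V → (E n ≃ₗᵢ[ℝ] E n)) : MeasurePreserving (actC R) (lam n V) (lam n V) := by
  exact measurePreserving_pi _ _ fun x => mu1_mp (R x)
lemma integral_actC (R : V → (E n ≃ₗᵢ[ℝ] E n)) (F : Fn n V) :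
    ∫ σ, F (actC R σ) ∂lam n V = ∫ σ, F σ ∂lam n V := by
  rw [← integral_map (actC_mp R).aemeasurable F.continuous.aestronglyMeasurable, (actC_mp R).map_eq]

end Crest.Agent.R167
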