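import Crest.Agent.R167.ExB
import Crest.Agent.R167.Inv

/-!
# Edwards–Sokal expansion in the spin coordinate `u_x = ⟪v, σ x⟫`

`exp (J u u') = exp (-J |u u'|) + (exp (J u u') - exp (-J |u u'|))`; the second term is `≥ 0` and
vanishes unless `u u' > 0`. `sum_Ww`: `Finset.prod_add` (`Finset.powerset_univ`), `Real.exp_sum`.
`Rf v ε` reflects the coordinate `u` at the sites with `ε x = true`: `reflection (ℝ ∙ v)ᗮ w =
w - 2 ⟪v, w⟫ v` (`Submodule.reflection_orthogonal_apply`, `Submodule.reflection_singleton_apply`), so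
`⟪σ_s, σ_t⟫ - u_s u_t` is invariant.
`int_zero`: reflect with the `ε` witnessing `¬ Conn` (`integral_actC`), the integral equals its negative.
`int_nonneg`: either there is `ε` constant on `ω` with an odd number of `z ∈ I` with `ε z = true`
(reflect: the integral vanishes; `∏ (±u_z) = (-1)^card ∏ u_z`), or not; then the integrand is
pointwise `≥ 0`: if `Ww σ ≠ 0`, `ε x = decide (u_x < 0)` is constant on `ω` (`Ww_sign`), so an even
number of factors is negative (`∏ u_z = (-1)^card ∏ |u_z|`).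
-/

set_option autoImplicit false

namespace Crest.Agent.R167

open MeasureTheory Crest.ProbabilityR.SpinModel
open scoped RealInnerProductSpace

variable {n : ℕ} {V Ed : Type}

/-- reflection of the coordinate `v` at the sites with `ε x = true` -/
noncomputable def Rf (v : E n) (ε : V → Bool) : V → (E n ≃ₗᵢ[ℝ] E n) :=
  fun x => if ε x then (Submodule.span ℝ {v})ᗮ.reflection else LinearIsometryEquiv.refl ℝ _

lemma ES1A.Rf_apply {v : E n} (hv : ‖v‖ = 1) (ε : V → Bool) (x : V) (w : E n) :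
    Rf v ε x w = w - ((if ε x then 2 else 0) * ⟪v, w⟫) • v := by
  unfold Rf
  by_cases h : ε x
  · simp only [h, if_true]
    rw [Submodule.reflection_orthogonal_apply, Submodule.reflection_singleton_apply, hv]
    simp [two_smul, two_mul, add_smul]
  · simp [h]

lemma ES1A.actC_coe (R : V → (E n ≃ₗᵢ[ℝ] E n)) (σ : Cfg n V) (x : V) :
    ((actC R σ x : Sph n) : E n) = R x (σ x) := rfl

lemma lin_Rf {v : E n} (hv : ‖v‖ = 1) (ε : V → Bool) (x : V) (σ : Cfg n V) :
    lin v x (actC (Rf v ε) σ) = (if ε x then -1 else 1) * lin v x σ := by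
  rw [lin_apply, lin_apply, ES1A.actC_coe, ES1A.Rf_apply hv, inner_sub_right, real_inner_smul_right,
    real_inner_self_eq_norm_sq, hv]
  split_ifs <;> ring

lemma ES1A.inner_Rf {v : E n} (hv : ‖v‖ = 1) (ε : V → Bool) (x y : V) (σ : Cfg n V) :
    ⟪((actC (Rf v ε) σ x : Sph n) : E n), ((actC (Rf v ε) σ y : Sph n) : E n)⟫ -
      lin v x (actC (Rf v ε) σ) * lin v y (actC (Rf v ε) σ) =
    ⟪(σ x : E n), (σ y : E n)⟫ - lin v x σ * lin v y σ := by
  rw [lin_Rf hv, lin_Rf hv, ES1A.actC_coe, ES1A.actC_coe, ES1A.Rf_apply hv, ES1A.Rf_apply hv]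
  simp only [inner_sub_left, inner_sub_right, real_inner_smul_left, real_inner_smul_right,
    real_inner_self_eq_norm_sq, hv, lin_apply, real_inner_comm v (σ x : E n)]
  split_ifs <;> ring

lemma ES1A.prod_sign (ε : V → Bool) (I : Finset V) :
    ∏ z ∈ I, (if ε z then (-1 : ℝ) else 1) = (-1) ^ (I.filter fun z => ε z).card := by
  rw [Finset.prod_ite, Finset.prod_const, Finset.prod_const_one, mul_one]

lemma qf_Rf {v : E n} (hv : ‖v‖ = 1) (ε : V → Bool) (x : V) {τ : ℝ} (hτ : 0 < τ) (σ : Cfg n V) :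
    cmp (qf τ hτ) (lin v x) (actC (Rf v ε) σ) = cmp (qf τ hτ) (lin v x) σ := by
  rw [cmp_apply, cmp_apply, lin_Rf hv]
  split_ifs <;> simp [qf]

variable [Fintype Ed] [DecidableEq Ed] (G : Gr V Ed)

/-- weight of the bond configuration `ω` -/
noncomputable def Ww (v : E n) (ω : Finset Ed) : Fn n V :=
  ⟨fun σ => Real.exp (∑ e, G.J e * (⟪(σ (G.s e) : E n), (σ (G.t e) : E n)⟫ -
        lin v (G.s e) σ * lin v (G.t e) σ)) *
      ((∏ e ∈ ω, (Real.exp (G.J e * (lin v (G.s e) σ * lin v (G.t e) σ)) -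
        Real.exp (-(G.J e * |lin v (G.s e) σ * lin v (G.t e) σ|)))) *
      ∏ e ∈ Finset.univ \ ω, Real.exp (-(G.J e * |lin v (G.s e) σ * lin v (G.t e) σ|))),
    by fun_prop⟩

lemma ES1A.Ww_apply (v : E n) (ω : Finset Ed) (σ : Cfg n V) :
    Ww G v ω σ = Real.exp (∑ e, G.J e * (⟪(σ (G.s e) : E n), (σ (G.t e) : E n)⟫ -
        lin v (G.s e) σ * lin v (G.t e) σ)) *
      ((∏ e ∈ ω, (Real.exp (G.J e * (lin v (G.s e) σ * lin v (G.t e) σ)) -
        Real.exp (-(G.J e * |lin v (G.s e) σ * lin v (G.t e) σ|)))) *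
      ∏ e ∈ Finset.univ \ ω, Real.exp (-(G.J e * |lin v (G.s e) σ * lin v (G.t e) σ|))) := rfl

lemma sum_Ww (v : E n) : ∑ ω : Finset Ed, Ww G v ω = W n G := by
  ext σ
  rw [ContinuousMap.sum_apply]
  simp only [ES1A.Ww_apply]
  rw [← Finset.mul_sum, ← Finset.powerset_univ, ← Finset.prod_add]
  simp only [sub_add_cancel]
  rw [← Real.exp_sum, ← Real.exp_add, ← Finset.sum_add_distrib, W_apply, obs_apply]
  congr 1
  refine Finset.sum_congr rfl fun e _ => ?_
  simp only [Pi.one_apply, ContinuousLinearMap.one_apply]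
  ring

lemma Ww_nonneg (hJ : ∀ e, 0 ≤ G.J e) (v : E n) (ω : Finset Ed) (σ : Cfg n V) :
    0 ≤ Ww G v ω σ := by
  rw [ES1A.Ww_apply]
  refine mul_nonneg (Real.exp_pos _).le (mul_nonneg (Finset.prod_nonneg fun e _ => ?_)
    (Finset.prod_nonneg fun e _ => (Real.exp_pos _).le))
  rw [sub_nonneg, Real.exp_le_exp, ← mul_neg]
  exact mul_le_mul_of_nonneg_left (neg_abs_le _) (hJ e)

lemma Ww_sign (hJ : ∀ e, 0 ≤ G.J e) (v : E n) {ω : Finset Ed} {σ : Cfg n V}
    (h : Ww G v ω σ ≠ 0) : ∀ e ∈ ω, 0 < lin v (G.s e) σ * lin v (G.t e) σ := by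
  have _ := hJ
  intro e he
  by_contra hcon
  push Not at hcon
  apply h
  rw [ES1A.Ww_apply, Finset.prod_eq_zero he, zero_mul, mul_zero]
  rw [abs_of_nonpos hcon, mul_neg, neg_neg, sub_self]

lemma Ww_Rf {v : E n} (hv : ‖v‖ = 1) {ω : Finset Ed} {ε : V → Bool}
    (hε : ∀ e ∈ ω, ε (G.s e) = ε (G.t e)) (σ : Cfg n V) :
    Ww G v ω (actC (Rf v ε) σ) = Ww G v ω σ := by
  have habs : ∀ e, |lin v (G.s e) (actC (Rf v ε) σ) * lin v (G.t e) (actC (Rf v ε) σ)| =
      |lin v (G.s e) σ * lin v (G.t e) σ| := by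
    intro e
    rw [lin_Rf hv, lin_Rf hv]
    split_ifs <;> simp
  rw [ES1A.Ww_apply, ES1A.Ww_apply]
  simp only [ES1A.inner_Rf hv, habs]
  congr 2
  refine Finset.prod_congr rfl fun e he => ?_
  rw [lin_Rf hv, lin_Rf hv, hε e he]
  split_ifs <;> simp

/-- connected sites have coordinates of the same sign -/
lemma Ww_conn (hJ : ∀ e, 0 ≤ G.J e) (v : E n) {ω : Finset Ed} {σ : Cfg n V}
    (h : Ww G v ω σ ≠ 0) {x y : V} (hxy : Conn G ω x y) : 0 < lin v x σ ↔ 0 < lin v y σ := by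
  have := hxy (fun z => decide (0 < lin v z σ)) (fun e he => by
    have h1 := Ww_sign G hJ v h e he
    rw [decide_eq_decide]
    exact ⟨fun h2 => (pos_iff_pos_of_mul_pos h1).1 h2, fun h2 => (pos_iff_pos_of_mul_pos h1).2 h2⟩)
  exact decide_eq_decide.1 this

variable [Fintype V] [NeZero n]

omit [Fintype Ed] [DecidableEq Ed] in
lemma ES1A.int_odd (R : V → (E n ≃ₗᵢ[ℝ] E n)) (F : Fn n V) (h : ∀ σ, F (actC R σ) = -F σ) :
    ∫ σ, F σ ∂lam n V = 0 := by
  have h1 := integral_actC R F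
  simp only [h, integral_neg] at h1
  linarith

lemma int_zero {v : E n} (hv : ‖v‖ = 1) {ω : Finset Ed} {x y : V} (h : ¬Conn G ω x y) :
    ∫ σ, (lin v x * lin v y * Ww G v ω) σ ∂lam n V = 0 := by
  unfold Conn at h
  push Not at h
  obtain ⟨ε, hε, hxy⟩ := h
  refine ES1A.int_odd (Rf v ε) _ fun σ => ?_
  simp only [ContinuousMap.mul_apply]
  rw [Ww_Rf G hv hε, lin_Rf hv, lin_Rf hv]
  cases hx : ε x <;> cases hy : ε y <;> simp_all

lemma int_nonneg (hJ : ∀ e, 0 ≤ G.J e) {v : E n} (hv : ‖v‖ = 1) (ω : Finset Ed) (I : Finset V)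
    {H : Fn n V} (hH : ∀ σ, 0 ≤ H σ) (hR : ∀ ε σ, H (actC (Rf v ε) σ) = H σ) :
    0 ≤ ∫ σ, ((∏ z ∈ I, lin v z) * H * Ww G v ω) σ ∂lam n V := by
  by_cases hex : ∃ ε : V → Bool, (∀ e ∈ ω, ε (G.s e) = ε (G.t e)) ∧
      Odd (I.filter fun z => ε z).card
  · obtain ⟨ε, hε, hodd⟩ := hex
    refine (ES1A.int_odd (Rf v ε) _ fun σ => ?_).ge
    simp only [ContinuousMap.mul_apply, ContinuousMap.prod_apply]
    rw [Ww_Rf G hv hε, hR]
    simp only [lin_Rf hv]
    rw [Finset.prod_mul_distrib, ES1A.prod_sign, hodd.neg_one_pow]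
    ring
  · push Not at hex
    refine integral_nonneg fun σ => ?_
    simp only [ContinuousMap.mul_apply, ContinuousMap.prod_apply, Pi.zero_apply]
    by_cases hw : Ww G v ω σ = 0
    · rw [hw, mul_zero]
    refine mul_nonneg (mul_nonneg ?_ (hH σ)) (Ww_nonneg G hJ v ω σ)
    have heven := hex (fun z => decide (lin v z σ < 0)) (fun e he => by
      have h1 := Ww_sign G hJ v hw e he
      rw [decide_eq_decide]
      exact neg_iff_neg_of_mul_pos h1)
    rw [Nat.not_odd_iff_even] at heven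
    have h2 : ∀ z, lin v z σ = (if decide (lin v z σ < 0) then (-1 : ℝ) else 1) * |lin v z σ| := by
      intro z
      by_cases hz : lin v z σ < 0
      · rw [abs_of_neg hz, if_pos (decide_eq_true hz)]
        ring
      · rw [abs_of_nonneg (not_lt.1 hz), if_neg (by simpa using hz), one_mul]
    rw [Finset.prod_congr rfl fun z _ => h2 z, Finset.prod_mul_distrib,
      ES1A.prod_sign (fun z => decide (lin v z σ < 0)), heven.neg_one_pow, one_mul]
    exact Finset.prod_nonneg fun z _ => abs_nonneg _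

end Crest.Agent.R167
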