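import Crest.Agent.R167.ExB

/-!
# Product bound by successive conditioning

Induction on `Z` generalising `h` and its bound `c₀`:
`Ex univ (h * g z * ∏ rest) = Ex univ (Ex (D z) ((h * ∏ rest) * g z)) = Ex univ ((h * Ex (D z) (g z)) * ∏ rest)`
(`Ex_Ex`, `Ex_mul_of_ind`, `Ind.prod`), and `h * Ex (D z) (g z)` is `Ind (D z')` (`Ind.ex`).
-/

set_option autoImplicit false

namespace Crest.Agent.R167

open MeasureTheory Crest.ProbabilityR.SpinModel
open scoped RealInnerProductSpace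

variable {n : ℕ} {V Ed : Type} [Fintype Ed] [DecidableEq V] [Fintype V] [NeZero n]
  (G : Gr V Ed)

theorem prod_bound (Z : Finset V) (D : V → Finset V) (g : V → Fn n V) (c : V → ℝ) (h : Fn n V)
    (c₀ : ℝ) (hh : ∀ σ, |h σ| ≤ c₀) (hhD : ∀ z ∈ Z, Ind (D z) h)
    (hg : ∀ z ∈ Z, ∀ z' ∈ Z, z ≠ z' → Ind (D z') (g z))
    (hsep : ∀ z ∈ Z, ∀ z' ∈ Z, z ≠ z' → ∀ e, Touch G (D z) e → ¬Touch G (D z') e)
    (hc : ∀ z ∈ Z, ∀ σ, |Ex G (D z) (g z) σ| ≤ c z) (σ : Cfg n V) :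
    |Ex G Finset.univ (h * ∏ z ∈ Z, g z) σ| ≤ c₀ * ∏ z ∈ Z, c z := by
  induction Z using Finset.induction_on generalizing h c₀ with
  | empty => simpa using abs_Ex_le G hh σ
  | insert z Z hz ih =>
    have hzm : z ∈ insert z Z := Finset.mem_insert_self z Z
    have hne : ∀ z' ∈ Z, z' ≠ z := fun z' hz' h => hz (h ▸ hz')
    have hm : ∀ z' ∈ Z, z' ∈ insert z Z := fun z' hz' => Finset.mem_insert_of_mem hz'
    have h1 : Ind (D z) (h * ∏ z' ∈ Z, g z') :=
      (hhD z hzm).mul (Ind.prod Z fun z' hz' => hg z' (hm z' hz') z hzm (hne z' hz'))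
    have h2 : Ex G Finset.univ (h * ∏ z' ∈ insert z Z, g z') =
        Ex G Finset.univ ((h * Ex G (D z) (g z)) * ∏ z' ∈ Z, g z') := by
      rw [Finset.prod_insert hz, ← Ex_Ex G (Finset.subset_univ (D z)),
        show h * (g z * ∏ z' ∈ Z, g z') = (h * ∏ z' ∈ Z, g z') * g z by ring,
        Ex_mul_of_ind G h1]
      congr 1
      ring
    have hc0 : 0 ≤ c₀ := (abs_nonneg _).trans (hh σ)
    rw [h2, Finset.prod_insert hz, ← mul_assoc]
    refine ih (h * Ex G (D z) (g z)) (c₀ * c z) (fun τ => ?_) (fun z' hz' => ?_)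
      (fun a ha b hb => hg a (hm a ha) b (hm b hb))
      (fun a ha b hb => hsep a (hm a ha) b (hm b hb)) (fun a ha => hc a (hm a ha))
    · rw [ContinuousMap.mul_apply, abs_mul]
      exact mul_le_mul (hh τ) (hc z hzm τ) (abs_nonneg _) hc0
    · exact (hhD z' (hm z' hz')).mul (Ind.ex G (hg z hzm z' (hm z' hz') (hne z' hz').symm)
        (hsep z hzm z' (hm z' hz') (hne z' hz').symm))

end Crest.Agent.R167
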