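import Crest.Agent.R167.ES1
import Crest.Agent.R167.Prod

/-!
# Griffiths positivity and the chain bound

`es_nonneg`: `Ex_univ`, `sum_Ww`, and for each `ω` either `int_zero` or pointwise positivity (`Ww_conn`).
`es_bound`: `F Z I = (if Even I.card then 1 else u_y) * ∏ z ∈ Z, (if z ∈ I then u_z else q(u_z))`.
For all `ω`, `∫ F Z I * Ww ω ≥ 0` (`int_nonneg` with `I` or `insert y I`, `H = ∏ z ∈ Z \ I, q(u_z)`).
If `Conn ω x y`, take `Z` from `hZ`; where `Ww ω σ ≠ 0` there is a sign `s = ±1` with `|u_z| = s u_z`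
for `z ∈ Z ∪ {y}` (`Ww_conn`), and `u_x u_y ≤ |u_y| ≤ |u_y| ∏ z ∈ Z, (|u_z| / τ + q(u_z)) =
∑ I, τ⁻¹^|I| |u_y| ∏_I |u_z| ∏_{Z \ I} q ≤ ∑ I, τ⁻¹^|I| F Z I` (`one_le_qf`, `Finset.prod_add`).
Otherwise `int_zero`. Sum over `ω`.
`chain_bound`: `prod_bound` for every term, then `Finset.prod_add` backwards (binomial formula).
-/

set_option autoImplicit false

namespace Crest.Agent.R167

open MeasureTheory Crest.ProbabilityR.SpinModel
open scoped RealInnerProductSpace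

lemma ES2A.qf_apply {τ : ℝ} (hτ : 0 < τ) (u : ℝ) : qf τ hτ u = τ ^ 2 / (τ ^ 2 + u ^ 2) := rfl

lemma ES2A.qf_nonneg {τ : ℝ} (hτ : 0 < τ) (u : ℝ) : 0 ≤ qf τ hτ u := by
  rw [ES2A.qf_apply]
  positivity

lemma one_le_qf {τ : ℝ} (hτ : 0 < τ) (u : ℝ) : 1 ≤ |u| / τ + qf τ hτ u := by
  rw [ES2A.qf_apply, ← sq_abs u]
  have h0 := abs_nonneg u
  generalize |u| = a at h0
  have h1 : 0 < τ ^ 2 + a ^ 2 := by positivity
  rw [div_add_div _ _ hτ.ne' h1.ne', one_le_div (by positivity)]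
  nlinarith [mul_nonneg h0 (sq_nonneg (a - τ)), mul_nonneg (mul_nonneg h0 h0) hτ.le]

lemma ES2A.prod_ite_mem {V R : Type} [DecidableEq V] [CommMonoid R] {Z I : Finset V} (h : I ⊆ Z)
    (f g : V → R) :
    (∏ z ∈ Z, if z ∈ I then f z else g z) = (∏ z ∈ I, f z) * ∏ z ∈ Z \ I, g z := by
  rw [← Finset.prod_sdiff h, mul_comm]
  congr 1
  · exact Finset.prod_congr rfl fun z hz => if_pos hz
  · exact Finset.prod_congr rfl fun z hz => if_neg (Finset.mem_sdiff.1 hz).2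

lemma ES2A.point {V : Type} [DecidableEq V] (u : V → ℝ) (x y : V) (Z : Finset V)
    (hu : ∀ z, |u z| ≤ 1) (hs : ∀ z ∈ Z, 0 < u z ↔ 0 < u y) {τ : ℝ} (hτ : 0 < τ) :
    u x * u y ≤ ∑ I ∈ Z.powerset, τ⁻¹ ^ I.card * ((if Even I.card then 1 else u y) *
      ∏ z ∈ Z, if z ∈ I then u z else qf τ hτ (u z)) := by
  obtain ⟨s, hs1, hsy, hsz⟩ : ∃ s : ℝ, s * s = 1 ∧ u y = s * |u y| ∧
      ∀ z ∈ Z, u z = s * |u z| := by
    by_cases hy : 0 < u y
    · exact ⟨1, by ring, by rw [abs_of_pos hy, one_mul],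
        fun z hz => by rw [abs_of_pos ((hs z hz).2 hy), one_mul]⟩
    · refine ⟨-1, by ring, by rw [abs_of_nonpos (not_lt.1 hy)]; ring, fun z hz => ?_⟩
      rw [abs_of_nonpos (not_lt.1 fun h => hy ((hs z hz).1 h))]
      ring
  have h1 : u x * u y ≤ |u y| := by
    refine (le_abs_self _).trans ?_
    rw [abs_mul]
    exact mul_le_of_le_one_left (abs_nonneg _) (hu x)
  have h2 : 1 ≤ ∏ z ∈ Z, (|u z| / τ + qf τ hτ (u z)) := by
    calc (1 : ℝ) = ∏ _z ∈ Z, (1 : ℝ) := by simp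
      _ ≤ _ := Finset.prod_le_prod (fun _ _ => zero_le_one) fun z _ => one_le_qf hτ (u z)
  refine h1.trans ((le_mul_of_one_le_right (abs_nonneg _) h2).trans ?_)
  rw [Finset.prod_add, Finset.mul_sum]
  refine Finset.sum_le_sum fun I hI => ?_
  have hIZ : I ⊆ Z := Finset.mem_powerset.1 hI
  rw [ES2A.prod_ite_mem hIZ]
  have h3 : ∏ z ∈ I, u z = s ^ I.card * ∏ z ∈ I, |u z| := by
    rw [Finset.prod_congr rfl fun z hz => hsz z (hIZ hz), Finset.prod_mul_distrib,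
      Finset.prod_const]
  have h4 : ∏ z ∈ I, |u z| / τ = τ⁻¹ ^ I.card * ∏ z ∈ I, |u z| := by
    simp only [div_eq_inv_mul]
    rw [Finset.prod_mul_distrib, Finset.prod_const]
  rw [h3, h4]
  have hP : 0 ≤ ∏ z ∈ I, |u z| := Finset.prod_nonneg fun z _ => abs_nonneg _
  have hQ : 0 ≤ ∏ z ∈ Z \ I, qf τ hτ (u z) :=
    Finset.prod_nonneg fun z _ => ES2A.qf_nonneg hτ _
  have hT : 0 ≤ τ⁻¹ ^ I.card := by positivity
  generalize ∏ z ∈ I, |u z| = P at *
  generalize ∏ z ∈ Z \ I, qf τ hτ (u z) = Q at *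
  generalize τ⁻¹ ^ I.card = T at *
  have hTPQ : 0 ≤ T * P * Q := by positivity
  split_ifs with he
  · obtain ⟨m, hm⟩ := he
    have : s ^ I.card = 1 := by rw [hm, pow_add, ← mul_pow, hs1, one_pow]
    rw [this]
    nlinarith [hu y]
  · obtain ⟨m, hm⟩ := Nat.not_even_iff_odd.1 he
    have : s ^ I.card = s := by rw [hm, pow_succ, pow_mul, sq, hs1, one_pow, one_mul]
    rw [this]
    have h5 : u y * s = |u y| := by
      conv_lhs => rw [hsy]
      linear_combination |u y| * hs1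
    apply le_of_eq
    rw [← h5]
    ring

variable {n : ℕ} {V Ed : Type} [Fintype Ed] [DecidableEq V] [Fintype V] [NeZero n]
  (G : Gr V Ed)

omit [DecidableEq V] in
lemma ES2A.int_W_pos : 0 < ∫ η, W n G η ∂lam n V := by
  rw [integral_pos_iff_support_of_nonneg (fun η => (W_pos G η).le) (Fn.integrable _)]
  have : (Function.support fun η => W n G η) = Set.univ :=
    Set.eq_univ_of_forall fun η => (W_pos G η).ne'
  rw [this]; simp

lemma ES2A.Ex_eq [DecidableEq Ed] (v : E n) (F : Fn n V) (σ : Cfg n V) :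
    Ex G Finset.univ F σ =
      (∑ ω : Finset Ed, ∫ η, (F * Ww G v ω) η ∂lam n V) / ∫ η, W n G η ∂lam n V := by
  rw [Ex_univ, ← integral_finset_sum _ fun ω _ => Fn.integrable _]
  congr 2
  funext η
  rw [← sum_Ww G v, ContinuousMap.sum_apply, Finset.mul_sum]
  rfl

theorem es_nonneg (hJ : ∀ e, 0 ≤ G.J e) {v : E n} (hv : ‖v‖ = 1) (x y : V) (σ : Cfg n V) :
    0 ≤ Ex G Finset.univ (lin v x * lin v y) σ := by
  classical
  rw [ES2A.Ex_eq G v]
  refine div_nonneg (Finset.sum_nonneg fun ω _ => ?_) (ES2A.int_W_pos G).le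
  by_cases hc : Conn G ω x y
  · refine integral_nonneg fun η => ?_
    simp only [ContinuousMap.mul_apply, Pi.zero_apply]
    by_cases hw : Ww G v ω η = 0
    · rw [hw, mul_zero]
    refine mul_nonneg ?_ (Ww_nonneg G hJ v ω η)
    have h := Ww_conn G hJ v hw hc
    by_cases hx : 0 < lin v x η
    · exact (mul_pos hx (h.1 hx)).le
    · exact mul_nonneg_of_nonpos_of_nonpos (not_lt.1 hx) (not_lt.1 fun hy => hx (h.2 hy))
  · exact (int_zero G hv hc).ge

theorem es_bound (hJ : ∀ e, 0 ≤ G.J e) {v : E n} (hv : ‖v‖ = 1) (x y : V)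
    (𝒵 : Finset (Finset V)) (hZ : ∀ ω, Conn G ω x y → ∃ Z ∈ 𝒵, ∀ z ∈ Z, Conn G ω z y)
    (hy : ∀ Z ∈ 𝒵, y ∉ Z) {τ : ℝ} (hτ : 0 < τ) (σ : Cfg n V) :
    Ex G Finset.univ (lin v x * lin v y) σ ≤
      ∑ Z ∈ 𝒵, ∑ I ∈ Z.powerset, τ⁻¹ ^ I.card *
        Ex G Finset.univ ((if Even I.card then 1 else lin v y) *
          ∏ z ∈ Z, if z ∈ I then lin v z else cmp (qf τ hτ) (lin v z)) σ := by
  classical
  let F : Finset V → Finset V → Fn n V := fun Z I => (if Even I.card then 1 else lin v y) *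
    ∏ z ∈ Z, if z ∈ I then lin v z else cmp (qf τ hτ) (lin v z)
  have hF : ∀ Z I η, F Z I η = (if Even I.card then 1 else lin v y η) *
      ∏ z ∈ Z, if z ∈ I then lin v z η else qf τ hτ (lin v z η) := by
    intro Z I η
    simp only [F, ContinuousMap.mul_apply, ContinuousMap.prod_apply]
    congr 1
    · split_ifs <;> rfl
    · refine Finset.prod_congr rfl fun z _ => ?_
      split_ifs <;> rfl
  have hpos : ∀ ω, ∀ Z ∈ 𝒵, ∀ I ∈ Z.powerset, 0 ≤ ∫ η, (F Z I * Ww G v ω) η ∂lam n V := by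
    intro ω Z hZ I hI
    have hIZ : I ⊆ Z := Finset.mem_powerset.1 hI
    have hH : ∀ η, 0 ≤ (∏ z ∈ Z \ I, cmp (qf τ hτ) (lin v z)) η := by
      intro η
      rw [ContinuousMap.prod_apply]
      exact Finset.prod_nonneg fun z _ => ES2A.qf_nonneg hτ _
    have hR : ∀ ε η, (∏ z ∈ Z \ I, cmp (qf τ hτ) (lin v z)) (actC (Rf v ε) η) =
        (∏ z ∈ Z \ I, cmp (qf τ hτ) (lin v z)) η := by
      intro ε η
      simp only [ContinuousMap.prod_apply, qf_Rf hv]
    by_cases he : Even I.card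
    · have := int_nonneg G hJ hv ω I hH hR
      simpa only [F, if_pos he, ES2A.prod_ite_mem hIZ, one_mul] using this
    · have := int_nonneg G hJ hv ω (insert y I) hH hR
      rw [Finset.prod_insert fun h => hy Z hZ (hIZ h), mul_assoc (lin v y)] at this
      simpa only [F, if_neg he, ES2A.prod_ite_mem hIZ] using this
  have key : ∀ ω, ∫ η, (lin v x * lin v y * Ww G v ω) η ∂lam n V ≤
      ∑ Z ∈ 𝒵, ∑ I ∈ Z.powerset, τ⁻¹ ^ I.card * ∫ η, (F Z I * Ww G v ω) η ∂lam n V := by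
    intro ω
    have hnn : ∀ Z ∈ 𝒵, 0 ≤ ∑ I ∈ Z.powerset,
        τ⁻¹ ^ I.card * ∫ η, (F Z I * Ww G v ω) η ∂lam n V := fun Z hZ =>
      Finset.sum_nonneg fun I hI => mul_nonneg (by positivity) (hpos ω Z hZ I hI)
    by_cases hc : Conn G ω x y
    · obtain ⟨Z, hZm, hZc⟩ := hZ ω hc
      refine le_trans ?_ (Finset.single_le_sum hnn hZm)
      simp only [← integral_const_mul]
      rw [← integral_finset_sum _ fun I _ => (Fn.integrable _).const_mul _]
      refine integral_mono (Fn.integrable _)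
        (integrable_finset_sum _ fun I _ => (Fn.integrable _).const_mul _) fun η => ?_
      simp only [ContinuousMap.mul_apply, ← mul_assoc]
      rw [← Finset.sum_mul]
      by_cases hw : Ww G v ω η = 0
      · rw [hw, mul_zero, mul_zero]
      refine mul_le_mul_of_nonneg_right ?_ (Ww_nonneg G hJ v ω η)
      simp only [hF]
      exact ES2A.point (fun z => lin v z η) x y Z (fun z => hv ▸ abs_lin_le v z η)
        (fun z hz => Ww_conn G hJ v hw (hZc z hz)) hτ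
    · rw [int_zero G hv hc]
      exact Finset.sum_nonneg hnn
  change _ ≤ ∑ Z ∈ 𝒵, ∑ I ∈ Z.powerset, τ⁻¹ ^ I.card * Ex G Finset.univ (F Z I) σ
  simp only [ES2A.Ex_eq G v, ← mul_div_assoc, ← Finset.sum_div]
  refine div_le_div_of_nonneg_right ?_ (ES2A.int_W_pos G).le
  refine (Finset.sum_le_sum fun ω _ => key ω).trans (le_of_eq ?_)
  rw [Finset.sum_comm]
  refine Finset.sum_congr rfl fun Z _ => ?_
  rw [Finset.sum_comm]
  simp only [Finset.mul_sum]

theorem chain_bound (hJ : ∀ e, 0 ≤ G.J e) {v : E n} (hv : ‖v‖ = 1) (x y : V)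
    (𝒵 : Finset (Finset V)) (hZ : ∀ ω, Conn G ω x y → ∃ Z ∈ 𝒵, ∀ z ∈ Z, Conn G ω z y)
    (D : V → Finset V) (hD : ∀ z, z ∈ D z) (hy : ∀ Z ∈ 𝒵, ∀ z ∈ Z, y ∉ D z)
    (hzz : ∀ Z ∈ 𝒵, ∀ z ∈ Z, ∀ z' ∈ Z, z ≠ z' → z ∉ D z')
    (hsep : ∀ Z ∈ 𝒵, ∀ z ∈ Z, ∀ z' ∈ Z, z ≠ z' → ∀ e, Touch G (D z) e → ¬Touch G (D z') e)
    {τ δ γ : ℝ} (hτ : 0 < τ) (hδ : ∀ z σ, |Ex G (D z) (lin v z) σ| ≤ δ)
    (hγ : ∀ z σ, Ex G (D z) (cmp (qf τ hτ) (lin v z)) σ ≤ γ) (σ : Cfg n V) :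
    Ex G Finset.univ (lin v x * lin v y) σ ≤ ∑ Z ∈ 𝒵, (δ / τ + γ) ^ Z.card := by
  refine (es_bound G hJ hv x y 𝒵 hZ (fun Z hZ h => hy Z hZ y h (hD y)) hτ σ).trans
    (Finset.sum_le_sum fun Z hZm => ?_)
  rw [← Finset.prod_const, Finset.prod_add]
  refine Finset.sum_le_sum fun I hI => ?_
  have hIZ : I ⊆ Z := Finset.mem_powerset.1 hI
  have h := prod_bound G Z D (fun z => if z ∈ I then lin v z else cmp (qf τ hτ) (lin v z))
    (fun z => if z ∈ I then δ else γ) (if Even I.card then 1 else lin v y) 1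
    (fun η => by
      split_ifs
      · simp
      · exact hv ▸ abs_lin_le v y η)
    (fun z hz => by
      split_ifs
      · exact Ind.one
      · exact ind_lin v (hy Z hZm z hz))
    (fun z hz z' hz' hne => by
      split_ifs
      · exact ind_lin v (hzz Z hZm z hz z' hz' hne)
      · exact Ind.comp _ (ind_lin v (hzz Z hZm z hz z' hz' hne)))
    (hsep Z hZm)
    (fun z _ η => by
      split_ifs
      · exact hδ z η
      · rw [abs_of_nonneg (Ex_nonneg G (fun η' => ES2A.qf_nonneg hτ _) η)]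
        exact hγ z η) σ
  rw [one_mul, ES2A.prod_ite_mem hIZ (fun _ => δ) (fun _ => γ)] at h
  refine (mul_le_mul_of_nonneg_left ((le_abs_self _).trans h) (by positivity)).trans (le_of_eq ?_)
  simp only [Finset.prod_const, div_eq_inv_mul, mul_pow, mul_assoc]

end Crest.Agent.R167
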