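import Crest.Agent.R167.Defs

/-!
# Plane rotations and existence of so(3) triples

Plan. `‖plane p q v‖² = ⟪p,v⟫² + ⟪q,v⟫² ≤ ‖v‖²` (Bessel; or expand
`0 ≤ ‖v - ⟪p,v⟫ p - ⟪q,v⟫ q‖²`). `exists_tri`: pick `j, k` with `i, j, k` distinct, `e = ![single i 1,
single j 1, single k 1]`, `T a = plane (e (a+2)) (e (a+1))`; better first prove it for an arbitrary
orthonormal `e : Fin 3 → E n` (`fin_cases a`, `ext v`, `simp [plane_apply, inner_sub_right,
inner_smul_right, ...]`).
-/

set_option autoImplicit false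
set_option linter.unusedSectionVars false

namespace Crest.Agent.R167

open MeasureTheory Crest.ProbabilityR.SpinModel
open scoped RealInnerProductSpace

variable {n : ℕ}

/-- `v ↦ ⟪p, v⟫ q - ⟪q, v⟫ p` -/
noncomputable def plane (p q : E n) : Sk n where
  T := (innerSL ℝ p).smulRight q - (innerSL ℝ q).smulRight p
  skew u v := by
    simp only [sub_apply, ContinuousLinearMap.smulRight_apply, innerSL_apply_apply,
      inner_sub_left, inner_sub_right, real_inner_smul_left, real_inner_smul_right,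
      real_inner_comm u p, real_inner_comm u q]
    ring

lemma plane_apply (p q v : E n) : (plane p q).T v = ⟪p, v⟫ • q - ⟪q, v⟫ • p := rfl

lemma norm_plane_le {p q : E n} (hp : ‖p‖ = 1) (hq : ‖q‖ = 1) (hpq : ⟪p, q⟫ = 0) :
    ‖(plane p q).T‖ ≤ 1 := by
  refine ContinuousLinearMap.opNorm_le_bound _ zero_le_one fun v => ?_
  rw [one_mul, plane_apply]
  refine le_of_pow_le_pow_left₀ two_ne_zero (norm_nonneg _) ?_
  have h := sq_nonneg ‖v - (⟪p, v⟫ • p + ⟪q, v⟫ • q)‖
  rw [norm_sub_sq_real, norm_add_sq_real] at h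
  rw [norm_sub_sq_real]
  simp only [norm_smul, inner_add_right, real_inner_smul_left, real_inner_smul_right, hp, hq, hpq,
    real_inner_comm p, real_inner_comm q v, Real.norm_eq_abs, mul_one, sq_abs] at h ⊢
  nlinarith

lemma TriA.exists_tri {e : Fin 3 → E n} (he : Orthonormal ℝ e) : ∃ τ : Tri n, τ.e = e := by
  have h := orthonormal_iff_ite.1 he
  refine ⟨⟨fun a => plane (e (a + 2)) (e (a + 1)), e, fun a => norm_plane_le (he.1 _) (he.1 _) ?_,
    fun a => ?_, he.1, fun a => ?_⟩, rfl⟩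
  · rw [h, if_neg (by revert a; decide)]
  · refine ContinuousLinearMap.ext fun v => ?_
    simp only [sub_apply, mul_apply_eq_comp, plane_apply, inner_sub_right, real_inner_smul_right, h]
    fin_cases a <;> simp
  · simp only [plane_apply, h]
    fin_cases a <;> simp

theorem exists_tri (hn : 3 ≤ n) (i : Fin n) :
    ∃ τ : Tri n, τ.e 0 = EuclideanSpace.single i 1 := by
  obtain ⟨f, hf⟩ : ∃ f : Fin 3 ↪ Fin n, f 0 = i :=
    ⟨(Fin.castLEEmb hn).trans (Equiv.swap (Fin.castLE hn 0) i).toEmbedding, by simp⟩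
  obtain ⟨τ, h⟩ := TriA.exists_tri ((EuclideanSpace.orthonormal_single (𝕜 := ℝ)).comp f f.injective)
  exact ⟨τ, by rw [h, ← hf]; rfl⟩

end Crest.Agent.R167
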