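import Crest.Agent.R167.Flow
import Crest.Agent.R167.Tri

/-!
# A spin coordinate is rarely close to zero

Plan. `u = lin e_i x`, `g(s) = τ * arctan (s / τ)` (`|g| ≤ 2 τ` as `π / 2 ≤ 2`), `g' = qf τ`.
For `j ≠ i`, `T = plane e_i e_j`, `θ = Pi.single x 1`: `D u = -u_j`, `D u_j = u` (`hasD_lin`,
`plane_apply`), so `D (g(u) u_j) = -q(u) u_j² + g(u) u`; `ibp` gives
`Ex (q(u) u_j²) = Ex (g(u) u) + Ex (g(u) u_j w) ≤ 2 τ + 2 τ β d` (`abs_obs_le`, `norm_plane_le`).
Finally `q(u) = q(u) u² + ∑_{j ≠ i} q(u) u_j²` (`∑ j, u_j² = 1`) and `q(u) u² ≤ τ² ≤ τ`.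
-/

set_option autoImplicit false
set_option linter.unusedSectionVars false

namespace Crest.Agent.R167

open MeasureTheory Crest.ProbabilityR.SpinModel
open scoped RealInnerProductSpace

variable {n : ℕ} {V Ed : Type} [Fintype Ed] [DecidableEq V] [Fintype V] [NeZero n]
  (G : Gr V Ed)

theorem equator {β d τ : ℝ} (hJ : Bd G β) (hβ : 0 ≤ β) {S : Finset V} {x : V} (hx : x ∈ S)
    (hd : ∑ e, |grad G (Pi.single x 1) e| ≤ d) (i : Fin n) (hτ : 0 < τ) (hτ1 : τ ≤ 1)
    (σ : Cfg n V) :
    Ex G S (cmp (qf τ hτ) (lin (EuclideanSpace.single i 1) x)) σ ≤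
      (1 + 2 * n * (1 + β * d)) * τ := by
  have hd0 : 0 ≤ d := (Finset.sum_nonneg fun _ _ => abs_nonneg _).trans hd
  let g : C(ℝ, ℝ) := ⟨fun s => τ * Real.arctan (s / τ), by fun_prop⟩
  have hg : ∀ s, HasDerivAt g (qf τ hτ s) s := fun s => by
    refine (((hasDerivAt_id s).div_const τ).arctan.const_mul τ).congr_deriv ?_
    simp only [qf, ContinuousMap.coe_mk, id]
    field_simp
  have hg2 : ∀ s, |g s| ≤ 2 * τ := fun s => by
    have h1 := Real.arctan_lt_pi_div_two (s / τ)
    have h2 := Real.neg_pi_div_two_lt_arctan (s / τ)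
    have h3 := Real.pi_le_four
    change |τ * Real.arctan (s / τ)| ≤ _
    rw [abs_mul, abs_of_pos hτ, mul_comm]
    exact mul_le_mul_of_nonneg_right (abs_le.2 ⟨by linarith, by linarith⟩) hτ.le
  set e : Fin n → E n := fun j => EuclideanSpace.single j 1 with he
  have ho : ∀ j k, ⟪e j, e k⟫ = if j = k then 1 else 0 :=
    orthonormal_iff_ite.1 (EuclideanSpace.orthonormal_single (𝕜 := ℝ))
  have hn : ∀ j, ‖e j‖ = 1 := fun j => by simp [he]
  have hl : ∀ j (η : Cfg n V), |lin (e j) x η| ≤ 1 := fun j η => (abs_lin_le _ _ _).trans (hn j).le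
  have key : ∀ j, Ex G S (cmp (qf τ hτ) (lin (e i) x) * (lin (e j) x * lin (e j) x)) σ ≤
      (if j = i then τ else 0) + 2 * τ * (1 + β * d) := fun j => by
    split_ifs with h
    · subst h
      refine (Ex_le G (c := τ) (fun η => ?_) σ).trans (le_add_of_nonneg_right (by positivity))
      simp only [ContinuousMap.mul_apply, cmp_apply, qf, ContinuousMap.coe_mk]
      generalize lin (e j) x η = u
      rw [div_mul_eq_mul_div, div_le_iff₀ (by positivity)]
      nlinarith [mul_nonneg (mul_nonneg hτ.le (sub_nonneg.2 hτ1)) (sq_nonneg u), pow_pos hτ 3]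
    · have h1 := ibp G (S := S) (fun y hy => Pi.single_eq_of_ne (by rintro rfl; exact hy hx) _)
        (((hasD_lin (plane (e i) (e j)) (Pi.single x 1) (e i) x).comp hg).mul
          (hasD_lin (plane (e i) (e j)) (Pi.single x 1) (e j) x))
      have h2 : cmp (qf τ hτ) (lin (e i) x) * (lin (e j) x * lin (e j) x) =
          cmp g (lin (e i) x) * lin (e i) x - (cmp (qf τ hτ) (lin (e i) x) *
          -((Pi.single x 1 : V → ℝ) x • lin ((plane (e i) (e j)).T (e i)) x) * lin (e j) x +
          cmp g (lin (e i) x) *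
            -((Pi.single x 1 : V → ℝ) x • lin ((plane (e i) (e j)).T (e j)) x)) := by
        ext η
        simp [plane_apply, ho, hn, h, Ne.symm h]
        ring
      rw [h2, map_sub, h1, sub_neg_eq_add, ← map_add, zero_add]
      refine Ex_le G (fun η => (le_abs_self _).trans ((abs_add_le _ _).trans ?_)) σ
      have h3 := (abs_obs_le G hJ hβ (norm_plane_le (hn i) (hn j) (by rw [ho, if_neg (Ne.symm h)]))
        (grad G (Pi.single x 1)) η).trans (mul_le_mul_of_nonneg_left hd (by positivity))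
      simp only [ContinuousMap.mul_apply, cmp_apply, abs_mul]
      rw [mul_add]
      exact add_le_add (mul_le_mul (hg2 _) (hl i η) (abs_nonneg _) (by positivity))
        (mul_le_mul ((mul_le_of_le_one_right (abs_nonneg _) (hl j η)).trans (hg2 _))
          (by simpa using h3) (abs_nonneg _) (by positivity))
  have h4 : cmp (qf τ hτ) (lin (e i) x) =
      ∑ j, cmp (qf τ hτ) (lin (e i) x) * (lin (e j) x * lin (e j) x) := by
    ext η
    have := EuclideanSpace.real_norm_sq_eq (η x : E n)
    rw [norm_eq_of_mem_sphere, one_pow] at this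
    simp only [ContinuousMap.sum_apply, ContinuousMap.mul_apply, ← Finset.mul_sum]
    simp [he, EuclideanSpace.inner_single_left, ← sq, ← this]
  rw [h4, map_sum, ContinuousMap.sum_apply]
  refine (Finset.sum_le_sum fun j _ => key j).trans (le_of_eq ?_)
  simp [Finset.sum_add_distrib]
  ring

end Crest.Agent.R167
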