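import Crest.Agent.R167.Basic

/-!
# Conditional Gibbs expectations `Ex` and covariances `Cov`

Plan. Key identity `Ex_mul_I : Ex G S F * I S W = I S (F * W)`.
DLR (`Ex_Ex`): `I S' (Ex S F * W) = I S' (I S (Ex S F * W)) = I S' (Ex S F * I S W) = I S' (I S (F W))
= I S' (F W)`.
Locality (`Ind.ex`): split `1 = A₁ + A₂` with `A₁` the indicator of the edges touching `D`;
`W = W₁ * W₂`, `W_i = exp (obs 1 A_i)` (use `cmp ⟨Real.exp, _⟩`), `W₂` is `Ind D`, `W₁` is `Ind S'`,
`Ex D F σ = I D (F W₁) σ / I D W₁ σ`.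
Cauchy–Schwarz: `discrim_le_zero` applied to `0 ≤ Ex ((t • F + H) * (t • F + H)) σ`.
`Cov F H = Ex ((F - Ex F) * H)` since `Ex F` is `Ind S`; `Cov F F = Ex ((F - Ex F) * (F - Ex F))`.
-/

set_option autoImplicit false

namespace Crest.Agent.R167

open MeasureTheory Crest.ProbabilityR.SpinModel
open scoped RealInnerProductSpace

variable {n : ℕ} {V Ed : Type} [Fintype Ed] [DecidableEq V] [Fintype V] [NeZero n]
  (G : Gr V Ed) {S S' : Finset V} {F H : Fn n V}

lemma Ex_mul_I (S : Finset V) (F : Fn n V) : Ex G S F * I S (W n G) = I S (F * W n G) := by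
  ext σ
  rw [ContinuousMap.mul_apply, Ex_apply, div_mul_cancel₀ _ (I_pos S (W_pos G) σ).ne']
lemma Ex_one (S : Finset V) : Ex G S (1 : Fn n V) = 1 := by
  ext σ
  rw [Ex_apply, one_mul, div_self (I_pos S (W_pos G) σ).ne', ContinuousMap.one_apply]
lemma Ex_nonneg (h : ∀ σ, 0 ≤ F σ) (σ : Cfg n V) : 0 ≤ Ex G S F σ := by
  rw [Ex_apply]
  exact div_nonneg (I_nonneg (fun σ => mul_nonneg (h σ) (W_pos G σ).le) σ)
    (I_pos S (W_pos G) σ).le
lemma Ex_mono (h : ∀ σ, F σ ≤ H σ) (σ : Cfg n V) : Ex G S F σ ≤ Ex G S H σ := by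
  have := Ex_nonneg G (S := S) (F := H - F) (fun σ => sub_nonneg.2 (h σ)) σ
  rwa [map_sub, ContinuousMap.sub_apply, sub_nonneg] at this
lemma Ex_le {c : ℝ} (h : ∀ σ, F σ ≤ c) (σ : Cfg n V) : Ex G S F σ ≤ c := by
  have := Ex_mono G (S := S) (F := F) (H := c • 1) (fun σ => by simpa using h σ) σ
  simpa [Ex_one] using this
lemma abs_Ex_le {c : ℝ} (h : ∀ σ, |F σ| ≤ c) (σ : Cfg n V) : |Ex G S F σ| ≤ c := by
  have h1 := Ex_le G (S := S) (fun σ => (abs_le.1 (h σ)).2) σ
  have h2 := Ex_le G (S := S) (F := -F) (c := c)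
    (fun σ => by have := (abs_le.1 (h σ)).1; simp only [ContinuousMap.neg_apply]; linarith) σ
  rw [map_neg, ContinuousMap.neg_apply] at h2
  rw [abs_le]; constructor <;> linarith
lemma ind_Ex (S : Finset V) (F : Fn n V) : Ind S (Ex G S F) := by
  intro σ η
  rw [Ex_apply, Ex_apply, ind_I S _ σ η, ind_I S _ σ η]
lemma Ex_mul_of_ind (hF : Ind S F) (H : Fn n V) : Ex G S (F * H) = F * Ex G S H := by
  ext σ
  rw [Ex_apply, mul_assoc, I_mul_of_ind hF, ContinuousMap.mul_apply, ContinuousMap.mul_apply,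
    Ex_apply, mul_div_assoc]
lemma Ex_of_ind (hF : Ind S F) : Ex G S F = F := by
  have := Ex_mul_of_ind G hF 1
  rwa [mul_one, Ex_one, mul_one] at this
/-- DLR -/
lemma Ex_Ex (h : S ⊆ S') (F : Fn n V) : Ex G S' (Ex G S F) = Ex G S' F := by
  ext σ
  rw [Ex_apply, Ex_apply, ← I_I h (Ex G S F * W n G), I_mul_of_ind (ind_Ex G S F), Ex_mul_I,
    I_I h]
/-- locality -/
lemma Ind.ex (hF : Ind S' F) {D : Finset V} (h : ∀ e, Touch G D e → ¬Touch G S' e) :
    Ind S' (Ex G D F) := by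
  classical
  set A₁ : Ed → ℝ := fun e => if Touch G D e then 1 else 0 with hA₁
  set A₂ : Ed → ℝ := fun e => if Touch G D e then 0 else 1 with hA₂
  set ex : C(ℝ, ℝ) := ⟨Real.exp, Real.continuous_exp⟩
  have h12 : (1 : Ed → ℝ) = A₂ + A₁ := by
    funext e; by_cases he : Touch G D e <;> simp [hA₁, hA₂, he]
  have hW : W n G = cmp ex (obs G (1 : Op n) A₂) * cmp ex (obs G (1 : Op n) A₁) := by
    ext σ
    rw [W_apply, h12, obs_add_right, ContinuousMap.add_apply, Real.exp_add]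
    rfl
  have i2 : Ind D (cmp ex (obs G (1 : Op n) A₂)) :=
    (ind_obs G _ fun e he => by simp [hA₂, he]).comp ex
  have i1 : Ind S' (cmp ex (obs G (1 : Op n) A₁)) :=
    (ind_obs G _ fun e he => by
      have : ¬Touch G D e := fun h' => h e h' he
      simp [hA₁, this]).comp ex
  have e : ∀ σ, Ex G D F σ = I D (F * cmp ex (obs G (1 : Op n) A₁)) σ /
      I D (cmp ex (obs G (1 : Op n) A₁)) σ := fun σ => by
    rw [Ex_apply, hW, mul_left_comm, I_mul_of_ind i2, I_mul_of_ind i2, ContinuousMap.mul_apply,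
      ContinuousMap.mul_apply]
    exact mul_div_mul_left _ _ (Real.exp_pos _).ne'
  intro σ η
  rw [e, e, (hF.mul i1).int D σ η, i1.int D σ η]
lemma Ex_univ (F : Fn n V) (σ : Cfg n V) :
    Ex G Finset.univ F σ = (∫ η, F η * W n G η ∂lam n V) / ∫ η, W n G η ∂lam n V := by
  rw [Ex_apply, I_univ, I_univ]; rfl
lemma Ex_mul_sq_le (S : Finset V) (F H : Fn n V) (σ : Cfg n V) :
    (Ex G S (F * H) σ) ^ 2 ≤ Ex G S (F * F) σ * Ex G S (H * H) σ := by
  have h : ∀ t : ℝ, 0 ≤ Ex G S (F * F) σ * (t * t) + 2 * Ex G S (F * H) σ * t + Ex G S (H * H) σ := by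
    intro t
    have := Ex_nonneg G (S := S) (F := (t • F + H) * (t • F + H))
      (fun σ => by rw [ContinuousMap.mul_apply]; exact mul_self_nonneg _) σ
    have e : (t • F + H) * (t • F + H) = (t * t) • (F * F) + (2 * t) • (F * H) + H * H := by
      ext σ; simp; ring
    rw [e] at this
    simp only [map_add, map_smul, ContinuousMap.add_apply, ContinuousMap.smul_apply,
      smul_eq_mul] at this
    linarith
  have := discrim_le_zero h
  rw [discrim] at this
  nlinarith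

lemma Cov_comm (S : Finset V) (F H : Fn n V) : Cov G S F H = Cov G S H F := by
  rw [Cov, Cov, mul_comm F, mul_comm (Ex G S F)]
lemma Cov_add_left (S : Finset V) (F F' H : Fn n V) :
    Cov G S (F + F') H = Cov G S F H + Cov G S F' H := by
  simp only [Cov, add_mul, map_add]; ring
lemma Cov_add_right (S : Finset V) (F H H' : Fn n V) :
    Cov G S F (H + H') = Cov G S F H + Cov G S F H' := by
  simp only [Cov, mul_add, map_add]; ring
lemma Cov_neg_left (S : Finset V) (F H : Fn n V) : Cov G S (-F) H = -Cov G S F H := by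
  simp only [Cov, neg_mul, map_neg]; ring
lemma Cov_neg_right (S : Finset V) (F H : Fn n V) : Cov G S F (-H) = -Cov G S F H := by
  simp only [Cov, mul_neg, map_neg]; ring
lemma Cov_smul_left (S : Finset V) (c : ℝ) (F H : Fn n V) :
    Cov G S (c • F) H = c • Cov G S F H := by
  simp only [Cov, smul_mul_assoc, map_smul, smul_sub]
lemma Cov_smul_right (S : Finset V) (c : ℝ) (F H : Fn n V) :
    Cov G S F (c • H) = c • Cov G S F H := by
  simp only [Cov, mul_smul_comm, map_smul, smul_sub]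
lemma Cov_sum_left {ι : Type} (s : Finset ι) (S : Finset V) (F : ι → Fn n V) (H : Fn n V) :
    Cov G S (∑ i ∈ s, F i) H = ∑ i ∈ s, Cov G S (F i) H := by
  simp only [Cov, Finset.sum_mul, map_sum, Finset.sum_sub_distrib]
lemma Cov_sum_right {ι : Type} (s : Finset ι) (S : Finset V) (F : Fn n V) (H : ι → Fn n V) :
    Cov G S F (∑ i ∈ s, H i) = ∑ i ∈ s, Cov G S F (H i) := by
  simp only [Cov, Finset.mul_sum, map_sum, Finset.sum_sub_distrib]
lemma Cov_of_ind_right (F : Fn n V) (hH : Ind S H) : Cov G S F H = 0 := by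
  rw [Cov, mul_comm F, Ex_mul_of_ind G hH, Ex_of_ind G hH, mul_comm, sub_self]
lemma ExBA.cov_left (S : Finset V) (F H : Fn n V) :
    Cov G S F H = Ex G S ((F - Ex G S F) * H) := by
  rw [sub_mul, map_sub, Ex_mul_of_ind G (ind_Ex G S F), Cov]

lemma ExBA.cov_cent (S : Finset V) (F H : Fn n V) :
    Cov G S F H = Ex G S ((F - Ex G S F) * (H - Ex G S H)) := by
  rw [mul_sub, map_sub, ← ExBA.cov_left, ← ExBA.cov_left, Cov_of_ind_right G F (ind_Ex G S H),
    sub_zero]

lemma Cov_self_nonneg (S : Finset V) (F : Fn n V) (σ : Cfg n V) : 0 ≤ Cov G S F F σ := by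
  rw [ExBA.cov_cent]
  exact Ex_nonneg G (fun σ => by rw [ContinuousMap.mul_apply]; exact mul_self_nonneg _) σ
lemma Cov_sq_le (S : Finset V) (F H : Fn n V) (σ : Cfg n V) :
    (Cov G S F H σ) ^ 2 ≤ Cov G S F F σ * Ex G S (H * H) σ := by
  rw [ExBA.cov_cent G S F F, ExBA.cov_left]
  exact Ex_mul_sq_le G S _ _ σ
lemma Cov_sq_le' (S : Finset V) (F H : Fn n V) (σ : Cfg n V) :
    (Cov G S F H σ) ^ 2 ≤ Cov G S F F σ * Cov G S H H σ := by
  rw [ExBA.cov_cent G S F F, ExBA.cov_cent G S H H, ExBA.cov_cent]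
  exact Ex_mul_sq_le G S _ _ σ
lemma abs_Cov_le {a b : ℝ} (hF : ∀ σ, |F σ| ≤ a) (hH : ∀ σ, |H σ| ≤ b) (σ : Cfg n V) :
    |Cov G S F H σ| ≤ 2 * a * b := by
  have ha : 0 ≤ a := (abs_nonneg _).trans (hF σ)
  have h1 : |Ex G S (F * H) σ| ≤ a * b := abs_Ex_le G (fun σ => by
    rw [ContinuousMap.mul_apply, abs_mul]
    exact mul_le_mul (hF σ) (hH σ) (abs_nonneg _) ha) σ
  have h2 : |Ex G S F σ * Ex G S H σ| ≤ a * b := by
    rw [abs_mul]
    exact mul_le_mul (abs_Ex_le G hF σ) (abs_Ex_le G hH σ) (abs_nonneg _) ha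
  rw [Cov, ContinuousMap.sub_apply, ContinuousMap.mul_apply]
  refine (abs_sub _ _).trans ?_
  linarith
/-- law of total covariance -/
lemma Cov_total (h : S ⊆ S') (F H : Fn n V) :
    Cov G S' F H = Ex G S' (Cov G S F H) + Cov G S' (Ex G S F) (Ex G S H) := by
  simp only [Cov, map_sub, Ex_Ex G h]; ring
lemma Cov_Ex_right (h : S ⊆ S') (hF : Ind S F) (H : Fn n V) :
    Cov G S' F (Ex G S H) = Cov G S' F H := by
  rw [Cov, Cov, ← Ex_mul_of_ind G hF, Ex_Ex G h, Ex_Ex G h]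
/-- only the edges touching `S` matter in a covariance -/
lemma Cov_obs_res [DecidableEq Ed] {Eb : Finset Ed} (h : ∀ e, Touch G S e → e ∈ Eb) (F : Fn n V)
    (M : Op n) (A : Ed → ℝ) : Cov G S F (obs G M A) = Cov G S F (obs G M (res Eb A)) := by
  have e : A = res Eb A + (A - res Eb A) := by ring
  conv_lhs => rw [e, obs_add_right, Cov_add_right]
  rw [Cov_of_ind_right G F (ind_obs G M (A := A - res Eb A) fun e he => by simp [res, h e he]),
    add_zero]

end Crest.Agent.R167
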