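import Crest.Agent.R167.Ann
import Crest.Agent.R167.Equ
import Crest.Agent.R167.ES2
import Crest.Agent.R167.Chain

/-!
# Exponential decay

`coord_decay`: `R₀` from `power_decay` with `q = 1/64`, `C = 1 + 2 n (1 + 4 β)`; choose `k` with
`25 R₀² (1 + C) ≤ 2^k / 2`; `R = 2^k R₀`, `N = 2 R`, `τ = (1/8)^k`, `D z = box V z R`,
`δ = (1/64)^k` (`exists_tri`, `a = 0`), `γ = C τ` (`equator`, `sum_abs_grad_single_le`).
`chain_bound` + `exists_chains` (separation: `touch_box`, `dd_triangle`) give the bound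
`((2N+1)² (1 + C) / 8^k)^K ≤ (25 R₀² (1 + C) / 2^k)^K ≤ (1/2)^K`.
`main`: `twoPoint_eq` (any `σ`, e.g. constant), `es_nonneg`, `K = ⌊dd x y / N⌋`, `A = 2 n`,
`m = log 2 / (2 N)`, `√(a² + b²) ≤ 2 dd`.
-/

set_option autoImplicit false

namespace Crest.Agent.R167

open MeasureTheory Crest.ProbabilityR.SpinModel
open scoped RealInnerProductSpace

theorem coord_decay {n : ℕ} [NeZero n] (hn : 3 ≤ n) {β : ℝ} (hβ : 0 ≤ β) :
    ∃ N : ℕ, 0 < N ∧ ∀ (V : Finset (ℤ × ℤ)) (b : ℤ × ℤ → Fin 2 → ℝ), Bb b β →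
      ∀ (x y : V) (i : Fin n) (σ : Cfg n V) (K : ℕ), ((K * N : ℕ) : ℤ) ≤ dd x y →
        Ex (latG V b) Finset.univ
          (lin (EuclideanSpace.single i 1) x * lin (EuclideanSpace.single i 1) y) σ ≤
          (1 / 2) ^ K := by
  obtain ⟨R₀, hR₀, hpd⟩ := power_decay (n := n) hβ (q := 1 / 64) (by norm_num)
  set C : ℝ := 1 + 2 * n * (1 + β * 4) with hC
  have hC0 : 0 ≤ C := by positivity
  obtain ⟨k, hk⟩ := pow_unbounded_of_one_lt (50 * (R₀ : ℝ) ^ 2 * (1 + C)) (one_lt_two (α := ℝ))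
  refine ⟨2 * (2 ^ k * R₀), by positivity, fun V b hb x y i σ K hK => ?_⟩
  set R := 2 ^ k * R₀ with hR
  have hRpos : 0 < R := by positivity
  obtain ⟨τ, hτ⟩ := exists_tri hn i
  obtain ⟨𝒵, h1, h2, h3⟩ := exists_chains (b := b) x y (N := 2 * R) (by positivity) K hK
  have ht : (0 : ℝ) < (1 / 8) ^ k := by positivity
  have ht1 : (1 / 8 : ℝ) ^ k ≤ 1 := pow_le_one₀ (by norm_num) (by norm_num)
  have hD : ∀ z : V, z ∈ box V z R := fun z => mem_box.2 (by rw [dd_self]; exact_mod_cast hRpos)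
  have := chain_bound (latG V b) (fun e => (hb.bd V e).1) (v := EuclideanSpace.single i 1)
    (by simp) x y 𝒵 h3 (fun z => box V z R) hD
    (fun Z hZ z hz h => by
      have := (h2 Z hZ).2.1 z hz
      have := mem_box.1 h
      push_cast at *; omega)
    (fun Z hZ z hz z' hz' hne h => by
      have := (h2 Z hZ).2.2 z hz z' hz' hne
      have := mem_box.1 h
      push_cast at *; omega)
    (fun Z hZ z hz z' hz' hne e he he' => by
      have h4 := (h2 Z hZ).2.2 z hz z' hz' hne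
      have h5 := touch_box he
      rcases he' with h | h
      · have h6 := mem_box.1 h
        have h7 := dd_triangle z ((latG V b).s e) z'
        rw [dd_comm z ((latG V b).s e)] at h7
        push_cast at *; omega
      · have h6 := mem_box.1 h
        have h7 := dd_triangle z ((latG V b).t e) z'
        rw [dd_comm z ((latG V b).t e)] at h7
        push_cast at *; omega)
    ht (δ := (1 / 64) ^ k) (γ := C * (1 / 8) ^ k)
    (fun z σ => by rw [← hτ]; exact hpd k τ V b hb z 0 σ)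
    (fun z σ => equator (latG V b) (hb.bd V) hβ (hD z) (sum_abs_grad_single_le z) i ht ht1 σ) σ
  refine this.trans ?_
  have e : ((1 / 64 : ℝ) ^ k / (1 / 8) ^ k + C * (1 / 8) ^ k) = (1 + C) * (1 / 8) ^ k := by
    rw [← div_pow]; norm_num; ring
  rw [Finset.sum_congr rfl fun Z hZ => by rw [(h2 Z hZ).1], Finset.sum_const, nsmul_eq_mul, e]
  have h4 : (𝒵.card : ℝ) ≤ (((2 * (2 * R) + 1 : ℕ) : ℝ) ^ 2) ^ K := by
    rw [← pow_mul]; exact_mod_cast h1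
  refine (mul_le_mul_of_nonneg_right h4 (by positivity)).trans ?_
  rw [← mul_pow]
  refine pow_le_pow_left₀ (by positivity) ?_ K
  have h5 : ((2 * (2 * R) + 1 : ℕ) : ℝ) ≤ 5 * (2 ^ k * R₀) := by
    have : 2 * (2 * R) + 1 ≤ 5 * R := by omega
    exact_mod_cast this
  have h6 : ((2 * (2 * R) + 1 : ℕ) : ℝ) ^ 2 ≤ (5 * (2 ^ k * R₀)) ^ 2 :=
    pow_le_pow_left₀ (by positivity) h5 2
  have h7 : ((2 : ℝ) ^ k) ^ 2 * (1 / 8) ^ k * 2 ^ k = 1 := by
    rw [← pow_mul, mul_comm k 2, pow_mul, ← mul_pow, ← mul_pow]; norm_num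
  have h8 : (0 : ℝ) < 2 ^ k := by positivity
  calc _ ≤ (5 * (2 ^ k * R₀)) ^ 2 * ((1 + C) * (1 / 8) ^ k) :=
        mul_le_mul_of_nonneg_right h6 (by positivity)
    _ = (50 * (R₀ : ℝ) ^ 2 * (1 + C)) * (((2 : ℝ) ^ k) ^ 2 * (1 / 8) ^ k) / 2 := by ring
    _ ≤ 2 ^ k * (((2 : ℝ) ^ k) ^ 2 * (1 / 8) ^ k) / 2 := by gcongr
    _ = 1 / 2 := by rw [mul_comm, h7]

theorem main (n : ℕ) (hn : 3 ≤ n) (β : ℝ) (hβ : 0 < β) :
    ∃ A m : ℝ, 0 < m ∧
      ∀ (V : Finset (ℤ × ℤ)) (b : ℤ × ℤ → Fin 2 → ℝ),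
        (∀ u i, 0 ≤ b u i ∧ b u i ≤ β) →
        ∀ x y : V,
          0 ≤ twoPoint n V b x y ∧
          twoPoint n V b x y ≤
            A * Real.exp (-m * Real.sqrt ((((x : ℤ × ℤ).1 - (y : ℤ × ℤ).1 : ℤ) : ℝ) ^ 2 +
              (((x : ℤ × ℤ).2 - (y : ℤ × ℤ).2 : ℤ) : ℝ) ^ 2)) := by
  haveI : NeZero n := ⟨by omega⟩
  obtain ⟨N, hN, h⟩ := coord_decay hn hβ.le
  have hl : 0 < Real.log 2 := Real.log_pos one_lt_two
  refine ⟨2 * n, Real.log 2 / (2 * N), by positivity, fun V b hb x y => ?_⟩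
  let σ : Cfg n V := fun _ => ⟨EuclideanSpace.single 0 1, by simp⟩
  rw [twoPoint_eq x y σ]
  refine ⟨Finset.sum_nonneg fun i _ =>
    es_nonneg (latG V b) (fun e => (hb _ _).1) (by simp) x y σ, ?_⟩
  obtain ⟨d, hd⟩ := Int.eq_ofNat_of_zero_le (dd_nonneg x y)
  have h1 := Finset.sum_le_sum fun i (_ : i ∈ Finset.univ) => h V b hb x y i σ (d / N)
    (by rw [hd]; exact_mod_cast Nat.div_mul_le_self d N)
  refine h1.trans ?_
  rw [Finset.sum_const, Finset.card_univ, Fintype.card_fin, nsmul_eq_mul, mul_comm (2 : ℝ) n,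
    mul_assoc]
  refine mul_le_mul_of_nonneg_left ?_ (Nat.cast_nonneg _)
  have h2 : Real.sqrt ((((x : ℤ × ℤ).1 - (y : ℤ × ℤ).1 : ℤ) : ℝ) ^ 2 +
      (((x : ℤ × ℤ).2 - (y : ℤ × ℤ).2 : ℤ) : ℝ) ^ 2) ≤ 2 * d := by
    have a1 : |(x : ℤ × ℤ).1 - (y : ℤ × ℤ).1| ≤ d := hd ▸ le_max_left _ _
    have a2 : |(x : ℤ × ℤ).2 - (y : ℤ × ℤ).2| ≤ d := hd ▸ le_max_right _ _
    have b1 : |(((x : ℤ × ℤ).1 - (y : ℤ × ℤ).1 : ℤ) : ℝ)| ≤ d := by exact_mod_cast a1
    have b2 : |(((x : ℤ × ℤ).2 - (y : ℤ × ℤ).2 : ℤ) : ℝ)| ≤ d := by exact_mod_cast a2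
    have c1 := pow_le_pow_left₀ (abs_nonneg _) b1 2
    have c2 := pow_le_pow_left₀ (abs_nonneg _) b2 2
    rw [sq_abs] at c1 c2
    refine Real.sqrt_le_iff.2 ⟨by positivity, ?_⟩
    nlinarith [sq_nonneg (d : ℝ)]
  have h3 : (d : ℝ) ≤ ((d / N : ℕ) + 1) * N := by
    have := Nat.lt_div_mul_add (a := d) hN
    have : d ≤ (d / N + 1) * N := by rw [add_mul, one_mul]; omega
    exact_mod_cast this
  have e : (1 / 2 : ℝ) ^ (d / N) = 2 * Real.exp (-(Real.log 2 * ((d / N : ℕ) + 1))) := by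
    rw [Real.exp_neg, mul_comm (Real.log 2), ← Nat.cast_succ, Real.exp_nat_mul,
      Real.exp_log two_pos, pow_succ, one_div, inv_pow]
    field_simp
  rw [e]
  refine mul_le_mul_of_nonneg_left (Real.exp_le_exp.2 ?_) two_pos.le
  rw [neg_mul, neg_le_neg_iff, div_mul_eq_mul_div, div_le_iff₀ (by positivity)]
  have := mul_le_mul_of_nonneg_left (h2.trans (mul_le_mul_of_nonneg_left h3 two_pos.le)) hl.le
  linarith

end Crest.Agent.R167
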