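import Crest.Agent.R167.ExB
import Crest.Agent.R167.Inv

/-!
# Derivatives along site rotations, integration by parts

Plan. Use `let +nondep : NormedAlgebra ℚ (Op n) := .restrictScalars ℚ ℝ (Op n)` where
`NormedSpace.exp_add_of_commute` needs it; `hasDerivAt_exp_smul_const` for the derivative.
`hasDerivAt_fl`: chain rule with `t ↦ t * θ x`.
`hasD_obs`: derivative `θ_s ⟪M T σ_s, σ_t⟫ + θ_t ⟪M σ_s, T σ_t⟫`, then skewness.
`HasD.int`: `I S F (fl t σ) = ∫ η, F (fl t (S.piecewise η σ))` by `integral_actC`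
(applied to `F.comp ⟨_, continuous_pw_left S (fl t σ)⟩`; `fl t (S.piecewise η σ) =
S.piecewise (fl t η) (fl t σ)`), then `hasDerivAt_integral_of_dominated_loc_of_deriv_le` with
`HasD.at` and bound `‖F'‖`.
`HasD.ex`: quotient rule with `hasD_W`.
`HasD.eq_zero_of_ind`: `fl t σ` agrees with `σ` off `S` (`Ind.congr`), so the function of `t` is
constant. `Ex_w`: apply it to `I S W`. `ibp`: apply it to `Ex S F`.
-/

set_option autoImplicit false
set_option linter.unusedSectionVars false

namespace Crest.Agent.R167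

open MeasureTheory Crest.ProbabilityR.SpinModel
open scoped RealInnerProductSpace

variable {n : ℕ} {V Ed : Type} {T : Sk n} {θ : V → ℝ} {F F' H H' : Fn n V}

namespace FlowA

variable {X : Type*} [NormedAddCommGroup X] [NormedSpace ℝ X] [CompleteSpace X] (T : X →L[ℝ] X)

lemma exp_zero (v : X) : NormedSpace.exp ((0 : ℝ) • T) v = v := by simp

lemma exp_add (s t : ℝ) (v : X) :
    NormedSpace.exp ((s + t) • T) v = NormedSpace.exp (s • T) (NormedSpace.exp (t • T) v) := by
  let +nondep : NormedAlgebra ℚ (X →L[ℝ] X) := .restrictScalars ℚ ℝ _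
  rw [add_smul, NormedSpace.exp_add_of_commute (((Commute.refl T).smul_left s).smul_right t)]
  rfl

lemma exp_deriv (c : ℝ) (v : X) :
    HasDerivAt (fun t : ℝ => NormedSpace.exp ((t * c) • T) v) (c • T v) 0 := by
  simpa using ((hasDerivAt_exp_smul_const T (0 * c)).scomp (0 : ℝ)
    (hasDerivAt_mul_const c)).clm_apply (hasDerivAt_const 0 v)

end FlowA

lemma rot_zero (T : Sk n) (v : E n) : rot T 0 v = v := by
  exact FlowA.exp_zero T.T v
lemma rot_add (T : Sk n) (s t : ℝ) (v : E n) : rot T (s + t) v = rot T s (rot T t v) := by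
  exact FlowA.exp_add T.T s t v
lemma fl_zero (T : Sk n) (θ : V → ℝ) (σ : Cfg n V) : fl T θ 0 σ = σ := by
  funext x; exact Subtype.ext (by simp [fl, actC, rot_zero])
lemma fl_add (T : Sk n) (θ : V → ℝ) (s t : ℝ) (σ : Cfg n V) :
    fl T θ (s + t) σ = fl T θ s (fl T θ t σ) := by
  funext x; exact Subtype.ext (by simp [fl, actC, add_mul, rot_add])
lemma hasDerivAt_fl (T : Sk n) (θ : V → ℝ) (σ : Cfg n V) (x : V) :
    HasDerivAt (fun t => (fl T θ t σ x : E n)) (θ x • T.T (σ x)) 0 := by
  exact FlowA.exp_deriv T.T (θ x) (σ x)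

lemma HasD.at (h : HasD T θ F F') (σ : Cfg n V) (t : ℝ) :
    HasDerivAt (fun t => F (fl T θ t σ)) (F' (fl T θ t σ)) t := by
  have h1 := HasDerivAt.comp_sub_const t t (f := fun s => F (fl T θ s (fl T θ t σ)))
    (by rw [sub_self]; exact h _)
  simpa only [← fl_add, sub_add_cancel] using h1
lemma HasD.one : HasD T θ (1 : Fn n V) 0 := by
  exact fun _ => hasDerivAt_const _ _
lemma HasD.add (h : HasD T θ F F') (h' : HasD T θ H H') : HasD T θ (F + H) (F' + H') := by
  exact fun σ => (h σ).add (h' σ)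
lemma HasD.sub (h : HasD T θ F F') (h' : HasD T θ H H') : HasD T θ (F - H) (F' - H') := by
  exact fun σ => (h σ).sub (h' σ)
lemma HasD.neg (h : HasD T θ F F') : HasD T θ (-F) (-F') := by
  exact fun σ => (h σ).neg
lemma HasD.smul (c : ℝ) (h : HasD T θ F F') : HasD T θ (c • F) (c • F') := by
  exact fun σ => (h σ).const_smul c
lemma HasD.mul (h : HasD T θ F F') (h' : HasD T θ H H') :
    HasD T θ (F * H) (F' * H + F * H') := by
  intro σ
  have := (h σ).mul (h' σ)
  rw [fl_zero] at this
  exact this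
lemma HasD.sum {ι : Type} (s : Finset ι) {f f' : ι → Fn n V}
    (h : ∀ i ∈ s, HasD T θ (f i) (f' i)) : HasD T θ (∑ i ∈ s, f i) (∑ i ∈ s, f' i) := by
  intro σ
  simpa using HasDerivAt.fun_sum fun i hi => h i hi σ
lemma HasD.comp {g g' : C(ℝ, ℝ)} (hg : ∀ u, HasDerivAt g (g' u) u) (h : HasD T θ F F') :
    HasD T θ (cmp g F) (cmp g' F * F') := by
  intro σ
  have := (hg _).comp (0 : ℝ) (h σ)
  rw [fl_zero] at this
  exact this
lemma HasD.congr (h : HasD T θ F F') (e : F' = H') : HasD T θ F H' := e ▸ h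
lemma hasD_lin (T : Sk n) (θ : V → ℝ) (v : E n) (x : V) :
    HasD T θ (lin v x) (-(θ x • lin (T.T v) x)) := by
  intro σ
  have := (hasDerivAt_const 0 v).inner ℝ (hasDerivAt_fl T θ σ x)
  refine this.congr_deriv ?_
  simp [real_inner_smul_right, T.skew]

variable [Fintype Ed] (G : Gr V Ed)

lemma hasD_obs (T : Sk n) (θ : V → ℝ) (M : Op n) (A : Ed → ℝ) :
    HasD T θ (obs G M A)
      (obs G (M * T.T - T.T * M) (hd G θ * A) + obs G (M * T.T) (grad G θ * A)) := by
  intro σ
  have := HasDerivAt.fun_sum (u := Finset.univ) fun e _ => ((M.hasFDerivAt.comp_hasDerivAt 0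
    (hasDerivAt_fl T θ σ (G.s e))).inner ℝ (hasDerivAt_fl T θ σ (G.t e))).const_mul (G.J e * A e)
  refine this.congr_deriv ?_
  rw [ContinuousMap.add_apply, obs_apply, obs_apply, ← Finset.sum_add_distrib]
  refine Finset.sum_congr rfl fun e _ => ?_
  simp only [fl_zero, Function.comp_apply, map_smul, real_inner_smul_left, real_inner_smul_right,
    Pi.mul_apply, hd, grad, sub_apply, mul_apply_eq_comp, inner_sub_left, T.skew (M _)]
  ring
lemma hasD_W (T : Sk n) (θ : V → ℝ) :
    HasD T θ (W n G) (obs G T.T (grad G θ) * W n G) := by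
  intro σ
  have := (hasD_obs G T θ 1 1 σ).exp
  rw [fl_zero] at this
  refine this.congr_deriv ?_
  simp [obs_zero_left, W_apply, mul_comm]

variable [DecidableEq V]

lemma HasD.eq_zero_of_ind {S : Finset V} (h : HasD T θ F F') (hθ : ∀ x, x ∉ S → θ x = 0)
    (hF : Ind S F) : F' = 0 := by
  ext σ
  refine (h σ).unique ?_
  have : (fun t => F (fl T θ t σ)) = fun _ => F σ := funext fun t => hF.congr fun x hx =>
    Subtype.ext (by simp [fl, actC, hθ x hx, rot_zero])
  rw [this]
  exact hasDerivAt_const _ _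

variable [Fintype V] [NeZero n]

lemma HasD.int (h : HasD T θ F F') (S : Finset V) : HasD T θ (I S F) (I S F') := by
  intro σ
  have e : (fun t => I S F (fl T θ t σ)) =
      fun t => ∫ η, F (fl T θ t (S.piecewise η σ)) ∂lam n V := funext fun t => by
    rw [I_apply]
    refine (integral_actC (fun x => rot T (t * θ x))
      (F.comp ⟨_, continuous_pw_left S (fl T θ t σ)⟩)).symm.trans ?_
    refine integral_congr_ae (Filter.Eventually.of_forall fun η => congrArg F (funext fun x => ?_))
    by_cases hx : x ∈ S <;> simp [fl, actC, hx]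
  have hi : ∀ (H : Fn n V) t, Integrable (fun η => H (fl T θ t (S.piecewise η σ))) (lam n V) :=
    fun H t => integrable_pw (H.comp ⟨_, continuous_actC _⟩) S σ
  have := (hasDerivAt_integral_of_dominated_loc_of_deriv_le (x₀ := (0 : ℝ)) (bound := fun _ => ‖F'‖)
    (F' := fun t η => F' (fl T θ t (S.piecewise η σ))) Filter.univ_mem
    (Filter.Eventually.of_forall fun t => (hi F t).1) (hi F 0) (hi F' 0).1
    (Filter.Eventually.of_forall fun _ _ _ => F'.norm_coe_le_norm _) (integrable_const _)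
    (Filter.Eventually.of_forall fun η t _ => h.at _ t)).2
  rw [e]
  simp only [fl_zero] at this
  exact this
lemma HasD.ex (h : HasD T θ F F') (S : Finset V) :
    HasD T θ (Ex G S F) (Ex G S F' + Cov G S F (obs G T.T (grad G θ))) := by
  intro σ
  have h0 := (I_pos S (W_pos (n := n) G) σ).ne'
  have := (((h.mul (hasD_W G T θ)).int S) σ).div (((hasD_W G T θ).int S) σ) (by rwa [fl_zero])
  refine this.congr_deriv ?_
  simp only [fl_zero, map_add, Cov, ContinuousMap.add_apply, ContinuousMap.sub_apply,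
    ContinuousMap.mul_apply, Ex_apply, mul_assoc]
  field_simp
  ring
lemma Ex_w (T : Sk n) {S : Finset V} (hθ : ∀ x, x ∉ S → θ x = 0) :
    Ex G S (obs G T.T (grad G θ)) = 0 := by
  have := ((hasD_W G T θ).int S).eq_zero_of_ind hθ (ind_I S _)
  ext σ
  rw [Ex_apply, this]; simp
/-- integration by parts -/
lemma ibp {S : Finset V} (hθ : ∀ x, x ∉ S → θ x = 0) (h : HasD T θ F F') :
    Ex G S F' = -Ex G S (F * obs G T.T (grad G θ)) := by
  have := (h.ex G S).eq_zero_of_ind hθ (ind_Ex G S F)
  rwa [Cov, Ex_w G T hθ, mul_zero, sub_zero, add_eq_zero_iff_eq_neg] at this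

end Crest.Agent.R167
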