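import Crest.Agent.R167.Cells

/-!
# Ward identity and moments of the boundary currents

Write `w T φ = obs G T.T (grad G φ)`.
`ward`: `ibp` along `(Tb, ψ)`: `Ex F2 = -Ex (F1 * w_b)`; `ibp` along `(Ta, φ)` for `F * w_b`
(`HasD.mul`, `hasD_obs`): `Ex (F1 w_b + F D w_b) = -Ex (F w_b w_a)`. So `Ex F2 = Ex (F * Z)`; the
same with `F = 1` (or `ibp` for `w_b`) gives `Ex Z = 0`.
`Ex_w_sq_le`: `D w = obs (T T) (grad φ * grad φ)` is bounded by `p = β ∑ (grad φ)²`;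
`Ex (w w) = -Ex (D w)`. `Ex_w_four_le`: `Ex (w³ w) = -Ex (3 w² D w) ≤ 3 p Ex (w w)`.
`Ex_Y_sq_le`: `(u + v)² ≤ 2 u² + 2 v²`, `Ex (w_a² w_b²) ≤ √(3 p_φ² · 3 p_ψ²)` (`Ex_mul_sq_le`), and
`|obs (Tb Ta) (grad φ * grad ψ)|² ≤ β² (∑ |∇φ ∇ψ|)² ≤ p_φ p_ψ` (`Finset.sum_mul_sq_le_sq_mul_sq`).
-/

set_option autoImplicit false

namespace Crest.Agent.R167

open MeasureTheory Crest.ProbabilityR.SpinModel
open scoped RealInnerProductSpace

variable {n : ℕ} {V Ed : Type} [Fintype Ed] [DecidableEq V] [Fintype V] [NeZero n]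
  (G : Gr V Ed)

lemma ward {S : Finset V} {φ ψ : V → ℝ} (hφ : ∀ x, x ∉ S → φ x = 0) (hψ : ∀ x, x ∉ S → ψ x = 0)
    {Ta Tb : Sk n} {F F1 F2 : Fn n V} (h1 : HasD Ta φ F F1) (h2 : HasD Tb ψ F1 F2) :
    Ex G S F2 = Cov G S F
      (obs G (Tb.T * Ta.T - Ta.T * Tb.T) (hd G φ * grad G ψ) +
        (obs G Ta.T (grad G φ) * obs G Tb.T (grad G ψ) +
          obs G (Tb.T * Ta.T) (grad G φ * grad G ψ))) := by
  have a1 := ibp G hψ h2
  have dw := hasD_obs G Ta φ Tb.T (grad G ψ)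
  have a2 := ibp G hφ (h1.mul dw)
  have a3 := ibp G hφ dw
  set wa := obs G Ta.T (grad G φ)
  set wb := obs G Tb.T (grad G ψ)
  set P := obs G (Tb.T * Ta.T - Ta.T * Tb.T) (hd G φ * grad G ψ)
  set Q := obs G (Tb.T * Ta.T) (grad G φ * grad G ψ)
  have e1 : F * (P + (wa * wb + Q)) = F * (P + Q) + F * wb * wa := by ring
  have e2 : P + (wa * wb + Q) = (P + Q) + wb * wa := by ring
  rw [Cov, e1, e2, map_add, map_add (Ex G S) (P + Q), a3, a1]
  rw [map_add] at a2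
  linear_combination -a2

omit [DecidableEq V] [Fintype V] [NeZero n] in
lemma WardA.bd {β : ℝ} (hJ : Bd G β) (hβ : 0 ≤ β) {T : Sk n} (hT : ‖T.T‖ ≤ 1) (φ : V → ℝ)
    (σ : Cfg n V) : |obs G (T.T * T.T) (grad G φ * grad G φ) σ| ≤ β * ∑ e, grad G φ e ^ 2 := by
  have h1 := abs_obs_le G hJ hβ (M := T.T * T.T) (m := 1)
    ((norm_mul_le _ _).trans (mul_le_one₀ hT (norm_nonneg _) hT)) (grad G φ * grad G φ) σ
  simpa only [Pi.mul_apply, abs_mul_abs_self, mul_one, sq, abs_mul] using h1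

lemma Ex_w_sq_le {β : ℝ} (hJ : Bd G β) (hβ : 0 ≤ β) {S : Finset V} {φ : V → ℝ}
    (hφ : ∀ x, x ∉ S → φ x = 0) {T : Sk n} (hT : ‖T.T‖ ≤ 1) (σ : Cfg n V) :
    Ex G S (obs G T.T (grad G φ) * obs G T.T (grad G φ)) σ ≤ β * ∑ e, grad G φ e ^ 2 := by
  have a3 := ibp G hφ (hasD_obs G T φ T.T (grad G φ))
  rw [sub_self, obs_zero_left, zero_add] at a3
  have := abs_Ex_le G (S := S) (WardA.bd G hJ hβ hT φ) σ
  rw [a3, ContinuousMap.neg_apply, abs_neg] at this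
  exact (le_abs_self _).trans this

lemma Ex_w_four_le {β : ℝ} (hJ : Bd G β) (hβ : 0 ≤ β) {S : Finset V} {φ : V → ℝ}
    (hφ : ∀ x, x ∉ S → φ x = 0) {T : Sk n} (hT : ‖T.T‖ ≤ 1) (σ : Cfg n V) :
    Ex G S ((obs G T.T (grad G φ) * obs G T.T (grad G φ)) *
      (obs G T.T (grad G φ) * obs G T.T (grad G φ))) σ ≤ 3 * (β * ∑ e, grad G φ e ^ 2) ^ 2 := by
  have dw := hasD_obs G T φ T.T (grad G φ)
  rw [sub_self, obs_zero_left, zero_add] at dw
  have a := ibp G hφ ((dw.mul dw).mul dw)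
  have h2 := Ex_w_sq_le G hJ hβ hφ hT σ
  have hb := WardA.bd G hJ hβ hT φ
  set w := obs G T.T (grad G φ)
  set D := obs G (T.T * T.T) (grad G φ * grad G φ)
  set p := β * ∑ e, grad G φ e ^ 2
  have hp : 0 ≤ p := by positivity
  have e : w * w * (w * w) = w * w * w * w := by ring
  have h3 : Ex G S (-((D * w + w * D) * w + w * w * D)) σ ≤ Ex G S ((3 * p) • (w * w)) σ := by
    refine Ex_mono G (fun σ => ?_) σ
    simp only [ContinuousMap.neg_apply, ContinuousMap.add_apply, ContinuousMap.mul_apply,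
      ContinuousMap.smul_apply, smul_eq_mul]
    have := (abs_le.1 (hb σ)).1
    nlinarith [mul_self_nonneg (w σ)]
  rw [map_neg, a, neg_neg, map_smul, ContinuousMap.smul_apply, smul_eq_mul] at h3
  rw [e]
  nlinarith

lemma Ex_Y_sq_le {β : ℝ} (hJ : Bd G β) (hβ : 0 ≤ β) {S : Finset V} {φ ψ : V → ℝ}
    (hφ : ∀ x, x ∉ S → φ x = 0) (hψ : ∀ x, x ∉ S → ψ x = 0) {Ta Tb : Sk n} (ha : ‖Ta.T‖ ≤ 1)
    (hb : ‖Tb.T‖ ≤ 1) (σ : Cfg n V) :
    Ex G S ((obs G Ta.T (grad G φ) * obs G Tb.T (grad G ψ) +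
        obs G (Tb.T * Ta.T) (grad G φ * grad G ψ)) *
      (obs G Ta.T (grad G φ) * obs G Tb.T (grad G ψ) +
        obs G (Tb.T * Ta.T) (grad G φ * grad G ψ))) σ ≤
      8 * β ^ 2 * (∑ e, grad G φ e ^ 2) * ∑ e, grad G ψ e ^ 2 := by
  have h4a := Ex_w_four_le G hJ hβ hφ ha σ
  have h4b := Ex_w_four_le G hJ hβ hψ hb σ
  have hR : ∀ σ : Cfg n V, (obs G (Tb.T * Ta.T) (grad G φ * grad G ψ) σ) ^ 2 ≤
      β ^ 2 * (∑ e, grad G φ e ^ 2) * ∑ e, grad G ψ e ^ 2 := fun σ => by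
    have h1 := abs_obs_le G hJ hβ (M := Tb.T * Ta.T) (m := 1)
      ((norm_mul_le _ _).trans (mul_le_one₀ hb (norm_nonneg _) ha)) (grad G φ * grad G ψ) σ
    have h2 := Finset.sum_mul_sq_le_sq_mul_sq Finset.univ (fun e => |grad G φ e|)
      (fun e => |grad G ψ e|)
    simp only [sq_abs, ← abs_mul] at h2
    rw [← sq_abs]
    calc _ ≤ (β * 1 * ∑ e, |(grad G φ * grad G ψ) e|) ^ 2 := pow_le_pow_left₀ (abs_nonneg _) h1 2
      _ = β ^ 2 * (∑ e, |grad G φ e * grad G ψ e|) ^ 2 := by simp only [Pi.mul_apply]; ring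
      _ ≤ _ := by rw [mul_assoc]; exact mul_le_mul_of_nonneg_left h2 (by positivity)
  have cs := Ex_mul_sq_le G S (obs G Ta.T (grad G φ) * obs G Ta.T (grad G φ))
    (obs G Tb.T (grad G ψ) * obs G Tb.T (grad G ψ)) σ
  set wa := obs G Ta.T (grad G φ)
  set wb := obs G Tb.T (grad G ψ)
  set R := obs G (Tb.T * Ta.T) (grad G φ * grad G ψ)
  set P := ∑ e, grad G φ e ^ 2
  set Q := ∑ e, grad G ψ e ^ 2
  have hP : 0 ≤ P := by positivity
  have hQ : 0 ≤ Q := by positivity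
  have h5 : Ex G S (wa * wa * (wb * wb)) σ ≤ 3 * (β ^ 2 * P * Q) := by
    refine le_trans (le_abs_self _) (abs_le_of_sq_le_sq' ?_ (by positivity)).2
    rw [sq_abs]
    refine cs.trans ?_
    have h0 : 0 ≤ Ex G S (wa * wa * (wa * wa)) σ :=
      Ex_nonneg G (fun σ => by rw [ContinuousMap.mul_apply]; exact mul_self_nonneg _) σ
    have h0' : 0 ≤ Ex G S (wb * wb * (wb * wb)) σ :=
      Ex_nonneg G (fun σ => by rw [ContinuousMap.mul_apply]; exact mul_self_nonneg _) σ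
    calc _ ≤ (3 * (β * P) ^ 2) * (3 * (β * Q) ^ 2) := mul_le_mul h4a h4b h0' (by positivity)
      _ = _ := by ring
  have h6 : Ex G S (R * R) σ ≤ β ^ 2 * P * Q := Ex_le G (fun σ => by
    rw [ContinuousMap.mul_apply, ← sq]; exact hR σ) σ
  have h7 : Ex G S ((wa * wb + R) * (wa * wb + R)) σ ≤
      Ex G S ((2 : ℝ) • (wa * wa * (wb * wb)) + (2 : ℝ) • (R * R)) σ := by
    refine Ex_mono G (fun σ => ?_) σ
    simp only [ContinuousMap.add_apply, ContinuousMap.mul_apply,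
      ContinuousMap.smul_apply, smul_eq_mul]
    nlinarith [sq_nonneg (wa σ * wb σ - R σ)]
  simp only [map_add, map_smul, ContinuousMap.add_apply, ContinuousMap.smul_apply,
    smul_eq_mul] at h7
  linarith

end Crest.Agent.R167
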