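import Crest.Agent.R167.CellD
import Crest.Agent.R167.Ward

/-!
# The summed Ward identity

Plan. `F a = Ex So (obs T_{a+2} A₀) = ∑ B, Ex (Sb B) (obs T_{a+2} (res B A₀))` (`Cells.Ex_obs`).
`choose` `F1 B, F2 B` from `cell_deriv`; `HasD.sum`; `ward` with `τ.comm a`:
`Ex S (∑ B, F2 B a) = Cov (F a) (obs T_{a+2} (hd φ * grad ψ)) + Cov (F a) (Y a)`; the first
covariance equals `Cov (F a) (Ex So (obs ..))` (`Cov_Ex_right`, `ind_Ex`). Sum over `a`
(`Fin.sum_univ_three`, reindexing `a ↦ a + 2`), bound `|Cov (F a) (Y a)| ≤ √V_{a+2} √(8 β² P Q)`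
(`Cov_sq_le`, `Ex_Y_sq_le`) and `√V₀ + √V₁ + √V₂ ≤ √3 √(V₀ + V₁ + V₂)`.
-/

set_option autoImplicit false

namespace Crest.Agent.R167

open MeasureTheory Crest.ProbabilityR.SpinModel
open scoped RealInnerProductSpace

variable {n : ℕ} {V Ed : Type} [Fintype Ed] [DecidableEq Ed] [DecidableEq V] [Fintype V] [NeZero n]
  (G : Gr V Ed)

/-- summed covariance of the cell-averaged currents -/
noncomputable def CV (τ : Tri n) (S So : Finset V) (A A' : Ed → ℝ) : Fn n V :=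
  ∑ a, Cov G S (Ex G So (obs G (τ.T a).T A)) (Ex G So (obs G (τ.T a).T A'))

omit [DecidableEq Ed] in
lemma CV_self_nonneg (τ : Tri n) (S So : Finset V) (A : Ed → ℝ) (σ : Cfg n V) :
    0 ≤ CV G τ S So A A σ := by
  simp only [CV, ContinuousMap.coe_sum, Finset.sum_apply]
  exact Finset.sum_nonneg fun a _ => Cov_self_nonneg G _ _ _

lemma RGIdA.cs (x p q : Fin 3 → ℝ) (hp : ∀ a, 0 ≤ p a) (hq : ∀ a, 0 ≤ q a)
    (h : ∀ a, x a ^ 2 ≤ p a * q a) : ∑ a, x a ≤ √(∑ a, p a) * √(∑ a, q a) := by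
  refine le_trans (Finset.sum_le_sum fun a _ => (?_ : x a ≤ √(p a) * √(q a)))
    (Real.sum_sqrt_mul_sqrt_le _ hp hq)
  rw [← Real.sqrt_mul (hp a)]
  exact Real.le_sqrt_of_sq_le (h a)

omit [DecidableEq Ed] in
lemma CV_le (τ : Tri n) (S So : Finset V) (A A' : Ed → ℝ) (σ : Cfg n V) :
    CV G τ S So A A' σ ≤ √(CV G τ S So A A σ) * √(CV G τ S So A' A' σ) := by
  simp only [CV, ContinuousMap.coe_sum, Finset.sum_apply]
  exact RGIdA.cs _ _ _ (fun a => Cov_self_nonneg G _ _ _) (fun a => Cov_self_nonneg G _ _ _)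
    (fun a => Cov_sq_le' G _ _ _ _)

omit [DecidableEq Ed] in
lemma K_total (τ : Tri n) {S So : Finset V} (h : So ⊆ S) (A : Ed → ℝ) :
    K G τ S A A = Ex G S (K G τ So A A) - CV G τ S So A A := by
  simp only [K, CV, K1_total G _ h, Finset.sum_sub_distrib, map_sum]

theorem rg_id {β f g : ℝ} (hJ : Bd G β) (hβ : 0 ≤ β) (τ : Tri n) {ι : Type} [Fintype ι]
    (C : Cells G ι) {S : Finset V} (hS : C.So ⊆ S) {φ ψ : V → ℝ}
    (hφ : ∀ x, x ∉ S → φ x = 0) (hψ : ∀ x, x ∉ S → ψ x = 0) {N : ℕ}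
    (hN : ∀ B, (C.Eb B).card ≤ N) (hf0 : 0 ≤ f) (hg0 : 0 ≤ g)
    (hf : ∀ B, ∀ e ∈ C.Eb B, |grad G φ e| ≤ f) (hg : ∀ B, ∀ e ∈ C.Eb B, |grad G ψ e| ≤ g)
    (hc : ∀ B, ∃ c, ∀ e ∈ C.Eb B, |ψ (G.t e) - c| ≤ g)
    {A : Ed → ℝ} (hA1 : ∀ e, |A e| ≤ 1) (hA : ∀ e, A e ≠ 0 → ∃ B, e ∈ C.Eb B) (σ : Cfg n V) :
    |Ex G S (∑ B, K G τ (C.Sb B) (hd G φ * res (C.Eb B) A) (res (C.Eb B) (grad G ψ))) σ -
        CV G τ S C.So A (hd G φ * grad G ψ) σ| ≤
      Fintype.card ι * (100 * (1 + β * N) ^ 3 * f * g) +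
        √(CV G τ S C.So A A σ) *
          √(24 * β ^ 2 * (∑ e, grad G φ e ^ 2) * ∑ e, grad G ψ e ^ 2) := by
  choose c hc using hc
  have r0 : ∀ B e, e ∉ C.Eb B → res (C.Eb B) A e = 0 := fun B e he => by simp [res, he]
  have r1 : ∀ B e, |res (C.Eb B) A e| ≤ 1 := fun B e => by
    by_cases he : e ∈ C.Eb B
    · simpa [res, he] using hA1 e
    · simp [res, he]
  choose F1 F2 h1 h2 h3 using fun B => cell_deriv G hJ hβ τ (C.Sb B) (C.Eb B) (C.touch B) (hN B)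
    (res (C.Eb B) A) (r0 B) (r1 B) φ ψ hf0 hg0 (hf B) (hg B) (hc B)
  set Y : Fin 3 → Fn n V := fun a => obs G (τ.T a).T (grad G φ) * obs G (τ.T (a + 1)).T (grad G ψ) +
    obs G ((τ.T (a + 1)).T * (τ.T a).T) (grad G φ * grad G ψ) with hY
  set F : Fin 3 → Fn n V := fun a => Ex G C.So (obs G (τ.T a).T A) with hF
  have w : ∀ a, Ex G S (∑ B, F2 B a) =
      Cov G S (F (a + 2)) (Ex G C.So (obs G (τ.T (a + 2)).T (hd G φ * grad G ψ))) +
        Cov G S (F (a + 2)) (Y a) := by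
    intro a
    have d1 := HasD.sum Finset.univ fun B _ => h1 B a
    have d2 := HasD.sum Finset.univ fun B _ => h2 B a
    rw [← C.Ex_obs _ hA] at d1
    rw [ward G hφ hψ d1 d2, τ.comm a, Cov_add_right, Cov_Ex_right G hS (ind_Ex G _ _)]
  have e1 : Ex G S (∑ B, ∑ a, F2 B a) = CV G τ S C.So A (hd G φ * grad G ψ) +
      ∑ a, Cov G S (F (a + 2)) (Y a) := by
    rw [Finset.sum_comm, map_sum]
    simp only [w, Finset.sum_add_distrib, CV]
    congr 1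
    exact Fintype.sum_equiv (Equiv.addRight 2) _ _ fun a => rfl
  have b1 : |Ex G S (∑ B, K G τ (C.Sb B) (hd G φ * res (C.Eb B) A) (res (C.Eb B) (grad G ψ)) -
      ∑ B, ∑ a, F2 B a) σ| ≤ Fintype.card ι * (100 * (1 + β * N) ^ 3 * f * g) := by
    refine abs_Ex_le G (fun σ => ?_) σ
    rw [← Finset.sum_sub_distrib, ContinuousMap.coe_sum, Finset.sum_apply]
    refine (Finset.abs_sum_le_sum_abs _ _).trans ?_
    refine (Finset.sum_le_sum fun B _ => (?_ : _ ≤ 100 * (1 + β * N) ^ 3 * f * g)).trans ?_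
    · rw [ContinuousMap.sub_apply, abs_sub_comm]; exact h3 B σ
    · simp
  have hPQ : 0 ≤ 8 * β ^ 2 * (∑ e, grad G φ e ^ 2) * ∑ e, grad G ψ e ^ 2 := by positivity
  have b2 : ∑ a, |Cov G S (F (a + 2)) (Y a) σ| ≤ √(CV G τ S C.So A A σ) *
      √(24 * β ^ 2 * (∑ e, grad G φ e ^ 2) * ∑ e, grad G ψ e ^ 2) := by
    have := RGIdA.cs (fun a => |Cov G S (F (a + 2)) (Y a) σ|)
      (fun a => Cov G S (F (a + 2)) (F (a + 2)) σ)
      (fun _ => 8 * β ^ 2 * (∑ e, grad G φ e ^ 2) * ∑ e, grad G ψ e ^ 2)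
      (fun a => Cov_self_nonneg G _ _ _) (fun _ => hPQ) (fun a => by
        rw [sq_abs]
        exact (Cov_sq_le G S _ _ σ).trans (mul_le_mul_of_nonneg_left
          (Ex_Y_sq_le G hJ hβ hφ hψ (τ.norm_T _) (τ.norm_T _) σ) (Cov_self_nonneg G _ _ _)))
    refine this.trans_eq ?_
    congr 2
    · simp only [CV, ContinuousMap.coe_sum, Finset.sum_apply]
      exact Fintype.sum_equiv (Equiv.addRight 2) _ _ fun a => rfl
    · simp only [Finset.sum_const, Finset.card_univ, Fintype.card_fin, nsmul_eq_mul]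
      push_cast; ring
  rw [map_sub, e1] at b1
  simp only [ContinuousMap.sub_apply, ContinuousMap.add_apply] at b1
  have b3 : |(∑ a, Cov G S (F (a + 2)) (Y a)) σ| ≤ ∑ a, |Cov G S (F (a + 2)) (Y a) σ| := by
    rw [ContinuousMap.coe_sum, Finset.sum_apply]
    exact Finset.abs_sum_le_sum_abs _ _
  rw [abs_le] at b1 b3 ⊢
  constructor <;> linarith [b1.1, b1.2, b3.1, b3.2]

end Crest.Agent.R167
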