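import Crest.Agent.R167.RGId

/-!
# The abstract renormalisation step

Plan. `A₁ = hd φ * A = hd φ * grad ψ` (`hcell` on the cells, `hcov` + `hφ` off the cells).
Put `k = Ex S (∑ B, K_B (res A) (res A)) σ ≤ κ a`, `V₀ = CV A A σ`, `V₁ = CV A₁ A₁ σ`,
`y = √(24 β² P Q)`; `K S A A σ = k - V₀` (`K_total`, `Cells.K_So`).
Pointwise, for every cell (`abs_K_le`, `K_add_left`, `K_smul_left`, `K_self_le`; in the second case
of `hcell` both sides vanish):
* `K_B (hd φ * res A) (res ∇ψ) ≥ φB K_B(res A, res A) - 6 (1+βN)² f ≥ K_B - (1 - φB) 3 β N - …`,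
* `K_B (hd φ * res A₁) (res ∇ψ) ≤ φB² K_B + 12 (1+βN)² f ≤ 3 β ∑ (res A)² + 12 (1+βN)² f`.
`rg_id` for `A₁` gives `V₁ ≤ (3β + ε) a + √V₁ y` (`Cells.sum_res_sq`), `rg_id` for `A` and `CV_le`
give `k - ε a / 2 ≤ √V₀ (√V₁ + y)`. Conclude with `rg_arith`:
`√V₁ ≤ √((3β+ε) a) + y`, so `(√V₁ + y)² ≤ (2 (3β + ε) + 8 c) a`; if `k - V₀ > ε a` then
`ε a / 2 < √V₀ (√V₁ + y)`.
-/

set_option autoImplicit false

namespace Crest.Agent.R167

open MeasureTheory Crest.ProbabilityR.SpinModel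
open scoped RealInnerProductSpace

lemma rg_arith {a k V0 V1 y β ε κ c : ℝ} (ha : 0 < a) (hε : 0 < ε) (hβ : 0 ≤ β) (hc : 0 ≤ c)
    (hV0 : 0 ≤ V0) (hV1 : 0 ≤ V1) (hy0 : 0 ≤ y) (hy : y ^ 2 ≤ c * a)
    (h1 : V1 ≤ (3 * β + ε) * a + √V1 * y) (h2 : k - ε * a / 2 ≤ √V0 * (√V1 + y))
    (hk : k ≤ κ * a) : k - V0 ≤ max ε (κ - ε ^ 2 / (8 * (3 * β + ε + 4 * c))) * a := by
  by_cases h : k - V0 ≤ ε * a
  · exact h.trans (mul_le_mul_of_nonneg_right (le_max_left _ _) ha.le)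
  push Not at h
  refine le_trans ?_ (mul_le_mul_of_nonneg_right (le_max_right _ _) ha.le)
  set s := √V1 with hs
  have hs0 : 0 ≤ s := Real.sqrt_nonneg _
  have hss : s ^ 2 = V1 := Real.sq_sqrt hV1
  set r := √V0 with hr
  have hr0 : 0 ≤ r := Real.sqrt_nonneg _
  have hrr : r ^ 2 = V0 := Real.sq_sqrt hV0
  have hP : 0 < 3 * β + ε + 4 * c := by positivity
  have h3 : (s + y) ^ 2 ≤ 2 * (3 * β + ε + 4 * c) * a := by nlinarith [sq_nonneg (s - 2 * y)]
  have h4 : ε * a / 2 ≤ r * (s + y) := by linarith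
  have h5 : (ε * a / 2) ^ 2 ≤ V0 * (2 * (3 * β + ε + 4 * c) * a) := by
    calc (ε * a / 2) ^ 2 ≤ (r * (s + y)) ^ 2 := pow_le_pow_left₀ (by positivity) h4 2
      _ = V0 * (s + y) ^ 2 := by rw [mul_pow, hrr]
      _ ≤ _ := mul_le_mul_of_nonneg_left h3 hV0
  have h6 : ε ^ 2 / (8 * (3 * β + ε + 4 * c)) * a ≤ V0 := by
    rw [div_mul_eq_mul_div, div_le_iff₀ (by positivity)]
    have : a * (ε ^ 2 * a) ≤ a * (V0 * (8 * (3 * β + ε + 4 * c))) := by nlinarith
    exact le_of_mul_le_mul_left this ha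
  nlinarith

variable {n : ℕ} {V Ed : Type} [Fintype Ed] [DecidableEq Ed] [DecidableEq V] [Fintype V] [NeZero n]
  (G : Gr V Ed)

theorem rg_step {β f g a ε κ c : ℝ} (hJ : Bd G β) (hβ : 0 ≤ β) (τ : Tri n) {ι : Type} [Fintype ι]
    (C : Cells G ι) {S : Finset V} (hS : C.So ⊆ S) {φ ψ : V → ℝ} {φB : ι → ℝ}
    (hφ : ∀ x, x ∉ S → φ x = 0) (hψ : ∀ x, x ∉ S → ψ x = 0) {N : ℕ}
    (hN : ∀ B, (C.Eb B).card ≤ N) (hf0 : 0 ≤ f) (hg1 : 1 ≤ g)
    (hf : ∀ B, ∀ e ∈ C.Eb B, |grad G φ e| ≤ f) (hg : ∀ B, ∀ e ∈ C.Eb B, |grad G ψ e| ≤ g)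
    (hc : ∀ B, ∃ c, ∀ e ∈ C.Eb B, |ψ (G.t e) - c| ≤ g)
    {A : Ed → ℝ} (hA1 : ∀ e, |A e| ≤ 1) (hA : ∀ e, A e ≠ 0 → ∃ B, e ∈ C.Eb B)
    (hcov : ∀ e, G.t e ∈ S → ∃ B, e ∈ C.Eb B)
    (hφ1 : ∀ x, |φ x| ≤ 1) (hφB : ∀ B, 0 ≤ φB B ∧ φB B ≤ 1)
    (hfB : ∀ B, ∀ e ∈ C.Eb B, |φ (G.t e) - φB B| ≤ f)
    (hcell : ∀ B, (∀ e ∈ C.Eb B, grad G ψ e = A e) ∨ (φB B = 0 ∧ ∀ e ∈ C.Eb B, φ (G.t e) = 0))
    (ha : 0 < a) (hε : 0 < ε) (hc0 : 0 ≤ c) (hAa : ∑ e, A e ^ 2 ≤ a)
    (herr : Fintype.card ι * (112 * (1 + β * N) ^ 3 * f * g) ≤ ε * a / 4)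
    (hbd : 3 * β * N * ∑ B, (1 - φB B) ≤ ε * a / 4)
    (hy : 24 * β ^ 2 * (∑ e, grad G φ e ^ 2) * ∑ e, grad G ψ e ^ 2 ≤ c * a)
    (hκ : ∀ σ, (∑ B, K G τ (C.Sb B) (res (C.Eb B) A) (res (C.Eb B) A)) σ ≤ κ * a) (σ : Cfg n V) :
    K G τ S A A σ ≤ max ε (κ - ε ^ 2 / (8 * (3 * β + ε + 4 * c))) * a := by
  have hg0 : 0 ≤ g := zero_le_one.trans hg1
  set A₁ := hd G φ * A with hA₁
  have eA : hd G φ * grad G ψ = A₁ := by
    funext e
    by_cases h : ∃ B, e ∈ C.Eb B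
    · obtain ⟨B, hB⟩ := h
      rcases hcell B with h | h
      · simp [hA₁, h e hB]
      · simp [hA₁, hd, h.2 e hB]
    · have : φ (G.t e) = 0 := hφ _ fun ht => h (hcov e ht)
      simp [hA₁, hd, this]
  have hA₁1 : ∀ e, |A₁ e| ≤ 1 := fun e => by
    rw [hA₁, Pi.mul_apply, abs_mul]
    exact mul_le_one₀ (hφ1 _) (abs_nonneg _) (hA1 e)
  have hA₁c : ∀ e, A₁ e ≠ 0 → ∃ B, e ∈ C.Eb B := fun e he =>
    hA e fun h0 => he (by simp [hA₁, h0])
  have i0 := rg_id G hJ hβ τ C hS hφ hψ hN hf0 hg0 hf hg hc hA1 hA σ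
  have i1 := rg_id G hJ hβ τ C hS hφ hψ hN hf0 hg0 hf hg hc hA₁1 hA₁c σ
  rw [eA] at i0 i1
  set u := 1 + β * N with hu
  have hu1 : 1 ≤ u := by have : 0 ≤ β * N := by positivity
                         linarith
  have r0 : ∀ B e, e ∉ C.Eb B → res (C.Eb B) A e = 0 := fun B e he => by simp [res, he]
  have r1 : ∀ B, ∀ e ∈ C.Eb B, |res (C.Eb B) A e| ≤ 1 := fun B e he => by
    simpa [res, he] using hA1 e
  have hKN : ∀ B, ∑ e, res (C.Eb B) A e ^ 2 ≤ N := fun B => by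
    calc ∑ e, res (C.Eb B) A e ^ 2 ≤ ∑ e, if e ∈ C.Eb B then (1 : ℝ) else 0 := by
          refine Finset.sum_le_sum fun e _ => ?_
          by_cases he : e ∈ C.Eb B
          · rw [if_pos he, ← sq_abs]; exact pow_le_one₀ (abs_nonneg _) (r1 B e he)
          · simp [res, he]
      _ = (C.Eb B).card := by simp
      _ ≤ N := by exact_mod_cast hN B
  have p0 : ∀ B σ, K G τ (C.Sb B) (res (C.Eb B) A) (res (C.Eb B) A) σ -
      3 * β * N * (1 - φB B) - 12 * u ^ 2 * f ≤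
      K G τ (C.Sb B) (hd G φ * res (C.Eb B) A) (res (C.Eb B) (grad G ψ)) σ := by
    intro B σ
    have hK := (K_self_le G hJ hβ τ (C.Sb B) (res (C.Eb B) A) σ).trans
      (mul_le_mul_of_nonneg_left (hKN B) (by positivity))
    have huf : 0 ≤ u ^ 2 * f := by positivity
    rcases hcell B with h | h
    · have e1 : res (C.Eb B) (grad G ψ) = res (C.Eb B) A := by
        funext e; by_cases he : e ∈ C.Eb B <;> simp [res, he, h e]
      have e2 : hd G φ * res (C.Eb B) A =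
          φB B • res (C.Eb B) A + (fun e => φ (G.t e) - φB B) * res (C.Eb B) A := by
        funext e; simp [hd]; ring
      rw [e1, e2, K_add_left, K_smul_left]
      have := abs_K_le G hJ hβ τ (C.Sb B) (hN B)
        (A := (fun e => φ (G.t e) - φB B) * res (C.Eb B) A) (A' := res (C.Eb B) A) (a := f) (a' := 1)
        (fun e he => by simp [r0 B e he]) (r0 B) hf0 zero_le_one
        (fun e he => by
          rw [Pi.mul_apply, abs_mul]
          exact (mul_le_mul (hfB B e he) (r1 B e he) (abs_nonneg _) hf0).trans_eq (mul_one _))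
        (r1 B) σ
      simp only [ContinuousMap.add_apply, ContinuousMap.smul_apply, smul_eq_mul]
      rw [abs_le] at this
      nlinarith [this.1, (hφB B).1, (hφB B).2]
    · have e2 : hd G φ * res (C.Eb B) A = 0 := by
        funext e; by_cases he : e ∈ C.Eb B
        · simp [hd, h.2 e he]
        · simp [res, he]
      rw [e2, K_zero_left, h.1]
      simp only [ContinuousMap.zero_apply]
      linarith
  have p1 : ∀ B σ, K G τ (C.Sb B) (hd G φ * res (C.Eb B) A₁) (res (C.Eb B) (grad G ψ)) σ ≤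
      3 * β * ∑ e, res (C.Eb B) A e ^ 2 + 12 * u ^ 2 * f := by
    intro B σ
    have hK := K_self_le G hJ hβ τ (C.Sb B) (res (C.Eb B) A) σ
    have huf : 0 ≤ u ^ 2 * f := by positivity
    have hs0 : 0 ≤ 3 * β * ∑ e, res (C.Eb B) A e ^ 2 := by positivity
    rcases hcell B with h | h
    · have e1 : res (C.Eb B) (grad G ψ) = res (C.Eb B) A := by
        funext e; by_cases he : e ∈ C.Eb B <;> simp [res, he, h e]
      have e2 : hd G φ * res (C.Eb B) A₁ =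
          (φB B ^ 2) • res (C.Eb B) A + (fun e => φ (G.t e) ^ 2 - φB B ^ 2) * res (C.Eb B) A := by
        funext e; by_cases he : e ∈ C.Eb B
        · simp [hd, res, he, hA₁]; ring
        · simp [res, he]
      rw [e1, e2, K_add_left, K_smul_left]
      have := abs_K_le G hJ hβ τ (C.Sb B) (hN B)
        (A := (fun e => φ (G.t e) ^ 2 - φB B ^ 2) * res (C.Eb B) A) (A' := res (C.Eb B) A)
        (a := 2 * f) (a' := 1)
        (fun e he => by simp [r0 B e he]) (r0 B) (by positivity) zero_le_one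
        (fun e he => by
          rw [Pi.mul_apply, abs_mul]
          have h1 : |φ (G.t e) ^ 2 - φB B ^ 2| ≤ 2 * f := by
            rw [sq_sub_sq, abs_mul]
            refine mul_le_mul ?_ (hfB B e he) (abs_nonneg _) (by norm_num)
            have := abs_le.1 (hφ1 (G.t e))
            rw [abs_le]; constructor <;> linarith [(hφB B).1, (hφB B).2]
          exact (mul_le_mul h1 (r1 B e he) (abs_nonneg _) (by positivity)).trans_eq (mul_one _))
        (r1 B) σ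
      simp only [ContinuousMap.add_apply, ContinuousMap.smul_apply, smul_eq_mul]
      rw [abs_le] at this
      have hq : φB B ^ 2 ≤ 1 := pow_le_one₀ (hφB B).1 (hφB B).2
      nlinarith [this.2, sq_nonneg (φB B)]
    · have e2 : hd G φ * res (C.Eb B) A₁ = 0 := by
        funext e; by_cases he : e ∈ C.Eb B
        · simp [hd, h.2 e he]
        · simp [res, he]
      rw [e2, K_zero_left]
      simp only [ContinuousMap.zero_apply]
      linarith
  set m : ℝ := (Fintype.card ι : ℝ) with hm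
  have hm0 : 0 ≤ m := by positivity
  have herr' : m * (100 * u ^ 3 * f * g) + m * (12 * u ^ 2 * f) ≤ ε * a / 4 := by
    refine le_trans ?_ herr
    rw [← mul_add]
    refine mul_le_mul_of_nonneg_left ?_ hm0
    have h1 : u ^ 2 * f ≤ u ^ 3 * f * g := by
      have : 1 ≤ u * g := one_le_mul_of_one_le_of_one_le hu1 hg1
      have h2 : 0 ≤ u ^ 2 * f := by positivity
      nlinarith
    linarith
  set KK := ∑ B, K G τ (C.Sb B) (res (C.Eb B) A) (res (C.Eb B) A) with hKK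
  have q0 : Ex G S KK σ - (3 * β * N * ∑ B, (1 - φB B) + m * (12 * u ^ 2 * f)) ≤
      Ex G S (∑ B, K G τ (C.Sb B) (hd G φ * res (C.Eb B) A) (res (C.Eb B) (grad G ψ))) σ := by
    have := Ex_le G (S := S)
      (F := KK - ∑ B, K G τ (C.Sb B) (hd G φ * res (C.Eb B) A) (res (C.Eb B) (grad G ψ)))
      (c := 3 * β * N * ∑ B, (1 - φB B) + m * (12 * u ^ 2 * f)) (fun σ => by
        have := Finset.sum_le_sum fun B (_ : B ∈ Finset.univ) => p0 B σ
        simp only [Finset.sum_sub_distrib, Finset.sum_const, Finset.card_univ, nsmul_eq_mul,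
          ← Finset.mul_sum] at this
        simp only [hKK, ContinuousMap.sub_apply, ContinuousMap.coe_sum, Finset.sum_apply,
          Finset.sum_sub_distrib, Finset.sum_const, Finset.card_univ, nsmul_eq_mul]
        linarith) σ
    rw [map_sub, ContinuousMap.sub_apply] at this
    linarith
  have q1 : Ex G S (∑ B, K G τ (C.Sb B) (hd G φ * res (C.Eb B) A₁) (res (C.Eb B) (grad G ψ))) σ ≤
      3 * β * a + m * (12 * u ^ 2 * f) := by
    refine Ex_le G (fun σ => ?_) σ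
    have := Finset.sum_le_sum fun B (_ : B ∈ Finset.univ) => p1 B σ
    simp only [Finset.sum_add_distrib, Finset.sum_const, Finset.card_univ, nsmul_eq_mul,
      ← Finset.mul_sum, C.sum_res_sq hA] at this
    simp only [ContinuousMap.coe_sum, Finset.sum_apply]
    have h3 : 3 * β * ∑ e, A e ^ 2 ≤ 3 * β * a := mul_le_mul_of_nonneg_left hAa (by positivity)
    linarith
  rw [K_total G τ hS, C.K_So τ hA, ContinuousMap.sub_apply]
  rw [abs_le] at i0 i1
  have hεa : 0 < ε * a := by positivity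
  refine rg_arith (V1 := CV G τ S C.So A₁ A₁ σ)
    (y := √(24 * β ^ 2 * (∑ e, grad G φ e ^ 2) * ∑ e, grad G ψ e ^ 2)) ha hε hβ hc0
    (CV_self_nonneg G _ _ _ _ _) (CV_self_nonneg G _ _ _ _ _) (Real.sqrt_nonneg _) ?_ ?_ ?_
    (Ex_le G hκ σ)
  · rw [Real.sq_sqrt (by positivity)]; exact hy
  · linarith [i1.1]
  · have := CV_le G τ S C.So A A₁ σ
    rw [mul_add]
    linarith [i0.2]

end Crest.Agent.R167
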